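import Crest.Agent.R296.Str

/-!
# The colimit of an `ω`-chain of embeddings

PLAN.  Transition maps `F n m (h : n ≤ m) : α n → α m` (e.g. by `Nat.leRec`/`Nat.leRecOn`, or `F n k : α n → α (n+k)`),
all embeddings.  Carrier: quotient of `Σ n, α n` by "equal after moving to a common stage" (or Mathlib's
`DirectLimit`); `g n x = ⟦⟨n,x⟩⟧`, injective.  Every relation of the limit is the union of the images:
`le x y ↔ ∃ n a b, x = g n a ∧ y = g n b ∧ le a b`, and so on (`germ x s ↔ ∃ n a s', x = g n a ∧ s = g n ∘ s' ∧ germ a s'`,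
`clu A S ↔ ∃ n A' S', clu A' S' ∧ A = g n '' A' ∧ S = g n '' S'`).  Key facts: finitely many points come from a common
stage, `g n a = g m b → ∃ k, F a = F b`, `le (g n a) (g n b) ↔ le a b`, `cpt (g n a) ↔ cpt a` (`Emb.cpt_of`).
`glb`: the glb at a common stage stays the glb (`Emb.glb'`); `sep`: use `sep` at a common stage;
`clu_meet`: move cluster and `d` to a common stage `k`, take `s` there; for `N` at a later stage `k'` use `Emb.isMeet`
(twice: once to reach `N`, and `Emb.glb'` for `u` at a still later stage).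
-/

set_option autoImplicit false

namespace Crest.Agent.R296

namespace LimitA
open Filter

theorem carrier (α : ℕ → Type) [∀ n, Countable (α n)] (f : ∀ n, α n → α (n + 1))
    (hf : ∀ n, Function.Injective (f n)) :
    ∃ (γ : Type) (_ : Countable γ) (g : ∀ n, α n → γ), (∀ n, Function.Injective (g n)) ∧
      (∀ n x, g (n + 1) (f n x) = g n x) ∧ ∀ w, ∃ n x, w = g n x := by
  let F : ∀ {n m : ℕ}, n ≤ m → α n → α m := fun h x => Nat.leRecOn h (fun {k} => f k) x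
  have Ft : ∀ {n m k : ℕ} (h1 : n ≤ m) (h2 : m ≤ k) (x : α n), F h2 (F h1 x) = F (h1.trans h2) x :=
    fun h1 h2 x => (Nat.leRecOn_trans h1 h2 x).symm
  have Fi : ∀ {n m : ℕ} (h : n ≤ m), Function.Injective (F h) := fun h =>
    Nat.leRecOn_injective h _ hf
  let S : Setoid (Σ n, α n) :=
    { r := fun x y => ∃ (k : ℕ) (h1 : x.1 ≤ k) (h2 : y.1 ≤ k), F h1 x.2 = F h2 y.2
      iseqv :=
        { refl := fun x => ⟨x.1, le_rfl, le_rfl, rfl⟩
          symm := fun ⟨k, h1, h2, h⟩ => ⟨k, h2, h1, h.symm⟩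
          trans := fun ⟨k, h1, h2, h⟩ ⟨l, h3, h4, h'⟩ =>
            ⟨max k l, h1.trans (le_max_left _ _), h4.trans (le_max_right _ _), by
              rw [← Ft h1 (le_max_left _ _), h, Ft, ← Ft h4 (le_max_right _ _), ← h', Ft]⟩ } }
  refine ⟨Quotient S, inferInstance, fun n x => Quotient.mk S ⟨n, x⟩, fun n x y h => ?_,
    fun n x => Quotient.sound ⟨n + 1, le_rfl, Nat.le_succ n, ?_⟩, fun w => ?_⟩
  · obtain ⟨k, h1, h2, h⟩ := Quotient.exact h
    exact Fi h1 h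
  · simp only [F]
    rw [Nat.leRecOn_self, Nat.leRecOn_succ le_rfl, Nat.leRecOn_self]
  · obtain ⟨⟨n, x⟩, rfl⟩ := Quotient.exists_rep w
    exact ⟨n, x, rfl⟩

variable {α : ℕ → Type} {p : ∀ n, Str (α n)} {γ : Type} {g : ∀ n, α n → γ}

/-- the data of the colimit -/
structure Co (p : ∀ n, Str (α n)) (g : ∀ n, α n → γ) : Prop where
  inj : ∀ n, Function.Injective (g n)
  tr : ∀ {n m}, n ≤ m → ∃ φ : α n → α m, Emb (p n) (p m) φ ∧ ∀ x, g m (φ x) = g n x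
  cov : ∀ w, ∃ n x, w = g n x

theorem Co.ev (H : Co p g) (w : γ) : ∀ᶠ n in atTop, ∃ a, w = g n a := by
  obtain ⟨n, x, rfl⟩ := H.cov w
  filter_upwards [eventually_ge_atTop n] with k hk
  obtain ⟨φ, -, h⟩ := H.tr hk
  exact ⟨φ x, (h x).symm⟩

theorem Co.later (H : Co p g) (n : ℕ) (w : γ) :
    ∃ (k : ℕ) (φ : α n → α k) (a : α k), Emb (p n) (p k) φ ∧ (∀ x, g k (φ x) = g n x) ∧ w = g k a := by
  obtain ⟨k, hk, a, ha⟩ := ((eventually_ge_atTop n).and (H.ev w)).exists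
  obtain ⟨φ, h1, h2⟩ := H.tr hk
  exact ⟨k, φ, a, h1, h2, ha⟩

variable (p g) in
/-- order of the limit -/
def le (x y : γ) : Prop := ∀ᶠ n in atTop, ∃ a b, x = g n a ∧ y = g n b ∧ (p n).le a b

variable (p g) in
/-- compact points of the limit -/
def cpt (x : γ) : Prop := ∀ᶠ n in atTop, ∃ a, x = g n a ∧ (p n).cpt a

variable (p g) in
/-- germs of the limit -/
def germ (x : γ) (s : ℕ → γ) : Prop :=
  ∀ᶠ n in atTop, ∃ a s', x = g n a ∧ s = g n ∘ s' ∧ (p n).germ a s'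

variable (p g) in
/-- labels of the limit -/
def lab (x y : γ) (l : Lab) : Prop := ∀ᶠ n in atTop, ∃ a b, x = g n a ∧ y = g n b ∧ (p n).lab a b l

variable (p g) in
/-- good pairs of the limit -/
def good (x y : γ) : Prop := ∀ᶠ n in atTop, ∃ a b, x = g n a ∧ y = g n b ∧ (p n).good a b

variable (p g) in
/-- clusters of the limit -/
def clu (A S : Set γ) : Prop :=
  ∀ᶠ n in atTop, ∃ A' S', A = g n '' A' ∧ S = g n '' S' ∧ (p n).clu A' S'

theorem Co.le_iff (H : Co p g) {n : ℕ} (a b : α n) : le p g (g n a) (g n b) ↔ (p n).le a b := by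
  constructor
  · intro h
    obtain ⟨k, hk, a', b', h1, h2, h3⟩ := ((eventually_ge_atTop n).and h).exists
    obtain ⟨φ, e1, e2⟩ := H.tr hk
    rw [← e2] at h1 h2
    rw [← H.inj k h1, ← H.inj k h2] at h3
    exact (e1.le_iff a b).1 h3
  · intro h
    filter_upwards [eventually_ge_atTop n] with k hk
    obtain ⟨φ, e1, e2⟩ := H.tr hk
    exact ⟨φ a, φ b, (e2 a).symm, (e2 b).symm, e1.mono h⟩

theorem Co.cpt_iff (H : Co p g) {n : ℕ} (a : α n) : cpt p g (g n a) ↔ (p n).cpt a := by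
  constructor
  · intro h
    obtain ⟨k, hk, a', h1, h3⟩ := ((eventually_ge_atTop n).and h).exists
    obtain ⟨φ, e1, e2⟩ := H.tr hk
    rw [← e2] at h1
    rw [← H.inj k h1] at h3
    exact e1.cpt_of h3
  · intro h
    filter_upwards [eventually_ge_atTop n] with k hk
    obtain ⟨φ, e1, e2⟩ := H.tr hk
    exact ⟨φ a, (e2 a).symm, e1.cpt h⟩

theorem Co.glb' (H : Co p g) {n : ℕ} {a b c : α n} (ha : (p n).cpt a) (hb : (p n).cpt b)
    (hc : ∀ u, (p n).le u a → (p n).le u b → (p n).le u c) {w : γ} (h1 : le p g w (g n a))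
    (h2 : le p g w (g n b)) : le p g w (g n c) := by
  obtain ⟨k, φ, u, e1, e2, rfl⟩ := H.later n w
  rw [← e2, H.le_iff] at h1 h2 ⊢
  exact e1.glb' ha hb hc h1 h2

theorem Co.germ (H : Co p g) {n : ℕ} {u : α n} {s : ℕ → α n} (h : (p n).germ u s) :
    germ p g (g n u) (g n ∘ s) := by
  filter_upwards [eventually_ge_atTop n] with k hk
  obtain ⟨φ, e1, e2⟩ := H.tr hk
  exact ⟨φ u, φ ∘ s, (e2 u).symm, funext fun i => (e2 _).symm, e1.germ h⟩

theorem Co.lab (H : Co p g) {n : ℕ} {u t : α n} {l : Lab} (h : (p n).lab u t l) :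
    lab p g (g n u) (g n t) l := by
  filter_upwards [eventually_ge_atTop n] with k hk
  obtain ⟨φ, e1, e2⟩ := H.tr hk
  exact ⟨φ u, φ t, (e2 u).symm, (e2 t).symm, e1.lab h⟩

theorem Co.good (H : Co p g) {n : ℕ} {u t : α n} (h : (p n).good u t) :
    good p g (g n u) (g n t) := by
  filter_upwards [eventually_ge_atTop n] with k hk
  obtain ⟨φ, e1, e2⟩ := H.tr hk
  exact ⟨φ u, φ t, (e2 u).symm, (e2 t).symm, e1.good h⟩

theorem Co.clu (H : Co p g) {n : ℕ} {A S : Set (α n)} (h : (p n).clu A S) :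
    clu p g (g n '' A) (g n '' S) := by
  filter_upwards [eventually_ge_atTop n] with k hk
  obtain ⟨φ, e1, e2⟩ := H.tr hk
  exact ⟨φ '' A, φ '' S, by simp only [Set.image_image, e2], by simp only [Set.image_image, e2],
    e1.clu h⟩

/-- the limit structure -/
def Co.str (H : Co p g) : Str γ where
  le := le p g
  cpt := cpt p g
  germ := LimitA.germ p g
  lab := LimitA.lab p g
  good := LimitA.good p g
  clu := LimitA.clu p g
  le_refl x := by
    obtain ⟨n, a, rfl⟩ := H.cov x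
    exact (H.le_iff a a).2 ((p n).le_refl a)
  le_trans {x y z} h1 h2 := by
    obtain ⟨n, ⟨a, rfl⟩, ⟨b, rfl⟩, c, rfl⟩ := ((H.ev x).and ((H.ev y).and (H.ev z))).exists
    rw [H.le_iff] at h1 h2 ⊢
    exact (p n).le_trans h1 h2
  le_antisymm {x y} h1 h2 := by
    obtain ⟨n, ⟨a, rfl⟩, b, rfl⟩ := ((H.ev x).and (H.ev y)).exists
    rw [H.le_iff] at h1 h2
    rw [(p n).le_antisymm h1 h2]
  sep {x y} h := by
    obtain ⟨n, ⟨a, rfl⟩, b, rfl⟩ := ((H.ev x).and (H.ev y)).exists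
    exact (H.le_iff a b).2 ((p n).sep fun D hD hb =>
      (H.le_iff _ _).1 (h _ ((H.cpt_iff D).2 hD) ((H.le_iff _ _).2 hb)))
  glb {x y} h1 h2 := by
    obtain ⟨n, ⟨a, rfl, ha⟩, b, rfl, hb⟩ := (h1.and h2).exists
    obtain ⟨c, k1, k2, k3, k4⟩ := (p n).glb ha hb
    exact ⟨g n c, (H.cpt_iff c).2 k1, (H.le_iff _ _).2 k2, (H.le_iff _ _).2 k3,
      fun u => H.glb' ha hb k4⟩
  germ_ex x := by
    obtain ⟨n, a, rfl⟩ := H.cov x
    obtain ⟨s, hs⟩ := (p n).germ_ex a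
    exact ⟨_, H.germ hs⟩
  germ_uniq h1 h2 := by
    obtain ⟨n, ⟨a, s, rfl, rfl, k1⟩, b, s', e, rfl, k2⟩ := (h1.and h2).exists
    rw [← H.inj n e] at k2
    obtain ⟨N, hN⟩ := (p n).germ_uniq k1 k2
    exact ⟨N, fun i hi => congrArg (g n) (hN i hi)⟩
  germ_cpt h i := by
    obtain ⟨n, a, s, rfl, rfl, k⟩ := h.exists
    obtain ⟨k1, k2, k3⟩ := (p n).germ_cpt k i
    exact ⟨(H.cpt_iff _).2 k1, (H.le_iff _ _).2 k2, (H.le_iff _ _).2 k3⟩
  germ_cof h1 h2 h3 := by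
    obtain ⟨n, ⟨a, s, rfl, rfl, k1⟩, D, rfl, k2⟩ := (h1.and h2).exists
    obtain ⟨i, hi⟩ := (p n).germ_cof k1 k2 ((H.le_iff _ _).1 h3)
    exact ⟨i, (H.le_iff _ _).2 hi⟩
  lab_ex h := by
    obtain ⟨n, a, b, rfl, rfl, k⟩ := h.exists
    obtain ⟨l, hl⟩ := (p n).lab_ex k
    exact ⟨l, H.lab hl⟩
  lab_le h := by
    obtain ⟨n, a, b, rfl, rfl, k⟩ := h.exists
    exact (H.le_iff _ _).2 ((p n).lab_le k)
  lab_fun h1 h2 := by
    obtain ⟨n, ⟨a, b, rfl, rfl, k1⟩, a', b', e1, e2, k2⟩ := (h1.and h2).exists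
    rw [← H.inj n e1, ← H.inj n e2] at k2
    exact (p n).lab_fun k1 k2
  lab_inj h1 h2 := by
    obtain ⟨n, ⟨a, b, rfl, rfl, k1⟩, a', b', rfl, e2, k2⟩ := (h1.and h2).exists
    rw [← H.inj n e2] at k2
    rw [(p n).lab_inj k1 k2]
  good_spec h := by
    obtain ⟨n, a, b, rfl, rfl, k⟩ := h.exists
    simpa only [H.cpt_iff, H.le_iff] using (p n).good_spec k
  clu_ne h := by
    obtain ⟨n, A, S, rfl, rfl, k⟩ := h.exists
    exact ((p n).clu_ne k).image _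
  clu_le h := by
    obtain ⟨n, A, S, rfl, rfl, k⟩ := h.exists
    rintro _ ⟨a, ha, rfl⟩ _ ⟨s, hs, rfl⟩
    exact (H.le_iff _ _).2 ((p n).clu_le k a ha s hs)
  clu_meet h c hc d hd hA := by
    obtain ⟨n, ⟨A, S, rfl, rfl, k⟩, d, rfl, hd'⟩ := (h.and hd).exists
    obtain ⟨c, hc, rfl⟩ := hc
    obtain ⟨s, hs, k1, k2, k3⟩ := (p n).clu_meet k c hc d hd'
      fun a ha => (H.le_iff _ _).1 (hA _ ⟨a, ha, rfl⟩)
    refine ⟨g n s, ⟨s, hs, rfl⟩, (H.le_iff _ _).2 k1, (H.le_iff _ _).2 k2, fun N hN hsN => ?_⟩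
    obtain ⟨k, φ, N, e1, e2, rfl⟩ := H.later n N
    rw [← e2, H.le_iff] at hsN
    obtain ⟨M, m1, m2, m3⟩ := e1.isMeet hd' k3 N ((H.cpt_iff _).1 hN) hsN
    refine ⟨g k M, (H.cpt_iff _).2 m1, by rw [← e2, H.le_iff]; exact m2, fun u hu hu' => ?_⟩
    rw [← e2] at hu
    exact H.glb' (e1.cpt hd') m1 m3 hu hu'
  clu_ng h c hc e e' he hA := by
    obtain ⟨n, ⟨A, S, rfl, rfl, k⟩, a, b, rfl, rfl, hg⟩ := (h.and he).exists
    obtain ⟨c, hc, rfl⟩ := hc
    rw [H.le_iff]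
    exact (p n).clu_ng k c hc a b hg fun x hx => (H.le_iff _ _).1 (hA _ ⟨x, hx, rfl⟩)

theorem Co.emb (H : Co p g) (n : ℕ) : Emb (p n) H.str (g n) where
  le_iff := H.le_iff
  cpt h := (H.cpt_iff _).2 h
  glb ha hb h1 h2 := by
    obtain ⟨c, k1, k2, k3, k4⟩ := (p n).glb ha hb
    exact ⟨c, k1, k2, k3, H.glb' ha hb k4 h1 h2⟩
  germ := H.germ
  lab := H.lab
  good := H.good
  clu := H.clu

end LimitA

theorem limit0 (α : ℕ → Type) [∀ n, Countable (α n)] (p : ∀ n, Str (α n))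
    (f : ∀ n, α n → α (n + 1)) (hf : ∀ n, Emb (p n) (p (n + 1)) (f n)) :
    ∃ (γ : Type) (_ : Countable γ) (W : Str γ) (g : ∀ n, α n → γ),
      (∀ n, Emb (p n) W (g n)) ∧ (∀ n x, g (n + 1) (f n x) = g n x) ∧
      (∀ w, ∃ n x, w = g n x) := by
  obtain ⟨γ, hγ, g, h1, h2, h3⟩ := LimitA.carrier α f fun n => (hf n).inj
  have H : LimitA.Co p g := by
    refine ⟨h1, fun {n m} h => ?_, h3⟩
    induction h with
    | refl => exact ⟨id, Emb.refl _, fun _ => rfl⟩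
    | step _ ih =>
      obtain ⟨φ, e1, e2⟩ := ih
      exact ⟨f _ ∘ φ, e1.trans (hf _), fun x => (h2 _ _).trans (e2 x)⟩
  exact ⟨γ, hγ, H.str, g, H.emb, h2, h3⟩

end Crest.Agent.R296
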