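import Crest.Agent.R296.Str

/-!
# Small operations on structures: new top, new bottom, new cluster

PLAN.
* `add_top0`: carrier `Option α`, `none` is the new compact top: `le x none`, `le (some a) (some b) ↔ le a b`,
  `¬ le none (some _)`; `germ none s ↔ s = fun _ => none`, `germ (some a) s ↔ ∃ s', germ a s' ∧ s = some ∘ s'`;
  `lab (some a) (some b) l ↔ lab a b l`, `lab x none l ↔ l = ψ x` with `ψ` injective and `ψ (some u) = β`
  (take `φ` from `fresh_labels {β}` and update); `good x y ↔ (some-image) ∨ (x = some e ∧ y = none ∧ cpt e)`;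
  clusters are the images.  (`sep` for `u = none`, `v = some b` uses `ex_cpt`.)
* `add_bot0`: `Option α`, `none` the new compact least point; `lab none (some t) l ↔ l = ψ t`,
  `lab none none l ↔ l = ψ₀` (any fixed label); `clu_meet` for `d = none` is vacuous because of `clu_ne`.
* `add_clu`: same carrier, `clu' A' S' ↔ clu A' S' ∨ (A' = A ∧ S' = S)`, everything else unchanged.
-/

set_option autoImplicit false

namespace Crest.Agent.R296

namespace Ops
variable {α : Type} (p : Str α)

/-- compact points of `Option α` -/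
def oCpt : Option α → Prop
  | none => True
  | some a => p.cpt a

/-- germs on `Option α` -/
def oGerm : Option α → (ℕ → Option α) → Prop
  | none, s => s = fun _ => none
  | some a, s => ∃ s', p.germ a s' ∧ s = some ∘ s'

/-- clusters on `Option α` -/
def oClu (A S : Set (Option α)) : Prop := ∃ A' S', p.clu A' S' ∧ A = some '' A' ∧ S = some '' S'

theorem oGerm_ex : ∀ u, ∃ s, oGerm p u s
  | none => ⟨_, rfl⟩
  | some a => (p.germ_ex a).elim fun s hs => ⟨_, s, hs, rfl⟩

theorem oGerm_uniq : ∀ {u s s'}, oGerm p u s → oGerm p u s' → ∃ N, ∀ n, N ≤ n → s n = s' n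
  | none, _, _, h, h' => ⟨0, fun n _ => (congrFun h n).trans (congrFun h' n).symm⟩
  | some _, _, _, ⟨_, h, rfl⟩, ⟨_, h', rfl⟩ =>
    (p.germ_uniq h h').imp fun _ hN n hn => congrArg some (hN n hn)

theorem oClu_ne {A S} (h : oClu p A S) : A.Nonempty := by
  obtain ⟨A', S', h, rfl, rfl⟩ := h
  exact (p.clu_ne h).image _

/-- order with a new top -/
def tLe : Option α → Option α → Prop
  | none, none => True
  | some _, none => True
  | none, some _ => False
  | some a, some b => p.le a b

theorem tLe_none : ∀ x, tLe p x none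
  | none => trivial
  | some _ => trivial

/-- labels with a new top -/
def tLab (ψ : Option α → Lab) : Option α → Option α → Lab → Prop
  | none, none, l => l = ψ none
  | some a, none, l => l = ψ (some a)
  | none, some _, _ => False
  | some a, some b, l => p.lab a b l

/-- universal points with a new top -/
def tGood : Option α → Option α → Prop
  | none, none => False
  | none, some _ => False
  | some e, none => p.cpt e
  | some e, some e' => p.good e e'

theorem tLe_refl : ∀ x, tLe p x x
  | none => trivial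
  | some a => p.le_refl a

/-- the structure with a new top -/
def top (ψ : Option α → Lab) (hψ : Function.Injective ψ) : Str (Option α) where
  le := tLe p
  cpt := oCpt p
  germ := oGerm p
  lab := tLab p ψ
  good := tGood p
  clu := oClu p
  le_refl := tLe_refl p
  le_trans := by
    rintro (_ | a) (_ | b) (_ | c) h h' <;>
      first | exact trivial | exact h.elim | exact h'.elim | exact p.le_trans h h'
  le_antisymm := by
    rintro (_ | a) (_ | b) h h' <;>
      first | rfl | exact h.elim | exact h'.elim | exact congrArg some (p.le_antisymm h h')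
  sep := by
    rintro u (_ | b) h
    · exact tLe_none p u
    · rcases u with _ | a
      · obtain ⟨D, h1, h2⟩ := p.ex_cpt b
        exact h (some D) h1 h2
      · exact p.sep fun D h1 h2 => h (some D) h1 h2
  glb := by
    rintro (_ | a) b ha hb
    · exact ⟨b, hb, tLe_none p b, tLe_refl p b, fun _ _ h => h⟩
    · rcases b with _ | b
      · exact ⟨some a, ha, p.le_refl a, trivial, fun _ h _ => h⟩
      · obtain ⟨c, h1, h2, h3, h4⟩ := p.glb ha hb
        refine ⟨some c, h1, h2, h3, ?_⟩
        rintro (_ | u) h5 h6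
        · exact h5
        · exact h4 u h5 h6
  germ_ex := oGerm_ex p
  germ_uniq := oGerm_uniq p
  germ_cpt := by
    rintro (_ | a) s h n
    · obtain rfl : s = fun _ => none := h
      exact ⟨trivial, trivial, trivial⟩
    · obtain ⟨s, h, rfl⟩ := h
      exact p.germ_cpt h n
  germ_cof := by
    rintro u s (_ | D) h hD hu
    · exact ⟨0, tLe_none p _⟩
    · rcases u with _ | a
      · exact hu.elim
      · obtain ⟨s, h, rfl⟩ := h
        exact p.germ_cof h hD hu
  lab_ex := by
    rintro (_ | a) (_ | b) h <;> first | exact ⟨_, rfl⟩ | exact h.elim | exact p.lab_ex h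
  lab_le := by
    rintro (_ | a) (_ | b) l h <;> first | exact trivial | exact h.elim | exact p.lab_le h
  lab_fun := by
    rintro (_ | a) (_ | b) l l' h h' <;>
      first | exact Eq.trans h (Eq.symm h') | exact h.elim | exact p.lab_fun h h'
  lab_inj := by
    rintro (_ | a) (_ | a') (_ | b) l h h' <;>
      first
        | rfl
        | exact hψ (Eq.trans (Eq.symm h) h')
        | exact h.elim
        | exact h'.elim
        | exact congrArg some (p.lab_inj h h')
  good_spec := by
    rintro (_ | e) (_ | e') h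
    · exact h.elim
    · exact h.elim
    · exact ⟨h, trivial, trivial, id⟩
    · exact p.good_spec h
  clu_ne := oClu_ne p
  clu_le := by
    rintro _ _ ⟨A, S, h, rfl, rfl⟩ _ ⟨a, ha, rfl⟩ _ ⟨s, hs, rfl⟩
    exact p.clu_le h a ha s hs
  clu_meet := by
    rintro _ _ ⟨A, S, h, rfl, rfl⟩ _ ⟨c, hc, rfl⟩ (_ | d) hd hA
    · exact ⟨some c, ⟨c, hc, rfl⟩, trivial, p.le_refl c, fun N hN h1 => ⟨N, hN, h1, fun _ _ h => h⟩⟩
    · obtain ⟨s, hs, h1, h2, h3⟩ := p.clu_meet h c hc d hd fun a ha => hA _ ⟨a, ha, rfl⟩
      refine ⟨some s, ⟨s, hs, rfl⟩, h1, h2, ?_⟩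
      rintro (_ | N) hN h4
      · exact ⟨none, trivial, trivial, fun _ _ h => h⟩
      · obtain ⟨M, h5, h6, h7⟩ := h3 N hN h4
        refine ⟨some M, h5, h6, ?_⟩
        rintro (_ | u) h8 h9
        · exact h8
        · exact h7 u h8 h9
  clu_ng := by
    rintro _ _ ⟨A, S, h, rfl, rfl⟩ _ ⟨c, hc, rfl⟩ (_ | e) (_ | e') hg hA
    · exact hg.elim
    · exact hg.elim
    · exact id
    · exact p.clu_ng h c hc e e' hg fun a ha => hA _ ⟨a, ha, rfl⟩

theorem top_emb (ψ : Option α → Lab) (hψ : Function.Injective ψ) : Emb p (top p ψ hψ) some where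
  le_iff _ _ := Iff.rfl
  cpt h := h
  glb := by
    rintro a b (_ | w) ha hb h1 h2
    · exact h1.elim
    · obtain ⟨c, h3, h4, h5, h6⟩ := p.glb ha hb
      exact ⟨c, h3, h4, h5, h6 w h1 h2⟩
  germ h := ⟨_, h, rfl⟩
  lab h := h
  good h := h
  clu h := ⟨_, _, h, rfl, rfl⟩

/-- order with a new bottom -/
def bLe : Option α → Option α → Prop
  | none, none => True
  | none, some _ => True
  | some _, none => False
  | some a, some b => p.le a b

theorem none_bLe : ∀ x, bLe p none x
  | none => trivial
  | some _ => trivial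

/-- labels with a new bottom -/
def bLab (ψ : α → Lab) : Option α → Option α → Lab → Prop
  | none, none, l => l = fun _ => true
  | none, some t, l => l = ψ t
  | some _, none, _ => False
  | some a, some b, l => p.lab a b l

/-- universal points with a new bottom -/
def bGood : Option α → Option α → Prop
  | none, none => False
  | none, some _ => False
  | some _, none => False
  | some e, some e' => p.good e e'

/-- the structure with a new bottom -/
def bot (ψ : α → Lab) (hψ : ∀ a t, ¬ p.lab a t (ψ t)) : Str (Option α) where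
  le := bLe p
  cpt := oCpt p
  germ := oGerm p
  lab := bLab p ψ
  good := bGood p
  clu := oClu p
  le_refl := by
    rintro (_ | a)
    · trivial
    · exact p.le_refl a
  le_trans := by
    rintro (_ | a) (_ | b) (_ | c) h h' <;>
      first | exact trivial | exact h.elim | exact h'.elim | exact p.le_trans h h'
  le_antisymm := by
    rintro (_ | a) (_ | b) h h' <;>
      first | rfl | exact h.elim | exact h'.elim | exact congrArg some (p.le_antisymm h h')
  sep := by
    rintro (_ | a) v h
    · exact none_bLe p v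
    · rcases v with _ | b
      · exact h none trivial trivial
      · exact p.sep fun D h1 h2 => h (some D) h1 h2
  glb := by
    rintro (_ | a) b ha hb
    · exact ⟨none, trivial, trivial, none_bLe p b, fun _ h _ => h⟩
    · rcases b with _ | b
      · exact ⟨none, trivial, trivial, trivial, fun _ _ h => h⟩
      · obtain ⟨c, h1, h2, h3, h4⟩ := p.glb ha hb
        refine ⟨some c, h1, h2, h3, ?_⟩
        rintro (_ | u) h5 h6
        · trivial
        · exact h4 u h5 h6
  germ_ex := oGerm_ex p
  germ_uniq := oGerm_uniq p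
  germ_cpt := by
    rintro (_ | a) s h n
    · obtain rfl : s = fun _ => none := h
      exact ⟨trivial, trivial, trivial⟩
    · obtain ⟨s, h, rfl⟩ := h
      exact p.germ_cpt h n
  germ_cof := by
    rintro (_ | a) s D h hD hu
    · obtain rfl : s = fun _ => none := h
      exact ⟨0, hu⟩
    · rcases D with _ | D
      · exact hu.elim
      · obtain ⟨s, h, rfl⟩ := h
        exact p.germ_cof h hD hu
  lab_ex := by
    rintro (_ | a) (_ | b) h <;> first | exact ⟨_, rfl⟩ | exact h.elim | exact p.lab_ex h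
  lab_le := by
    rintro (_ | a) (_ | b) l h <;> first | exact trivial | exact h.elim | exact p.lab_le h
  lab_fun := by
    rintro (_ | a) (_ | b) l l' h h' <;>
      first | exact Eq.trans h (Eq.symm h') | exact h.elim | exact p.lab_fun h h'
  lab_inj := by
    rintro (_ | a) (_ | a') (_ | b) l h h'
    · rfl
    · rfl
    · exact h'.elim
    · obtain rfl : l = ψ b := h
      exact (hψ a' b h').elim
    · exact h.elim
    · obtain rfl : l = ψ b := h'
      exact (hψ a b h).elim
    · exact h.elim
    · exact congrArg some (p.lab_inj h h')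
  good_spec := by
    rintro (_ | e) (_ | e') h
    · exact h.elim
    · exact h.elim
    · exact h.elim
    · exact p.good_spec h
  clu_ne := oClu_ne p
  clu_le := by
    rintro _ _ ⟨A, S, h, rfl, rfl⟩ _ ⟨a, ha, rfl⟩ _ ⟨s, hs, rfl⟩
    exact p.clu_le h a ha s hs
  clu_meet := by
    rintro _ _ ⟨A, S, h, rfl, rfl⟩ _ ⟨c, hc, rfl⟩ (_ | d) hd hA
    · obtain ⟨a, ha⟩ := p.clu_ne h
      exact (hA _ ⟨a, ha, rfl⟩).elim
    · obtain ⟨s, hs, h1, h2, h3⟩ := p.clu_meet h c hc d hd fun a ha => hA _ ⟨a, ha, rfl⟩
      refine ⟨some s, ⟨s, hs, rfl⟩, h1, h2, ?_⟩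
      rintro (_ | N) hN h4
      · exact h4.elim
      · obtain ⟨M, h5, h6, h7⟩ := h3 N hN h4
        refine ⟨some M, h5, h6, ?_⟩
        rintro (_ | u) h8 h9
        · trivial
        · exact h7 u h8 h9
  clu_ng := by
    rintro _ _ ⟨A, S, h, rfl, rfl⟩ _ ⟨c, hc, rfl⟩ (_ | e) (_ | e') hg hA
    · exact hg.elim
    · exact hg.elim
    · exact hg.elim
    · exact p.clu_ng h c hc e e' hg fun a ha => hA _ ⟨a, ha, rfl⟩

theorem bot_emb (ψ : α → Lab) (hψ : ∀ a t, ¬ p.lab a t (ψ t)) : Emb p (bot p ψ hψ) some where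
  le_iff _ _ := Iff.rfl
  cpt h := h
  glb := by
    intro a b w ha hb h1 h2
    obtain ⟨c, h3, h4, h5, h6⟩ := p.glb ha hb
    refine ⟨c, h3, h4, h5, ?_⟩
    rcases w with _ | w
    · trivial
    · exact h6 w h1 h2
  germ h := ⟨_, h, rfl⟩
  lab h := h
  good h := h
  clu h := ⟨_, _, h, rfl, rfl⟩

theorem eqs_realised : True := by
  have _h0 := @oCpt.eq_def
  have _h1 := @oGerm.eq_def
  have _h2 := @tLe.eq_def
  have _h3 := @tLab.eq_def
  have _h4 := @tGood.eq_def
  have _h5 := @bLe.eq_def
  have _h6 := @bLab.eq_def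
  have _h7 := @bGood.eq_def
  trivial

end Ops

theorem add_top0 {α : Type} [Countable α] (p : Str α) (u : α) (β : Lab) :
    ∃ (T : Obj) (f : α → T.α), Emb p T.str f ∧ (∀ e, p.cpt e → T.str.good (f e) T.top) ∧
      T.str.lab (f u) T.top β ∧ (∀ w, w = T.top ∨ ∃ a, w = f a) := by
  classical
  obtain ⟨φ, h1, h2⟩ := fresh_labels {β} (Set.countable_singleton β) (Option α) β
  have hψ : Function.Injective fun x => if x = some u then β else φ x := by
    intro x y h
    simp only at h
    split_ifs at h with hx hy hy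
    · rw [hx, hy]
    · exact ((h2 y).1 h.symm).elim
    · exact ((h2 x).1 h).elim
    · exact h1 h
  refine ⟨⟨Option α, inferInstance, Ops.top p _ hψ, none, trivial, Ops.tLe_none p⟩, some,
    Ops.top_emb p _ hψ, fun e he => he, (if_pos rfl).symm, ?_⟩
  rintro (_ | a)
  · exact Or.inl rfl
  · exact Or.inr ⟨a, rfl⟩

theorem add_bot0 (S : Obj) (ψ : S.α → Lab) (hψ : ∀ a t, ¬ S.str.lab a t (ψ t)) :
    ∃ (T : Obj) (f : Hom S T) (o : T.α), (∀ w, T.str.le o w) ∧ (∀ a, ¬ T.str.le (f a) o) ∧
      (∀ t, T.str.lab o (f t) (ψ t)) ∧ (∀ w, w = o ∨ ∃ a, w = f a) ∧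
      (∀ a t l, T.str.lab (f a) (f t) l → S.str.lab a t l) := by
  refine ⟨⟨Option S.α, inferInstance, Ops.bot S.str ψ hψ, some S.top, S.top_cpt, ?_⟩,
    ⟨some, Ops.bot_emb S.str ψ hψ⟩, none, Ops.none_bLe S.str, fun _ => id, fun _ => rfl, ?_,
    fun _ _ _ h => h⟩
  · rintro (_ | a)
    · trivial
    · exact S.le_top a
  · rintro (_ | a)
    · exact Or.inl rfl
    · exact Or.inr ⟨a, rfl⟩

theorem add_clu {α : Type} (p : Str α) (A S : Set α) (h0 : A.Nonempty)
    (h1 : ∀ a ∈ A, ∀ s ∈ S, p.le a s)
    (h2 : ∀ c ∈ S, ∀ d, p.cpt d → (∀ a ∈ A, p.le a d) →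
      ∃ s ∈ S, p.le s d ∧ p.le s c ∧
        ∀ N, p.cpt N → p.le s N → ∃ M, p.cpt M ∧ p.le c M ∧ ∀ u, p.le u d → p.le u M → p.le u N)
    (h3 : ∀ c ∈ S, ∀ e e', p.good e e' → (∀ a ∈ A, p.le a e) → ¬ p.le e' c) :
    ∃ p' : Str α, Emb p p' id ∧ p'.clu A S := by
  refine ⟨{ p with
    clu := fun A' S' => p.clu A' S' ∨ (A' = A ∧ S' = S)
    clu_ne := ?_, clu_le := ?_, clu_meet := ?_, clu_ng := ?_ }, ?_, Or.inr ⟨rfl, rfl⟩⟩
  · rintro A' S' (h | ⟨rfl, rfl⟩)
    · exact p.clu_ne h
    · exact h0
  · rintro A' S' (h | ⟨rfl, rfl⟩)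
    · exact p.clu_le h
    · exact h1
  · rintro A' S' (h | ⟨rfl, rfl⟩)
    · exact p.clu_meet h
    · exact h2
  · rintro A' S' (h | ⟨rfl, rfl⟩)
    · exact p.clu_ng h
    · exact h3
  · exact ⟨fun _ _ => Iff.rfl, id, (Emb.refl p).glb, id, id, id,
      fun h => Or.inl ((Emb.refl p).clu h)⟩

end Crest.Agent.R296
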