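import Crest.Agent.R296.Ops

/-!
# Sealing a descending sequence of compact points

PLAN.  `A := {a | ∀ n, a ≤ d n}`.  For compact `t ≥ A` let `Φ t := {D | cpt D ∧ ∃ n, ∀ u, u ≤ d n → u ≤ t → u ≤ D}`,
and `Fil u := {D | cpt D ∧ u ≤ D}`.  Carrier `γ := α ⊕ {F : Set α // (∃ t, cpt t ∧ A ≤ t ∧ F = Φ t) ∧ ¬ ∃ u, F = Fil u}`
(countable: image of a countable type), `fil : γ → Set α` (`inl u ↦ Fil u`, `inr F ↦ F`) is injective (`sep`), and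
`le x y := fil y ⊆ fil x`; `cpt x := ∃ D, p.cpt D ∧ x = inl D`.  Every `fil x` is a nonempty filter of compact points
(upward closed among compact points, closed under glb), and `le x (inl D) ↔ D ∈ fil x` for compact `D`.
`germ (inr F) s ↔ s = inl ∘ σ F` where `σ F n` is a glb of `d n` and a chosen `t`; `germ (inl u)` = images.
`lab x y l ↔ (inl-image) ∨ (¬ (x,y ∈ range inl) ∧ le x y ∧ l = φ x)`, `φ` from `fresh_labels`.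
`good`, `clu` = images.  Then add (`add_clu`) the cluster `(inl '' A, {x | ∃ t cpt ≥ A, fil x = Φ t})`:
for `c` with `fil c = Φ t` and compact `d ≥ A` use the point with filter `Φ (glb t d)` (old or new);
`clu_ng`: `e' ≤ c` gives `e' ∈ A` (as `d n ∈ Φ t`), so `e' ≤ e`.
`m` is the point with filter `Φ (d 0) = {D cpt | ∃ n, d n ≤ D}`.
-/

set_option autoImplicit false

namespace Crest.Agent.R296

namespace SealA
variable {α : Type} (p : Str α)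

/-- principal filters -/
def Fil (u : α) : Set α := {D | p.cpt D ∧ p.le u D}

/-- the filter of `s` -/
def Gen (F : Set α) (s : ℕ → α) : Prop :=
  (∀ n, p.cpt (s n) ∧ p.le (s (n + 1)) (s n)) ∧ ∀ D, D ∈ F ↔ p.cpt D ∧ ∃ n, p.le (s n) D

variable {p}

theorem anti {s : ℕ → α} (h : ∀ n, p.le (s (n + 1)) (s n)) {m n : ℕ} (hmn : m ≤ n) :
    p.le (s n) (s m) := by
  induction hmn with
  | refl => exact p.le_refl _
  | step _ ih => exact p.le_trans (h _) ih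

theorem gen_of_germ {u : α} {s : ℕ → α} (h : p.germ u s) : Gen p (Fil p u) s :=
  ⟨fun n => ⟨(p.germ_cpt h n).1, (p.germ_cpt h n).2.2⟩, fun _ =>
    ⟨fun hD => ⟨hD.1, p.germ_cof h hD.1 hD.2⟩,
      fun ⟨h1, n, h2⟩ => ⟨h1, p.le_trans (p.germ_cpt h n).2.1 h2⟩⟩⟩

variable (p) in
/-- old and new filters -/
def Car (𝓕 : Set (Set α)) : Type := {F : Set α // (∃ u, F = Fil p u) ∨ F ∈ 𝓕}

variable {𝓕 : Set (Set α)}

/-- the inclusion -/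
def inc (u : α) : Car p 𝓕 := ⟨Fil p u, Or.inl ⟨u, rfl⟩⟩

theorem le_inc (a b : α) : (inc b : Car p 𝓕).1 ⊆ (inc a : Car p 𝓕).1 ↔ p.le a b :=
  ⟨fun h => p.sep fun _ hD hb => (h ⟨hD, hb⟩).2, fun h _ hD => ⟨hD.1, p.le_trans h hD.2⟩⟩

theorem inc_inj {a b : α} (h : (inc a : Car p 𝓕) = inc b) : a = b :=
  p.le_antisymm ((le_inc (𝓕 := 𝓕) a b).1 (h ▸ subset_rfl)) ((le_inc (𝓕 := 𝓕) b a).1 (h ▸ subset_rfl))

theorem countable [Countable α] (h : 𝓕.Countable) : Countable (Car p 𝓕) := by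
  have : ({F : Set α | (∃ u, F = Fil p u) ∨ F ∈ 𝓕}).Countable := by
    refine ((Set.countable_range (Fil p)).union h).mono ?_
    rintro F (⟨u, rfl⟩ | hF)
    · exact Or.inl ⟨u, rfl⟩
    · exact Or.inr hF
  exact this.to_subtype

theorem ex_gen (hF : ∀ F ∈ 𝓕, ∃ s, Gen p F s) (x : Car p 𝓕) : ∃ s, Gen p x.1 s := by
  obtain ⟨F, ⟨u, rfl⟩ | h⟩ := x
  · obtain ⟨s, hs⟩ := p.germ_ex u
    exact ⟨s, gen_of_germ hs⟩
  · exact hF F h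

theorem Gen.meet {F : Set α} {s : ℕ → α} (h : Gen p F s) {a b N : α} (ha : a ∈ F) (hb : b ∈ F)
    (hN : p.cpt N) (hc : ∀ u, p.le u a → p.le u b → p.le u N) : N ∈ F := by
  obtain ⟨-, n, h1⟩ := (h.2 a).1 ha
  obtain ⟨-, m, h2⟩ := (h.2 b).1 hb
  have hs := fun n => (h.1 n).2
  exact (h.2 N).2 ⟨hN, max n m, hc _ (p.le_trans (anti hs (le_max_left _ _)) h1)
    (p.le_trans (anti hs (le_max_right _ _)) h2)⟩

theorem Gen.mem {F : Set α} {s : ℕ → α} (h : Gen p F s) (n : ℕ) : s n ∈ F :=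
  (h.2 _).2 ⟨(h.1 n).1, n, p.le_refl _⟩

section str
variable (hF : ∀ F ∈ 𝓕, ∃ s, Gen p F s)
include hF

theorem cpt_of_mem {x : Car p 𝓕} {D : α} (h : D ∈ x.1) : p.cpt D := by
  obtain ⟨s, hs⟩ := ex_gen hF x
  exact ((hs.2 D).1 h).1

theorem meet_mem {x : Car p 𝓕} {a b N : α} (ha : a ∈ x.1) (hb : b ∈ x.1)
    (hN : p.cpt N) (hc : ∀ u, p.le u a → p.le u b → p.le u N) : N ∈ x.1 := by
  obtain ⟨s, hs⟩ := ex_gen hF x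
  exact hs.meet ha hb hN hc

theorem le_cpt {x : Car p 𝓕} {D : α} (hD : p.cpt D) : (inc D : Car p 𝓕).1 ⊆ x.1 ↔ D ∈ x.1 :=
  ⟨fun h => h ⟨hD, p.le_refl _⟩, fun h _ hD' => meet_mem hF h h hD'.1 fun _ hu _ => p.le_trans hu hD'.2⟩

theorem gen_of {x : Car p 𝓕} {s : ℕ → Car p 𝓕}
    (h : (∃ u s', x = inc u ∧ s = inc ∘ s' ∧ p.germ u s') ∨
      ((¬ ∃ u, x = inc u) ∧ s = inc ∘ (ex_gen hF x).choose)) :
    ∃ s', s = inc ∘ s' ∧ Gen p x.1 s' := by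
  rcases h with ⟨u, s', rfl, rfl, h⟩ | ⟨-, rfl⟩
  · exact ⟨s', rfl, gen_of_germ h⟩
  · exact ⟨_, rfl, (ex_gen hF x).choose_spec⟩

/-- the structure on the filters -/
def str (φ : Car p 𝓕 → Lab) (hφ : Function.Injective φ) (hφ' : ∀ x u t, ¬ p.lab u t (φ x)) :
    Str (Car p 𝓕) where
  le x y := y.1 ⊆ x.1
  cpt x := ∃ D, p.cpt D ∧ x = inc D
  germ x s := (∃ u s', x = inc u ∧ s = inc ∘ s' ∧ p.germ u s') ∨
    ((¬ ∃ u, x = inc u) ∧ s = inc ∘ (ex_gen hF x).choose)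
  lab x y l := (∃ u t, x = inc u ∧ y = inc t ∧ p.lab u t l) ∨
    ((¬ ∃ u t, x = inc u ∧ y = inc t) ∧ y.1 ⊆ x.1 ∧ l = φ x)
  good x y := ∃ u t, x = inc u ∧ y = inc t ∧ p.good u t
  clu A S := ∃ A' S', A = inc '' A' ∧ S = inc '' S' ∧ p.clu A' S'
  le_refl _ := subset_rfl
  le_trans h1 h2 := h2.trans h1
  le_antisymm h1 h2 := Subtype.ext (h2.antisymm h1)
  sep h D hD := by
    have hc := cpt_of_mem hF hD
    exact (le_cpt hF hc).1 (h _ ⟨D, hc, rfl⟩ ((le_cpt hF hc).2 hD))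
  glb := by
    rintro _ _ ⟨a, ha, rfl⟩ ⟨b, hb, rfl⟩
    obtain ⟨c, k1, k2, k3, k4⟩ := p.glb ha hb
    exact ⟨inc c, ⟨c, k1, rfl⟩, (le_inc _ _).2 k2, (le_inc _ _).2 k3, fun u h1 h2 =>
      (le_cpt hF k1).2 (meet_mem hF ((le_cpt hF ha).1 h1) ((le_cpt hF hb).1 h2) k1 k4)⟩
  germ_ex x := by
    by_cases h : ∃ u, x = inc u
    · obtain ⟨u, rfl⟩ := h
      obtain ⟨s, hs⟩ := p.germ_ex u
      exact ⟨_, Or.inl ⟨u, s, rfl, rfl, hs⟩⟩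
    · exact ⟨_, Or.inr ⟨h, rfl⟩⟩
  germ_uniq := by
    rintro x s s' (⟨u, t, rfl, rfl, h⟩ | ⟨h, rfl⟩) (⟨u', t', e, rfl, h'⟩ | ⟨h', rfl⟩)
    · rw [← inc_inj e] at h'
      obtain ⟨N, hN⟩ := p.germ_uniq h h'
      exact ⟨N, fun n hn => congrArg inc (hN n hn)⟩
    · exact absurd ⟨u, rfl⟩ h'
    · exact absurd ⟨u', e⟩ h
    · exact ⟨0, fun _ _ => rfl⟩
  germ_cpt h n := by
    obtain ⟨s', rfl, hs⟩ := gen_of hF h
    exact ⟨⟨_, (hs.1 n).1, rfl⟩, (le_cpt hF (hs.1 n).1).2 (hs.mem n), (le_inc _ _).2 (hs.1 n).2⟩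
  germ_cof := by
    rintro x s _ h ⟨D, hD, rfl⟩ h'
    obtain ⟨s', rfl, hs⟩ := gen_of hF h
    obtain ⟨-, n, hn⟩ := (hs.2 D).1 ((le_cpt hF hD).1 h')
    exact ⟨n, (le_inc _ _).2 hn⟩
  lab_ex {x y} h := by
    by_cases h' : ∃ u t, x = inc u ∧ y = inc t
    · obtain ⟨u, t, rfl, rfl⟩ := h'
      obtain ⟨l, hl⟩ := p.lab_ex ((le_inc _ _).1 h)
      exact ⟨l, Or.inl ⟨u, t, rfl, rfl, hl⟩⟩
    · exact ⟨_, Or.inr ⟨h', h, rfl⟩⟩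
  lab_le := by
    rintro x y l (⟨u, t, rfl, rfl, h⟩ | ⟨-, h, -⟩)
    · exact (le_inc _ _).2 (p.lab_le h)
    · exact h
  lab_fun := by
    rintro x y l l' (⟨u, t, rfl, rfl, h⟩ | ⟨h, -, rfl⟩) (⟨u', t', e, e', h'⟩ | ⟨h', -, rfl⟩)
    · rw [← inc_inj e, ← inc_inj e'] at h'
      exact p.lab_fun h h'
    · exact absurd ⟨u, t, rfl, rfl⟩ h'
    · exact absurd ⟨u', t', e, e'⟩ h
    · rfl
  lab_inj := by
    rintro x x' y l (⟨u, t, rfl, rfl, h⟩ | ⟨h, -, rfl⟩) (⟨u', t', rfl, e', h'⟩ | ⟨h', -, e⟩)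
    · rw [← inc_inj e'] at h'
      rw [p.lab_inj h h']
    · exact absurd (e ▸ h) (hφ' _ _ _)
    · exact absurd h' (hφ' _ _ _)
    · exact hφ e
  good_spec := by
    rintro _ _ ⟨u, t, rfl, rfl, h⟩
    obtain ⟨k1, k2, k3, k4⟩ := p.good_spec h
    exact ⟨⟨u, k1, rfl⟩, ⟨t, k2, rfl⟩, (le_inc _ _).2 k3, fun h => k4 ((le_inc _ _).1 h)⟩
  clu_ne := by
    rintro _ _ ⟨A, S, rfl, rfl, h⟩
    exact (p.clu_ne h).image _
  clu_le := by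
    rintro _ _ ⟨A, S, rfl, rfl, h⟩ _ ⟨a, ha, rfl⟩ _ ⟨s, hs, rfl⟩
    exact (le_inc _ _).2 (p.clu_le h a ha s hs)
  clu_meet := by
    rintro _ _ ⟨A, S, rfl, rfl, h⟩ _ ⟨c, hc, rfl⟩ _ ⟨d, hd, rfl⟩ hA
    obtain ⟨s, hs, k1, k2, k3⟩ := p.clu_meet h c hc d hd
      fun a ha => (le_inc _ _).1 (hA _ ⟨a, ha, rfl⟩)
    refine ⟨inc s, ⟨s, hs, rfl⟩, (le_inc _ _).2 k1, (le_inc _ _).2 k2, ?_⟩
    rintro _ ⟨N, hN, rfl⟩ hsN
    obtain ⟨M, m1, m2, m3⟩ := k3 N hN ((le_inc _ _).1 hsN)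
    exact ⟨inc M, ⟨M, m1, rfl⟩, (le_inc _ _).2 m2, fun u h1 h2 =>
      (le_cpt hF hN).2 (meet_mem hF ((le_cpt hF hd).1 h1) ((le_cpt hF m1).1 h2) hN m3)⟩
  clu_ng := by
    rintro _ _ ⟨A, S, rfl, rfl, h⟩ _ ⟨c, hc, rfl⟩ _ _ ⟨u, t, rfl, rfl, hg⟩ hA h'
    exact p.clu_ng h c hc u t hg (fun a ha => (le_inc _ _).1 (hA _ ⟨a, ha, rfl⟩)) ((le_inc _ _).1 h')

theorem emb (φ : Car p 𝓕 → Lab) (hφ : Function.Injective φ) (hφ' : ∀ x u t, ¬ p.lab u t (φ x)) :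
    Emb p (str hF φ hφ hφ') inc where
  le_iff := le_inc
  cpt h := ⟨_, h, rfl⟩
  glb ha hb h1 h2 := by
    obtain ⟨c, k1, k2, k3, k4⟩ := p.glb ha hb
    exact ⟨c, k1, k2, k3,
      (le_cpt hF k1).2 (meet_mem hF ((le_cpt hF ha).1 h1) ((le_cpt hF hb).1 h2) k1 k4)⟩
  germ h := Or.inl ⟨_, _, rfl, rfl, h⟩
  lab h := Or.inl ⟨_, _, rfl, rfl, h⟩
  good h := ⟨_, _, rfl, rfl, h⟩
  clu h := ⟨_, _, rfl, rfl, h⟩

end str

variable (p) in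
/-- the filter meet of `t` and the sequence `d` -/
def Φ (d : ℕ → α) (t : α) : Set α := {D | p.cpt D ∧ ∃ n, ∀ u, p.le u (d n) → p.le u t → p.le u D}

theorem gen_Φ {d : ℕ → α} (hd : ∀ n, p.cpt (d n)) (hdd : ∀ n, p.le (d (n + 1)) (d n)) {t : α}
    (ht : p.cpt t) : ∃ s, Gen p (Φ p d t) s := by
  choose σ k1 k2 k3 k4 using fun n => p.glb (hd n) ht
  exact ⟨σ, fun n => ⟨k1 n, k4 n _ (p.le_trans (k2 _) (hdd n)) (k3 _)⟩, fun D =>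
    and_congr_right fun _ => exists_congr fun n =>
      ⟨fun h => h _ (k2 n) (k3 n), fun h u h1 h2 => p.le_trans (k4 n u h1 h2) h⟩⟩

end SealA
open SealA

theorem seal0 (P : Obj) (d : ℕ → P.α) (hd : ∀ n, P.str.cpt (d n))
    (hdd : ∀ n, P.str.le (d (n + 1)) (d n)) (e : P.α) (he : ∀ n, P.str.le e (d n)) :
    ∃ (T : Obj) (i : Hom P T) (m : T.α) (S : Set T.α),
      (∀ n, T.str.le m (i (d n))) ∧
      (∀ D, T.str.cpt D → T.str.le m D → ∃ n, T.str.le (i (d n)) D) ∧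
      T.str.clu (i '' {a | ∀ n, P.str.le a (d n)}) S ∧ m ∈ S ∧
      (∀ s ∈ S, s = m ∨ ∃ t, P.str.cpt t ∧ P.str.le e t ∧ T.str.le s (i t) ∧ ¬ T.str.le m (i t)) := by
  set p := P.str with hp
  set A : Set P.α := {a | ∀ n, p.le a (d n)} with hA
  let 𝓕 : Set (Set P.α) := Φ p d '' {t | p.cpt t ∧ ∀ a ∈ A, p.le a t}
  have hF : ∀ F ∈ 𝓕, ∃ s, Gen p F s := by
    rintro _ ⟨t, ht, rfl⟩
    exact gen_Φ hd hdd ht.1
  haveI hc : Countable (Car p 𝓕) := countable ((Set.to_countable _).image _)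
  obtain ⟨φ, hφ, hφ'⟩ := fresh_labels _ p.labels_countable (Car p 𝓕) fun _ => true
  have hφ2 : ∀ x u t, ¬ p.lab u t (φ x) := fun x u t h => (hφ' x).1 ⟨u, t, h⟩
  have E := emb hF φ hφ hφ2
  set q := str hF φ hφ hφ2 with hq
  have hdΦ : ∀ t n, d n ∈ Φ p d t := fun t n => ⟨hd n, n, fun _ h _ => h⟩
  obtain ⟨p', E', hclu⟩ := add_clu q (inc '' A) {x | x.1 ∈ 𝓕} ⟨_, e, he, rfl⟩
    (by
      rintro _ ⟨a, ha, rfl⟩ ⟨_, _⟩ ⟨t, ht, rfl⟩ D ⟨h1, n, h2⟩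
      exact ⟨h1, h2 a (ha n) (ht.2 a ha)⟩)
    (by
      rintro ⟨_, hx⟩ ⟨t, ht, rfl⟩ _ ⟨D0, hD0, rfl⟩ hA0
      obtain ⟨t', k1, k2, k3, k4⟩ := p.glb ht.1 hD0
      have hm : Φ p d t' ∈ 𝓕 :=
        ⟨t', ⟨k1, fun a ha => k4 a (ht.2 a ha) ((le_inc _ _).1 (hA0 _ ⟨a, ha, rfl⟩))⟩, rfl⟩
      refine ⟨⟨Φ p d t', Or.inr hm⟩, hm,
        (le_cpt hF hD0).2 ⟨hD0, 0, fun u _ h => p.le_trans h k3⟩,
        fun D ⟨h1, n, h2⟩ => ⟨h1, n, fun u hu hu' => h2 u hu (p.le_trans hu' k2)⟩, ?_⟩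
      rintro _ ⟨N, hN, rfl⟩ hsN
      obtain ⟨-, n, hn⟩ := (le_cpt hF hN).1 hsN
      obtain ⟨M, m1, m2, m3, m4⟩ := p.glb (hd n) ht.1
      exact ⟨inc M, ⟨M, m1, rfl⟩, (le_cpt hF m1).2 ⟨m1, n, m4⟩, fun u h1 h2 =>
        (le_cpt hF hN).2 (meet_mem hF ((le_cpt hF hD0).1 h1) ((le_cpt hF m1).1 h2) hN
          fun v hv hv' => hn v (p.le_trans hv' m2) (k4 v (p.le_trans hv' m3) hv))⟩)
    (by
      rintro ⟨_, hx⟩ ⟨t, ht, rfl⟩ _ _ ⟨u, u', rfl, rfl, hg⟩ hA0 h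
      exact (p.good_spec hg).2.2.2
        ((le_inc _ _).1 (hA0 _ ⟨u', fun n => (h (hdΦ t n)).2, rfl⟩)))
  have hm : Φ p d (d 0) ∈ 𝓕 := ⟨d 0, ⟨hd 0, fun a ha => ha 0⟩, rfl⟩
  have hm' : ∀ D, D ∈ Φ p d (d 0) → ∃ n, p.le (d n) D := fun D ⟨_, n, h⟩ =>
    ⟨n, h _ (p.le_refl _) (anti hdd (Nat.zero_le n))⟩
  have htop : ∀ x : Car p 𝓕, q.le x (inc P.top) := fun x => by
    obtain ⟨s, hs⟩ := ex_gen hF x
    exact (le_cpt hF P.top_cpt).2 ((hs.2 _).2 ⟨P.top_cpt, 0, P.le_top _⟩)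
  refine ⟨⟨Car p 𝓕, hc, p', inc P.top, E'.cpt (E.cpt P.top_cpt), fun x => E'.mono (htop x)⟩,
    ⟨inc, E.trans E'⟩, ⟨Φ p d (d 0), Or.inr hm⟩, {x | x.1 ∈ 𝓕},
    fun n => E'.mono ((le_cpt hF (hd n)).2 (hdΦ _ n)), fun D hD h => ?_, hclu, hm, ?_⟩
  · obtain ⟨D0, hD0, rfl⟩ := E'.cpt_of hD
    obtain ⟨n, hn⟩ := hm' D0 ((le_cpt hF hD0).1 ((E'.le_iff _ _).1 h))
    exact ⟨n, E'.mono ((le_inc _ _).2 hn)⟩
  · rintro ⟨_, hx⟩ ⟨t, ht, rfl⟩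
    by_cases h : t ∈ Φ p d (d 0)
    · left
      obtain ⟨n0, h0⟩ := hm' t h
      refine Subtype.ext (Set.Subset.antisymm ?_ ?_)
      · rintro D ⟨h1, n, h2⟩
        exact ⟨h1, max n n0, fun u hu _ => h2 u (p.le_trans hu (anti hdd (le_max_left _ _)))
          (p.le_trans hu (p.le_trans (anti hdd (le_max_right _ _)) h0))⟩
      · rintro D ⟨h1, n, h2⟩
        exact ⟨h1, n, fun u hu _ => h2 u hu (p.le_trans hu (anti hdd (Nat.zero_le n)))⟩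
    · right
      exact ⟨t, ht.1, ht.2 e he, E'.mono ((le_cpt hF ht.1).2 ⟨ht.1, 0, fun _ _ h => h⟩),
        fun h' => h ((le_cpt hF ht.1).1 ((E'.le_iff _ _).1 h'))⟩

end Crest.Agent.R296
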