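import Crest.Agent.R296.Glue
import Crest.Agent.R296.Ops
import Crest.Agent.R296.Limit
import Crest.Agent.R296.Seal

/-!
# The combinatorial interface used by the forcing arguments

PLAN.
* `add_top`: `add_top0`.
* `self_amalg`: `glue` with `q = p = R`, `η₁ = η₂ = id`, `d₁ = d₂ = c = u`, `Y = ∅`; then `add_top0`.
* `umove`: `glue` with `q = Q`, `p = R`, `η₁ = η₂ = k₀`, `d₁ = d₂ = c = e₀` (compact by `Emb.cpt_of`), `Y b := y ≤ b`
  (`hclu` from `clu_ng`); then `add_clu` with `({j x, i e'}, {i y})` (a compact `D ≥ j x, i e'` is `≥ i y`: `D = i b` gives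
  `Y b`; `D = j a` new would give `e' ≤ k₀ e₀`; `h3`: `e ≥ A` compact gives `e ≥ i y ≥ e'`), then `add_top0`.
* `dist`: two `add_bot0` with crossed fresh labels `β₁ ≠ β₂` (not used in `R`: `labels_countable`, `fresh_labels _ _ Bool`):
  first `ψ t = if t = v then β₂ else β₁` (point `w₂`), then `ψ t = if t = f v then β₁ else if t = w₂ then (a third fresh label) else β₂`
  (point `w₁`).
* `chain`: a Pre-level lemma `chain_step`: for `H H♮ : Emb S p` with `H c = H♮ c` and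
  `∀ w ≤ H d₁, w ≤ H♮ d₁ → w ≤ H c` there are `W ⊇ p` (via `i`) and `h* h♭ : Emb S W` with `h* d₁ = i (H d₁)`,
  `h♭ d₂ = h* d₂`, `h♭ d₁ = i (H♮ d₁)`: glue `S` along `d₁` via `H` (get `h*`, `i₁`), then glue `S` along `d₁, d₂` via
  `η₁ = i₁ ∘ H♮`, `η₂ = h*` (`hsplit`: `b = i₁ b₀` second alternative; `b = h* a` new: first alternative).
  First glue `S` onto `R` along `c` via `h` (get the free copy `H♮`), apply `chain_step` to `h`, then to `h'`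
  (the hypothesis persists by `Emb.glb'`), finally `add_top0`.
* `sealing`: `limit0`, `add_top0`, `seal0`; in an extension use `clu_meet` at `c = h m`, and `Emb.cof`.
-/

set_option autoImplicit false

namespace Crest.Agent.R296

theorem add_top (S : Obj) (u : S.α) (β : Lab) :
    ∃ (R : Obj) (f : Hom S R), R.str.good (f S.top) R.top ∧ R.str.lab (f u) R.top β := by
  obtain ⟨T, f, hf, hg, hl, -⟩ := add_top0 S.str u β
  exact ⟨T, ⟨f, hf⟩, hg _ S.top_cpt, hl⟩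

/-- free amalgamation along `↓d`. -/
theorem glue1 {α β : Type} [Countable α] [Countable β] (q : Str α) (p : Str β)
    (η : α → β) (h : Emb q p η) (d : α) (hd : q.cpt d) :
    ∃ (γ : Type) (_ : Countable γ) (W : Str γ) (i : β → γ) (j : α → γ),
      Emb p W i ∧ Emb q W j ∧ (∀ a, q.le a d → j a = i (η a)) ∧
      (∀ w, (∃ b, w = i b) ∨ ∃ a, ¬ q.le a d ∧ w = j a) ∧
      (∀ a b, ¬ q.le a d → j a ≠ i b ∧ ¬ W.le (j a) (i b)) ∧
      (∀ a b, ¬ q.le a d → W.le (i b) (j a) → p.le b (η d)) := by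
  obtain ⟨γ, hγ, W, i, j, hi, hj, h1, -, h2, h3, h4, -⟩ := glue q p η η h h d d d hd hd
    (q.le_refl _) (q.le_refl _) (fun _ h _ => h) rfl (fun _ => False) (Or.inl fun _ => id)
    (fun _ h => h.elim) ⟨id, id⟩ (fun _ _ _ => Or.inl fun _ _ h => h)
    (fun _ _ _ _ _ h => h.elim) (fun _ => true)
  refine ⟨γ, hγ, W, i, j, hi, hj, h1, fun w => ?_, fun a b ha => ?_, fun a b ha hb => ?_⟩
  · rcases h2 w with h | ⟨a, ha, -, e⟩
    · exact Or.inl h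
    · exact Or.inr ⟨a, ha, e⟩
  · exact ⟨(h3 a b ha ha).1, (h3 a b ha ha).2.1⟩
  · exact (h4 a b ha ha hb).elim id id

theorem self_amalg (R : Obj) (u v : R.α) (hu : R.str.cpt u) (hv : ¬ R.str.le v u) :
    ∃ (R' : Obj) (h h' : Hom R R'), h u = h' u ∧ h v ≠ h' v := by
  obtain ⟨γ, hγ, W, i, j, hi, hj, h1, -, h3, -⟩ := glue1 R.str R.str id (Emb.refl _) u hu
  obtain ⟨T, f, hf, -⟩ := add_top0 W (i u) (fun _ => true)
  refine ⟨T, ⟨_, hi.trans hf⟩, ⟨_, hj.trans hf⟩, ?_, fun e => (h3 v v hv).1 (hf.inj e).symm⟩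
  exact congrArg f (h1 u (R.str.le_refl _)).symm

theorem umove (Q R : Obj) (k₀ : Hom Q R) (e₀ x : Q.α) (e' y : R.α)
    (hg : R.str.good (k₀ e₀) e') (hy : R.str.le e' y) (hx : ¬ Q.str.le x e₀) (κ₀ : Lab) :
    ∃ (R' : Obj) (g : Hom R R') (k : Hom Q R') (β : Lab),
      k e₀ = g (k₀ e₀) ∧ Join R' (g y) (k x) (g e') ∧ R'.str.lab (k x) (g y) β ∧ kap β = κ₀ := by
  obtain ⟨hc, -, hle, hn⟩ := R.str.good_spec hg
  have he₀ := k₀.emb.cpt_of hc
  have hny : ¬ R.str.le y (k₀ e₀) := fun h => hn (R.str.le_trans hy h)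
  obtain ⟨γ, hγ, W, i, j, hi, hj, h1, -, h2, h3, h4, h5⟩ := glue Q.str R.str k₀ k₀ k₀.emb k₀.emb
    e₀ e₀ e₀ he₀ he₀ (Q.str.le_refl _) (Q.str.le_refl _) (fun _ h _ => h) rfl
    (fun b => R.str.le y b) (Or.inr ⟨y, fun _ => Iff.rfl⟩)
    (fun b hb => ⟨R.str.le_trans hle (R.str.le_trans hy hb), R.str.le_trans hle (R.str.le_trans hy hb)⟩)
    ⟨hny, hny⟩ (fun _ _ _ => Or.inl fun _ _ h => h)
    (fun A S hA s hs hys h => R.str.clu_ng hA s hs _ _ hg (fun a ha => (h a ha).elim id id)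
      (R.str.le_trans hy hys)) κ₀
  have hxy : W.le (j x) (i y) := (h3 x y hx hx).2.2 (R.str.le_refl _)
  have key : ∀ D, (∀ a ∈ ({j x, i e'} : Set γ), W.le a D) → W.le (i y) D := by
    intro D hD
    rcases h2 D with ⟨b, rfl⟩ | ⟨a, ha, -, rfl⟩
    · exact hi.mono ((h3 x b hx hx).2.1 (hD _ (by simp)))
    · exact (hn ((h4 a e' ha ha (hD _ (by simp))).elim id id)).elim
  obtain ⟨W', hW', hclu⟩ := add_clu W {j x, i e'} {i y} ⟨j x, by simp⟩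
    (by
      rintro a (rfl | rfl) s rfl
      · exact hxy
      · exact hi.mono hy)
    (by
      rintro c rfl D - hD
      exact ⟨i y, rfl, key D hD, W.le_refl _, fun N hN h => ⟨N, hN, h, fun _ _ h => h⟩⟩)
    (by
      rintro c rfl e e'' hg' hD h
      exact (W.good_spec hg').2.2.2 (W.le_trans h (key e hD)))
  obtain ⟨β, hβ⟩ := W.lab_ex hxy
  obtain ⟨T, f, hf, -⟩ := add_top0 W' (i y) (fun _ => true)
  refine ⟨T, ⟨_, (hi.trans hW').trans hf⟩, ⟨_, (hj.trans hW').trans hf⟩, β,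
    congrArg f (h1 e₀ (Q.str.le_refl _)), ?_, hf.lab (hW'.lab hβ), h5 x y β hx hx hβ⟩
  have := hf.clu hclu
  rwa [Set.image_pair, Set.image_singleton] at this

theorem dist (R : Obj) (v v' : R.α) (h : v ≠ v') :
    ∃ (R' : Obj) (g : Hom R R') (w₁ w₂ : R'.α) (β₁ β₂ : Lab),
      R'.str.le w₁ w₂ ∧ ¬ R'.str.le w₂ w₁ ∧
      R'.str.lab w₁ (g v) β₁ ∧ R'.str.lab w₂ (g v) β₂ ∧
      R'.str.lab w₁ (g v') β₂ ∧ R'.str.lab w₂ (g v') β₁ := by
  classical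
  obtain ⟨φ, hφ, hφ'⟩ := fresh_labels _ R.str.labels_countable Bool (fun _ => true)
  have hne : φ true ≠ φ false := fun e => by simpa using hφ e
  have hfr : ∀ z a t, ¬ R.str.lab a t (φ z) := fun z a t hl => (hφ' z).1 ⟨a, t, hl⟩
  obtain ⟨T, f, o, -, -, h3, h4, h5⟩ := add_bot0 R (fun t => if t = v then φ false else φ true)
    (fun a t => by split_ifs <;> exact hfr _ _ _)
  have hv := h3 v
  have hv' := h3 v'
  simp only [if_true] at hv
  simp only [if_neg h.symm] at hv'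
  obtain ⟨χ, -, hχ⟩ := fresh_labels _ T.str.labels_countable Unit (fun _ => true)
  have hfv : f v' ≠ f v := fun e => h (f.emb.inj e).symm
  obtain ⟨T', f', o', k1, k2, k3, -, -⟩ := add_bot0 T
    (fun t => if t = f v then φ true else if t = f v' then φ false else χ ())
    (fun a t => by
      split_ifs with e1 e2
      · subst e1
        rcases h4 a with rfl | ⟨a', rfl⟩
        · exact fun hl => hne (T.str.lab_fun hl hv)
        · exact fun hl => hfr _ _ _ (h5 _ _ _ hl)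
      · subst e2
        rcases h4 a with rfl | ⟨a', rfl⟩
        · exact fun hl => hne (T.str.lab_fun hv' hl)
        · exact fun hl => hfr _ _ _ (h5 _ _ _ hl)
      · exact fun hl => (hχ ()).1 ⟨_, _, hl⟩)
  have kv := k3 (f v)
  have kv' := k3 (f v')
  simp only [if_true] at kv
  simp only [if_neg hfv, if_true] at kv'
  exact ⟨T', f.comp f', o', f' o, φ true, φ false, k1 _, k2 _, kv, f'.emb.lab hv, kv',
    f'.emb.lab hv'⟩

theorem chain_step {α β : Type} [Countable α] [Countable β] (q : Str α) (p : Str β)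
    (H H' : α → β) (hH : Emb q p H) (hH' : Emb q p H') (d₁ d₂ c : α) (hd₁ : q.cpt d₁)
    (hd₂ : q.cpt d₂) (hc₁ : q.le c d₁) (hc₂ : q.le c d₂)
    (hc : ∀ u, q.le u d₁ → q.le u d₂ → q.le u c) (hh : H c = H' c)
    (hw : ∀ w, p.le w (H d₁) → p.le w (H' d₁) → p.le w (H c)) :
    ∃ (γ : Type) (_ : Countable γ) (W : Str γ) (i : β → γ) (k k' : α → γ),
      Emb p W i ∧ Emb q W k ∧ Emb q W k' ∧ k d₁ = i (H d₁) ∧ k' d₂ = k d₂ ∧ k' d₁ = i (H' d₁) := by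
  obtain ⟨γ, hγ, W, i, j, hi, hj, h1, h2, h3, h4⟩ := glue1 q p H hH d₁ hd₁
  have e1 : j c = i (H' c) := by rw [h1 c hc₁, hh]
  obtain ⟨γ', hγ', W', i', j', hi', hj', k1, k2, -⟩ := glue q W (i ∘ H') j (hH'.trans hi) hj
    d₁ d₂ c hd₁ hd₂ hc₁ hc₂ hc e1.symm (fun _ => False) (Or.inl fun _ => id)
    (fun _ h => h.elim) ⟨id, id⟩ (fun b _ _ => by
      rcases h2 b with ⟨b₀, rfl⟩ | ⟨a, ha, rfl⟩
      · refine Or.inr fun w hw1 hw2 => ?_
        rw [Function.comp_apply, ← e1]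
        refine hj.glb' hd₁ hd₂ hc ?_ hw2
        by_cases hd : q.le d₂ d₁
        · exact W.le_trans hw2 (hj.mono hd)
        · rcases h2 w with ⟨w₀, rfl⟩ | ⟨a, ha, rfl⟩
          · rw [h1 d₁ (q.le_refl _)]
            exact hi.mono (h4 _ _ hd hw2)
          · exact ((h3 a b₀ ha).2 hw1).elim
      · refine Or.inl fun w hw1 hw2 => ?_
        rcases h2 w with ⟨w₀, rfl⟩ | ⟨a', ha', rfl⟩
        · rw [Function.comp_apply, ← hh]
          exact hi.mono (hw _ (h4 _ _ ha hw1) ((hi.le_iff _ _).1 hw2))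
        · exact ((h3 a' _ ha').2 hw2).elim)
    (fun _ _ _ _ _ h => h.elim) (fun _ => true)
  exact ⟨γ', hγ', W', i' ∘ i, i' ∘ j, j', hi.trans hi', hj.trans hi', hj',
    congrArg i' (h1 d₁ (q.le_refl _)), k2 d₂ (q.le_refl _), k1 d₁ (q.le_refl _)⟩

theorem chain (S R : Obj) (h h' : Hom S R) (d₁ d₂ c : S.α) (hd₁ : S.str.cpt d₁)
    (hd₂ : S.str.cpt d₂) (hcc : S.str.cpt c) (hc₁ : S.str.le c d₁) (hc₂ : S.str.le c d₂)
    (hc : ∀ u, S.str.le u d₁ → S.str.le u d₂ → S.str.le u c) (hh : h c = h' c) :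
    ∃ (R' : Obj) (g : Hom R R') (h₁ h₂ h₃ h₄ : Hom S R'),
      g (h d₁) = h₁ d₁ ∧ h₁ d₂ = h₂ d₂ ∧ h₂ d₁ = h₃ d₁ ∧ h₃ d₂ = h₄ d₂ ∧ h₄ d₁ = g (h' d₁) := by
  obtain ⟨γ, hγ, W, i, j, hi, hj, h1, h2, h3, h4⟩ := glue1 S.str R.str h h.emb c hcc
  have e1 : j c = i (h c) := h1 c (S.str.le_refl _)
  have key : ∀ b w, W.le w (i b) → W.le w (j d₁) → W.le w (i (h c)) := by
    intro b w hw1 hw2
    by_cases hd : S.str.le d₁ c
    · exact e1 ▸ W.le_trans hw2 (hj.mono hd)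
    · rcases h2 w with ⟨w₀, rfl⟩ | ⟨a, ha, rfl⟩
      · exact hi.mono (h4 _ _ hd hw2)
      · exact ((h3 a b ha).2 hw1).elim
  obtain ⟨γ₁, hγ₁, W₁, i₁, k₁, k₂, hi₁, hk₁, hk₂, a1, a2, a3⟩ := chain_step S.str W (i ∘ h) j
    (h.emb.trans hi) hj d₁ d₂ c hd₁ hd₂ hc₁ hc₂ hc e1.symm (key _)
  obtain ⟨γ₂, hγ₂, W₂, i₂, k₄, k₃, hi₂, hk₄, hk₃, b1, b2, b3⟩ := chain_step S.str W₁
    (i₁ ∘ (i ∘ h')) (i₁ ∘ j) ((h'.emb.trans hi).trans hi₁) (hj.trans hi₁) d₁ d₂ c hd₁ hd₂ hc₁ hc₂ hc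
    (congrArg i₁ (by rw [e1, hh]; rfl))
    (fun w hw1 hw2 => hi₁.glb' (c := i (h' c)) (hi.cpt (h'.emb.cpt hd₁)) (hj.cpt hd₁)
      (fun u hu1 hu2 => hh ▸ key _ u hu1 hu2) hw1 hw2)
  obtain ⟨T, f, hf, -⟩ := add_top0 W₂ (k₃ c) (fun _ => true)
  exact ⟨T, ⟨_, ((hi.trans hi₁).trans hi₂).trans hf⟩, ⟨_, (hk₁.trans hi₂).trans hf⟩,
    ⟨_, (hk₂.trans hi₂).trans hf⟩, ⟨_, hk₃.trans hf⟩, ⟨_, hk₄.trans hf⟩,
    congrArg f (congrArg i₂ a1.symm), congrArg f (congrArg i₂ a2.symm),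
    congrArg f ((congrArg i₂ a3).trans b3.symm), congrArg f b2, congrArg f b1⟩

theorem sealing (S : ℕ → Obj) (f : ∀ n, Hom (S n) (S (n + 1))) (d e : ∀ n, (S n).α)
    (hd : ∀ n, (S n).str.cpt (d n)) (hdd : ∀ n, (S (n + 1)).str.le (d (n + 1)) (f n (d n)))
    (he : ∀ n, f n (e n) = e (n + 1)) (hed : ∀ n, (S n).str.le (e n) (d n)) :
    ∃ (T : Obj) (g : ∀ n, Hom (S n) T) (m : T.α),
      (∀ n x, g (n + 1) (f n x) = g n x) ∧
      (∀ n, T.str.le m (g n (d n))) ∧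
      (∀ D, T.str.cpt D → T.str.le m D → ∃ n, T.str.le (g n (d n)) D) ∧
      ∀ (R : Obj) (h : Hom T R) (D : R.α), R.str.cpt D →
        (∀ n a, (∀ k, T.str.le (g n a) (g k (d k))) → R.str.le (h (g n a)) D) →
        R.str.le (h m) D ∨
          ∃ n t, (S n).str.cpt t ∧ (S n).str.le (e n) t ∧ ¬ T.str.le m (g n t) ∧
            ∃ k, ∀ w, R.str.le w D → R.str.le w (h (g k (d k))) → R.str.le w (h (g n t)) := by
  obtain ⟨γ, hγ, W, g₀, hg₀, hgf, hsurj⟩ :=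
    limit0 (fun n => (S n).α) (fun n => (S n).str) (fun n => f n) (fun n => (f n).emb)
  obtain ⟨P, t, ht, hgood, -, hP⟩ := add_top0 W (g₀ 0 (e 0)) (fun _ => true)
  have hE : ∀ n, g₀ n (e n) = g₀ 0 (e 0) := fun n => by
    induction n with
    | zero => rfl
    | succ n ih => rw [← he, hgf, ih]
  obtain ⟨T, i, m, Z, h1, h2, h3, h4, h5⟩ := seal0 P (fun n => t (g₀ n (d n)))
    (fun n => ht.cpt ((hg₀ n).cpt (hd n)))
    (fun n => ht.mono (by rw [← hgf n (d n)]; exact (hg₀ (n + 1)).mono (hdd n)))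
    (t (g₀ 0 (e 0))) (fun n => ht.mono (by rw [← hE n]; exact (hg₀ n).mono (hed n)))
  refine ⟨T, fun n => ⟨_, ((hg₀ n).trans ht).trans i.emb⟩, m, fun n x => congrArg i (congrArg t (hgf n x)),
    h1, h2, fun R h D hD hA => ?_⟩
  obtain ⟨_, ⟨s, hs, rfl⟩, hsD, -, hmeet⟩ := R.str.clu_meet (h.emb.clu h3) (h m) ⟨m, h4, rfl⟩ D hD (by
    rintro _ ⟨_, ⟨a, ha, rfl⟩, rfl⟩
    rcases hP a with rfl | ⟨w, rfl⟩
    · exact ((P.str.good_spec (hgood _ ((hg₀ 0).cpt (hd 0)))).2.2.2 (ha 0)).elim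
    · obtain ⟨n, x, rfl⟩ := hsurj w
      exact hA n x fun k => i.emb.mono (ha k))
  rcases h5 s hs with rfl | ⟨t₀, c1, c2, c3, c4⟩
  · exact Or.inl hsD
  refine Or.inr ?_
  rcases hP t₀ with rfl | ⟨w, rfl⟩
  · exact (c4 (T.str.le_trans (h1 0) (i.emb.mono (P.le_top _)))).elim
  obtain ⟨n, x, rfl⟩ := hsurj w
  obtain ⟨M, hM, hmM, hu⟩ := hmeet _ (h.emb.cpt (i.emb.cpt c1)) (h.emb.mono c3)
  obtain ⟨D', hD', hmD', hD'M⟩ := h.emb.cof hM hmM
  obtain ⟨k, hk⟩ := h2 D' hD' hmD'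
  refine ⟨n, x, (hg₀ n).cpt_of (ht.cpt_of c1), ?_, c4, k, fun w hw1 hw2 =>
    hu w hw1 (R.str.le_trans hw2 (R.str.le_trans (h.emb.mono hk) hD'M))⟩
  rw [← hE n] at c2
  exact ((hg₀ n).le_iff _ _).1 ((ht.le_iff _ _).1 c2)

end Crest.Agent.R296
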