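import Crest.Agent.R296.PairDef

/-!
# Pairs

PLAN.  Everything is unfolding with `force_all`, `force_iff`, `force_sup`, `force_ex`, `force_inf`, `force_imp`,
`force_vmem`, `force_veq` (after these, `simp only [Fin.snoc_last, Fin.snoc_castSucc, emap_apply, Tm.map_map]`), and the
lemmas of `Basic.lean` (`TEq.of_dn`, `TMem.of_dn`, `Dn.dn`, `Dn.here`, `teq_ext`, `tmem_mkTm`).
`isSing w a` is `IsUP w a a` (`Dn (P ∨ P) ↔ TEq` by `TEq.of_dn`).
`IsOP.inj`: the usual Kuratowski argument, "densely": first `IsUP` lemmas (`IsUP w a b → TMem a w`, `TMem b w`;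
`IsUP w a b → IsUP w' a b → TEq w w'`, congruence), then case analysis in an extension, closing with `TEq.of_dn`.
-/

set_option autoImplicit false

namespace Crest.Agent.R296

open FirstOrder FirstOrder.Language Crest.LogicCS.SetTheory

variable {S : Obj}

theorem Dn.or_self_teq {x y : Tm S} :
    (Dn S fun _ g => TEq (x.map g) (y.map g) ∨ TEq (x.map g) (y.map g)) ↔ TEq x y :=
  ⟨fun h => TEq.of_dn (h.imp fun _ _ h => h.elim id id),
    fun h => Dn.of_all fun _ g => Or.inl (h.map g)⟩

theorem upair_map_mem {R : Obj} (a b : Tm S) (f : Hom S R) (z : Tm R) :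
    TMem z ((upair a b).map f) ↔
      Dn R fun _ g => TEq (z.map g) (a.map (f.comp g)) ∨ TEq (z.map g) (b.map (f.comp g)) := by
  unfold upair
  rw [tmem_mkTm]
  constructor
  · intro h
    refine h.imp ?_
    rintro R' g ⟨⟨i⟩, k, h1, h2⟩
    have hk : k = f.comp g := h1
    subst hk
    cases i
    · exact Or.inr h2
    · exact Or.inl h2
  · intro h
    refine h.imp ?_
    rintro R' g (h1 | h1)
    · exact ⟨⟨true⟩, f.comp g, rfl, h1⟩
    · exact ⟨⟨false⟩, f.comp g, rfl, h1⟩

theorem isUP_upair (a b : Tm S) : IsUP (upair a b) a b := fun _ f z => upair_map_mem a b f z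

theorem IsUP.map {R : Obj} {w a b : Tm S} (h : IsUP w a b) (f : Hom S R) :
    IsUP (w.map f) (a.map f) (b.map f) := fun R' g z => h R' (f.comp g) z

theorem IsUP.congr {w a b w' a' b' : Tm S} (h : IsUP w a b) (hw : TEq w w') (ha : TEq a a')
    (hb : TEq b b') : IsUP w' a' b' := by
  intro R f z
  constructor
  · intro hz
    refine ((h R f z).1 (hz.congr_right (hw.map f).symm)).imp ?_
    rintro R' g (h1 | h1)
    · exact Or.inl (h1.trans (ha.map _))
    · exact Or.inr (h1.trans (hb.map _))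
  · intro hz
    refine ((h R f z).2 (hz.imp ?_)).congr_right (hw.map f)
    rintro R' g (h1 | h1)
    · exact Or.inl (h1.trans (ha.map _).symm)
    · exact Or.inr (h1.trans (hb.map _).symm)

theorem IsUP.uniq {w w' a b : Tm S} (h : IsUP w a b) (h' : IsUP w' a b) : TEq w w' :=
  teq_ext fun R f z => (h R f z).trans (h' R f z).symm

theorem IsUP.left {w a b : Tm S} (h : IsUP w a b) : TMem a w :=
  (h S (Hom.id S) a).2 (Dn.of_all fun _ _ => Or.inl (TEq.refl _))

theorem IsUP.right {w a b : Tm S} (h : IsUP w a b) : TMem b w :=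
  (h S (Hom.id S) b).2 (Dn.of_all fun _ _ => Or.inr (TEq.refl _))

theorem IsUP.cases {w a b z : Tm S} (h : IsUP w a b) (hz : TMem z w) :
    Dn S fun _ g => TEq (z.map g) (a.map g) ∨ TEq (z.map g) (b.map g) :=
  (h S (Hom.id S) z).1 hz

theorem IsUP.eq_of_sing {w a z : Tm S} (h : IsUP w a a) (hz : TMem z w) : TEq z a :=
  Dn.or_self_teq.1 (h.cases hz)

theorem isOP_opair (a b : Tm S) : IsOP (opair a b) a b := by
  intro R f z
  unfold opair
  rw [upair_map_mem]
  constructor
  · intro h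
    refine h.imp ?_
    rintro R' g (h1 | h1)
    · exact Or.inl (((isUP_upair a a).map (f.comp g)).congr h1.symm (TEq.refl _) (TEq.refl _))
    · exact Or.inr (((isUP_upair a b).map (f.comp g)).congr h1.symm (TEq.refl _) (TEq.refl _))
  · intro h
    refine h.imp ?_
    rintro R' g (h1 | h1)
    · exact Or.inl (h1.uniq ((isUP_upair a a).map (f.comp g)))
    · exact Or.inr (h1.uniq ((isUP_upair a b).map (f.comp g)))

theorem IsOP.map {R : Obj} {p a b : Tm S} (h : IsOP p a b) (f : Hom S R) :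
    IsOP (p.map f) (a.map f) (b.map f) := fun R' g z => h R' (f.comp g) z

theorem IsOP.congr {p a b p' a' b' : Tm S} (h : IsOP p a b) (hp : TEq p p') (ha : TEq a a')
    (hb : TEq b b') : IsOP p' a' b' := by
  intro R f z
  constructor
  · intro hz
    refine ((h R f z).1 (hz.congr_right (hp.map f).symm)).imp ?_
    rintro R' g (h1 | h1)
    · exact Or.inl (h1.congr (TEq.refl _) (ha.map _) (ha.map _))
    · exact Or.inr (h1.congr (TEq.refl _) (ha.map _) (hb.map _))
  · intro hz
    refine ((h R f z).2 (hz.imp ?_)).congr_right (hp.map f)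
    rintro R' g (h1 | h1)
    · exact Or.inl (h1.congr (TEq.refl _) (ha.map _).symm (ha.map _).symm)
    · exact Or.inr (h1.congr (TEq.refl _) (ha.map _).symm (hb.map _).symm)

theorem IsOP.uniq {p p' a b : Tm S} (h : IsOP p a b) (h' : IsOP p' a b) : TEq p p' :=
  teq_ext fun R f z => (h R f z).trans (h' R f z).symm

theorem IsOP.mem_of_sing {p a b z : Tm S} (h : IsOP p a b) (hz : IsUP z a a) : TMem z p :=
  (h S (Hom.id S) z).2 (Dn.of_all fun _ g => Or.inl (hz.map g))

theorem IsOP.mem_of_up {p a b z : Tm S} (h : IsOP p a b) (hz : IsUP z a b) : TMem z p :=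
  (h S (Hom.id S) z).2 (Dn.of_all fun _ g => Or.inr (hz.map g))

theorem IsOP.cases {p a b z : Tm S} (h : IsOP p a b) (hz : TMem z p) :
    Dn S fun _ g => IsUP (z.map g) (a.map g) (a.map g) ∨ IsUP (z.map g) (a.map g) (b.map g) :=
  (h S (Hom.id S) z).1 hz

theorem IsOP.inj_left {p a b a' b' : Tm S} (h : IsOP p a b) (h' : IsOP p a' b') : TEq a a' := by
  refine TEq.of_dn ((h'.cases (h.mem_of_sing (isUP_upair a a))).imp ?_)
  rintro R g (h1 | h1)
  · exact (((isUP_upair a a).map g).eq_of_sing h1.left).symm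
  · exact (((isUP_upair a a).map g).eq_of_sing h1.left).symm

/-- `b` is densely `a'` or `b'`. -/
theorem IsOP.inj_aux {p a b a' b' : Tm S} (h : IsOP p a b) (h' : IsOP p a' b') :
    Dn S fun _ g => TEq (b.map g) (a'.map g) ∨ TEq (b.map g) (b'.map g) := by
  refine Dn.dn ((h'.cases (h.mem_of_up (isUP_upair a b))).imp ?_)
  rintro R g (h1 | h1)
  · exact Dn.of_all fun R' g' =>
      Or.inl ((h1.eq_of_sing ((isUP_upair a b).map g).right).map g')
  · exact h1.cases ((isUP_upair a b).map g).right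

theorem IsOP.inj {p a b a' b' : Tm S} (h : IsOP p a b) (h' : IsOP p a' b') :
    TEq a a' ∧ TEq b b' := by
  have ha := h.inj_left h'
  refine ⟨ha, TEq.of_dn (Dn.dn ((h.inj_aux h').imp ?_))⟩
  rintro R g (h1 | h1)
  · refine (((h'.map g).inj_aux (h.map g))).imp ?_
    rintro R' g' (h2 | h2)
    · exact (h1.map g').trans ((ha.map (g.comp g')).symm.trans h2.symm)
    · exact h2.symm
  · exact Dn.of_all fun R' g' => h1.map g'

theorem PM.map {R : Obj} {F a b : Tm S} (h : PM F a b) (f : Hom S R) :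
    PM (F.map f) (a.map f) (b.map f) := fun R' g => h R' (f.comp g)

theorem PM.of_dn {F a b : Tm S} (h : Dn S fun _ f => PM (F.map f) (a.map f) (b.map f)) :
    PM F a b := Dn.dn h

theorem PM.congr {F a b F' a' b' : Tm S} (h : PM F a b) (hF : TEq F F') (ha : TEq a a')
    (hb : TEq b b') : PM F' a' b' := by
  refine Dn.imp h ?_
  rintro R g ⟨p, h1, h2⟩
  exact ⟨p, h1.congr_right (hF.map g), h2.congr (TEq.refl _) (ha.map g) (hb.map g)⟩

theorem PM.of_mem {F p a b : Tm S} (h : TMem p F) (hp : IsOP p a b) : PM F a b :=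
  Dn.of_all fun _ g => ⟨p.map g, h.map g, hp.map g⟩

theorem PM.ex {F a b : Tm S} (h : PM F a b) :
    ∃ (R : Obj) (g : Hom S R) (p : Tm R), Act (F.map g) p ∧ IsOP p (a.map g) (b.map g) := by
  obtain ⟨R, g, p, h1, h2⟩ := Dn.here h
  obtain ⟨R', g', w, h3, h4⟩ := h1.ex
  exact ⟨R', g.comp g', w, h3, (h2.map g').congr h4 (TEq.refl _) (TEq.refl _)⟩

theorem pm_graphTm {R : Obj} {ι : Type 1} {B : ι → Obj} {h : ∀ i, Hom S (B i)}
    {x y : ∀ i, Tm (B i)} (f : Hom S R) (a b : Tm R) :
    PM ((graphTm S ι B h x y).map f) a b ↔ Dn R fun R' g =>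
      ∃ (i : ι) (k : Hom (B i) R'), (h i).comp k = f.comp g ∧
        TEq (a.map g) ((x i).map k) ∧ TEq (b.map g) ((y i).map k) := by
  constructor
  · intro H
    refine Dn.dn (Dn.imp H ?_)
    rintro R' g ⟨p, h1, h2⟩
    refine ((tmem_mkTm (f.comp g) p).1 h1).imp ?_
    rintro R'' g' ⟨i, k, h3, h4⟩
    have h5 := ((h2.map g').congr h4 (TEq.refl _) (TEq.refl _)).inj
      ((isOP_opair (x i) (y i)).map k)
    exact ⟨i, k, h3, h5.1, h5.2⟩
  · intro H
    refine Dn.imp H ?_
    rintro R' g ⟨i, k, h1, h2, h3⟩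
    refine ⟨(opair (x i) (y i)).map k, ?_,
      ((isOP_opair (x i) (y i)).map k).congr (TEq.refl _) h2.symm h3.symm⟩
    have := tmem_mkTm_of (S := S) (h := h) (t := fun i => opair (x i) (y i)) i k
    rw [h1] at this
    exact this

variable {n : ℕ}

theorem force_isUPair {i j k : Fin n} {e : Fin n → Tm S} :
    Force (isUPair i j k) S e ↔ IsUP (e i) (e j) (e k) := by
  unfold isUPair IsUP
  rw [force_all]
  simp only [force_iff, force_sup, force_vmem, force_veq, Fin.snoc_last, Fin.snoc_castSucc,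
    emap_apply, Tm.map_map]
  exact ⟨fun h R f z => h R f z R (Hom.id R), fun h R f z R' g => h R' (f.comp g) (z.map g)⟩

theorem force_isSing {i j : Fin n} {e : Fin n → Tm S} :
    Force (isSing i j) S e ↔ IsUP (e i) (e j) (e j) := by
  unfold isSing IsUP
  rw [force_all]
  simp only [force_iff, force_vmem, force_veq, Fin.snoc_last, Fin.snoc_castSucc,
    emap_apply, Tm.map_map]
  constructor
  · intro h R f z
    exact (h R f z R (Hom.id R)).trans (Dn.or_self_teq (x := z) (y := (e j).map f)).symm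
  · intro h R f z R' g
    exact (h R' (f.comp g) (z.map g)).trans
      (Dn.or_self_teq (x := z.map g) (y := (e j).map (f.comp g)))

theorem force_isOPair {i j k : Fin n} {e : Fin n → Tm S} :
    Force (isOPair i j k) S e ↔ IsOP (e i) (e j) (e k) := by
  unfold isOPair IsOP
  rw [force_all]
  simp only [force_iff, force_sup, force_vmem, force_isSing, force_isUPair, Fin.snoc_last,
    Fin.snoc_castSucc, emap_apply, Tm.map_map]
  exact ⟨fun h R f z => h R f z R (Hom.id R), fun h R f z R' g => h R' (f.comp g) (z.map g)⟩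

theorem force_pairMem {i j k : Fin n} {e : Fin n → Tm S} :
    Force (pairMem i j k) S e ↔ PM (e i) (e j) (e k) := by
  unfold pairMem PM
  rw [force_ex]
  simp only [force_inf, force_vmem, force_isOPair, Fin.snoc_last, Fin.snoc_castSucc, emap_apply]

theorem surj_of_force {i j k : Fin n} {e : Fin n → Tm S} (h : Force (surjGraph i j k) S e) :
    Surj (e i) (e j) (e k) := by
  unfold surjGraph at h
  simp only [force_inf, force_all, force_imp, force_ex, force_vmem, force_veq, force_pairMem,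
    Fin.snoc_last, Fin.snoc_castSucc, emap_apply, Tm.map_map] at h
  obtain ⟨⟨h1, h2⟩, h3⟩ := h
  refine ⟨fun R f a ha => h1 R f a R (Hom.id R) ha, fun R f a b b' ha hb hb' => ?_,
    fun R f b hb => h3 R f b R (Hom.id R) hb⟩
  exact h2 R f a R (Hom.id R) b R (Hom.id R) b' R (Hom.id R) ⟨⟨ha, hb⟩, hb'⟩

theorem force_of_inj {i j k : Fin n} {e : Fin n → Tm S} (h : Inj (e i) (e j) (e k)) :
    Force (injGraph i j k) S e := by
  unfold injGraph
  simp only [force_inf, force_all, force_imp, force_ex, force_vmem, force_veq, force_pairMem,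
    Fin.snoc_last, Fin.snoc_castSucc, emap_apply, Tm.map_map]
  obtain ⟨h1, h2, h3⟩ := h
  refine ⟨⟨fun R f b R' g hb => h1 R' (f.comp g) (b.map g) hb, ?_⟩, ?_⟩
  · rintro R f b R1 f1 a R2 f2 a' R3 f3 ⟨⟨-, ha⟩, ha'⟩
    exact h2 R3 _ _ _ _ ha ha'
  · rintro R f b R1 f1 b' R2 f2 a R3 f3 ⟨⟨-, ha⟩, ha'⟩
    exact h3 R3 _ _ _ _ ha ha'

theorem valid_pairAx : Valid pairAx := by
  intro S
  unfold pairAx
  intro R f a R' g b
  refine force_ex_of (upair (a.map g) b) ?_
  have := (force_isUPair (n := 3) (i := 2) (j := 0) (k := 1)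
    (e := Fin.snoc (Fin.snoc (emap (Fin.snoc (emap Fin.elim0 f) a) g) b) (upair (a.map g) b))).2
    (isUP_upair (a.map g) b)
  exact this

end Crest.Agent.R296
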