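import Crest.Agent.R296.Chk
import Crest.Agent.R296.Pair
import Crest.Agent.R296.Iface

/-!
# Choice for families indexed by an ordinal

PLAN.  At `S₀` with terms `α, F` (ordinal; every `x ∈ α` densely has `y` with `PM F x y`).  `add_top` gives `f₁ : S₀ → S₁` with
`good (f₁ top) top`.  (To force `∃'` at `S₀` densely: start from an arbitrary extension of `S₀` as the new `S₀`.)
Candidates `κ = (Q, ρ : Hom S₀ Q, i, k')` with `k'` activating child `i` of `F.map ρ` (call it `z κ : Tm Q`); well-order them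
(`WellOrderingRel`).  `Cand γ κ := ¬ Q.top ≤ ρ top ∧ ∃ w, IsOP (z κ) ⟨chk γ, Q.top⟩ w`.  `κ` is realised at `(R, ρ_R)` if some
`k₀ : Hom Q R` has `ρ.comp k₀ = ρ_R`.  Entry: `(R, σ : Hom S₁ R, κ, k₁ : Hom Q R, β)` such that `∃ γ`, `Cand γ κ`,
`ρ.comp k₁ = f₁.comp σ`, `κ` is least among the candidates for `γ` realised in any extension of `R`,
`lab (k₁ Q.top) (σ top) β`, and `β` is least (well-order on `Lab`) among such labels of realisations of `κ` in any extension.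
`G := mkTm S₁ entries R σ ((z κ).map k₁)`.  Totality: `ord_chk`, `PM.ex`, `add_top` (non-triviality), `exists_min_ext`,
`umove` with `y = e'`, `exists_min_ext`.  Uniqueness: two entries realised at a common stage with the same `γ` (`IsOP.inj`, `teq_chk`)
have the same `κ`, the same `β` (trichotomy of the well-orders), the same point (`lab_inj`), the same `k₁` (`Hom.ext_top`).
-/

set_option autoImplicit false

namespace Crest.Agent.R296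

open FirstOrder FirstOrder.Language Crest.LogicCS.SetTheory

namespace ACWO

theorem wo_eq' {J : Type*} {a b : J} (h1 : ¬ WellOrderingRel a b) (h2 : ¬ WellOrderingRel b a) :
    a = b := by
  rcases trichotomous_of (WellOrderingRel (α := J)) a b with h | h | h
  · exact (h1 h).elim
  · exact h
  · exact (h2 h).elim

variable {S₀ : Obj}

/-- candidates: a child of `F` placed at an extension of `S₀`. -/
structure Cand (F : Tm S₀) : Type 1 where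
  Q : Obj
  ρ : Hom S₀ Q
  i : F.nm.ι
  d : Q.α

def Cand.tm {F : Tm S₀} (κ : Cand F) : Tm κ.Q := ⟨F.nm.ch κ.i, κ.d⟩

def Cand.Ok {F : Tm S₀} (κ : Cand F) (γ : Ordinal.{1}) : Prop :=
  TMem κ.tm (F.map κ.ρ) ∧ ¬ κ.Q.str.le κ.Q.top (κ.ρ S₀.top) ∧
    ∃ w : Tm κ.Q, IsOP κ.tm ⟨chk γ, κ.Q.top⟩ w

def EnOk (F : Tm S₀) (γ : Ordinal.{1}) (R : Obj) (ρ : Hom S₀ R) (e' : R.α) (κ : Cand F)
    (k₁ : Hom κ.Q R) (β : Lab) : Prop :=
  κ.Ok γ ∧ κ.ρ.comp k₁ = ρ ∧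
    (∀ (R' : Obj) (g : Hom R R') (κ' : Cand F) (k₀ : Hom κ'.Q R'), κ'.Ok γ →
      κ'.ρ.comp k₀ = ρ.comp g → ¬ WellOrderingRel κ' κ) ∧
    R.str.lab (k₁ κ.Q.top) e' β ∧
    ∀ (R' : Obj) (g : Hom R R') (k₁' : Hom κ.Q R') (β' : Lab), κ.ρ.comp k₁' = ρ.comp g →
      R'.str.lab (k₁' κ.Q.top) (g e') β' → ¬ WellOrderingRel β' β

variable {F : Tm S₀}

theorem EnOk.map {γ : Ordinal.{1}} {R R' : Obj} {ρ : Hom S₀ R} {e' : R.α} {κ : Cand F}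
    {k₁ : Hom κ.Q R} {β : Lab} (h : EnOk F γ R ρ e' κ k₁ β) (g : Hom R R') :
    EnOk F γ R' (ρ.comp g) (g e') κ (k₁.comp g) β := by
  obtain ⟨h1, h2, h3, h4, h5⟩ := h
  exact ⟨h1, by rw [← h2]; rfl, fun R'' g' κ' k₀ a b => h3 R'' (g.comp g') κ' k₀ a b,
    g.emb.lab h4, fun R'' g' k₁' β' a b => h5 R'' (g.comp g') k₁' β' a b⟩

theorem EnOk.uniq {γ : Ordinal.{1}} {R : Obj} {ρ : Hom S₀ R} {e' : R.α} {κ κ' : Cand F}
    {k₁ : Hom κ.Q R} {k₁' : Hom κ'.Q R} {β β' : Lab} (h : EnOk F γ R ρ e' κ k₁ β)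
    (h' : EnOk F γ R ρ e' κ' k₁' β') : κ.tm.map k₁ = κ'.tm.map k₁' := by
  obtain ⟨h1, h2, h3, h4, h5⟩ := h
  obtain ⟨h1', h2', h3', h4', h5'⟩ := h'
  obtain rfl : κ = κ' :=
    wo_eq' (h3' R (Hom.id R) κ k₁ h1 h2) (h3 R (Hom.id R) κ' k₁' h1' h2')
  obtain rfl : β = β' :=
    wo_eq' (h5' R (Hom.id R) k₁ β h2 h4) (h5 R (Hom.id R) k₁' β' h2' h4')
  rw [Hom.ext_top k₁ k₁' (R.str.lab_inj h4 h4')]

theorem EnOk.mem {γ : Ordinal.{1}} {R : Obj} {ρ : Hom S₀ R} {e' : R.α} {κ : Cand F}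
    {k₁ : Hom κ.Q R} {β : Lab} (h : EnOk F γ R ρ e' κ k₁ β) : TMem (κ.tm.map k₁) (F.map ρ) := by
  rw [← h.2.1]
  exact h.1.1.map k₁

theorem EnOk.op {γ : Ordinal.{1}} {R : Obj} {ρ : Hom S₀ R} {e' : R.α} {κ : Cand F}
    {k₁ : Hom κ.Q R} {β : Lab} (h : EnOk F γ R ρ e' κ k₁ β) (u : R.α) :
    ∃ w : Tm R, IsOP (κ.tm.map k₁) ⟨chk γ, u⟩ w := by
  obtain ⟨w, hw⟩ := h.1.2.2
  exact ⟨w.map k₁, (hw.map k₁).congr (TEq.refl _) (teq_chk.2 rfl) (TEq.refl _)⟩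

theorem enOk_total {γ : Ordinal.{1}} {R : Obj} (ρ : Hom S₀ R) (e' : R.α)
    (hg : R.str.good (ρ S₀.top) e') {u : R.α} {y : Tm R} (hp : PM (F.map ρ) ⟨chk γ, u⟩ y) :
    ∃ (R' : Obj) (g : Hom R R') (κ : Cand F) (k₁ : Hom κ.Q R') (β : Lab),
      EnOk F γ R' (ρ.comp g) (g e') κ k₁ β := by
  obtain ⟨R₁, g₁, κ, ⟨hκ, k₀, hk₀⟩, hmin⟩ := exists_min_ext (S := R) WellOrderingRel
    (fun R' g (κ : Cand F) => κ.Ok γ ∧ ∃ k₀ : Hom κ.Q R', κ.ρ.comp k₀ = ρ.comp g) (by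
      obtain ⟨R₁, g₁, p, hp1, hp2⟩ := hp.ex
      obtain ⟨Q, f, hf, -⟩ := add_top R₁ R₁.top (fun _ => true)
      have hp1' := hp1
      obtain ⟨i, k, -, rfl⟩ := hp1'
      refine ⟨Q, g₁.comp f, ⟨Q, ρ.comp (g₁.comp f), i, f (k (F.nm.d i))⟩,
        ⟨TMem.of_act (hp1.map f), fun h => ?_, y.map (g₁.comp f), ?_⟩, Hom.id Q, rfl⟩
      · exact (Q.str.good_spec hf).2.2.2 (Q.str.le_trans h (f.emb.mono (R₁.le_top _)))
      · exact (hp2.map f).congr (TEq.refl _) (teq_chk.2 rfl) (TEq.refl _))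
  have htop : k₀ (κ.ρ S₀.top) = g₁ (ρ S₀.top) := congrArg (fun f : Hom S₀ R₁ => f S₀.top) hk₀
  obtain ⟨R₂, g₂, β, ⟨k₁, h1, h2⟩, hminβ⟩ := exists_min_ext (S := R₁) WellOrderingRel
    (fun R' g (β : Lab) => ∃ k₁ : Hom κ.Q R', κ.ρ.comp k₁ = (ρ.comp g₁).comp g ∧
      R'.str.lab (k₁ κ.Q.top) (g (g₁ e')) β) (by
      obtain ⟨R', g, k₁, β, h1, -, h3, -⟩ := umove κ.Q R₁ k₀ (κ.ρ S₀.top) κ.Q.top (g₁ e') (g₁ e')
        (by rw [htop]; exact g₁.emb.good hg) (R₁.str.le_refl _) hκ.2.1 (fun _ => true)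
      refine ⟨R', g, β, k₁, Hom.ext_top _ _ ?_, h3⟩
      show k₁ (κ.ρ S₀.top) = g (g₁ (ρ S₀.top))
      rw [h1, htop])
  exact ⟨R₂, g₁.comp g₂, κ, k₁, β, hκ, h1,
    fun R' g κ' k₀' a b => hmin R' ((g₁.comp g₂).comp g) κ' ⟨a, k₀', b⟩, h2,
    fun R' g k₁' β' a b => hminβ R' (g₂.comp g) β' ⟨k₁', a, b⟩⟩

/-- the entries of the choice set. -/
structure En (F : Tm S₀) {S₁ : Obj} (f₁ : Hom S₀ S₁) : Type 1 where
  R : Obj
  σ : Hom S₁ R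
  κ : Cand F
  k₁ : Hom κ.Q R
  β : Lab
  ok : ∃ γ, EnOk F γ R (f₁.comp σ) (σ S₁.top) κ k₁ β

theorem En.ok' {S₁ : Obj} {f₁ : Hom S₀ S₁} (t : En F f₁) {R : Obj} {σ : Hom S₁ R}
    (k : Hom t.R R) (hk : t.σ.comp k = σ) :
    ∃ γ, EnOk F γ R (f₁.comp σ) (σ S₁.top) t.κ (t.k₁.comp k) t.β := by
  subst hk
  obtain ⟨γ, h⟩ := t.ok
  exact ⟨γ, h.map k⟩

theorem acwo_sem (A F : Tm S₀)
    (hord : ∀ (R : Obj) (f : Hom S₀ R) (z : Tm R), TMem z (A.map f) →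
      ∃ (R' : Obj) (g : Hom R R') (γ : Ordinal.{1}), TEq (z.map g) ⟨chk γ, R'.top⟩)
    (htot : ∀ (R : Obj) (f : Hom S₀ R) (x : Tm R), TMem x (A.map f) →
      ∃ (R' : Obj) (g : Hom R R') (y : Tm R'), PM (F.map (f.comp g)) (x.map g) y) :
    ∃ (S₁ : Obj) (f₁ : Hom S₀ S₁) (G : Tm S₁), ∀ (R : Obj) (σ : Hom S₁ R) (x : Tm R),
      TMem x (A.map (f₁.comp σ)) → ∃ (R' : Obj) (g : Hom R R') (y : Tm R'),
        PM (G.map (σ.comp g)) (x.map g) y ∧ PM (F.map (f₁.comp (σ.comp g))) (x.map g) y ∧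
        ∀ (T : Obj) (l : Hom R' T) (y' : Tm T),
          PM (G.map (σ.comp (g.comp l))) (x.map (g.comp l)) y' → TEq y' (y.map l) := by
  obtain ⟨S₁, f₁, hg, -⟩ := add_top S₀ S₀.top fun _ => true
  refine ⟨S₁, f₁, mkTm S₁ (En F f₁) (fun t => t.R) (fun t => t.σ) (fun t => t.κ.tm.map t.k₁),
    fun R σ x hx => ?_⟩
  obtain ⟨R₁, g₁, γ, h1⟩ := hord R (f₁.comp σ) x hx
  obtain ⟨R₂, g₂, y₀, h2⟩ := htot R₁ ((f₁.comp σ).comp g₁) (x.map g₁) (hx.map g₁)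
  obtain ⟨R₃, g₃, κ, k₁, β, h3⟩ := enOk_total (γ := γ) (f₁.comp (σ.comp (g₁.comp g₂)))
    (g₂ (g₁ (σ S₁.top))) (g₂.emb.good (g₁.emb.good (σ.emb.good hg)))
    (h2.congr (TEq.refl _) (h1.map g₂) (TEq.refl _))
  obtain ⟨y, hy⟩ := h3.op (g₃ (g₂ R₁.top))
  have hx3 : TEq (x.map (g₁.comp (g₂.comp g₃))) ⟨chk γ, g₃ (g₂ R₁.top)⟩ := h1.map (g₂.comp g₃)
  have hy' := hy.congr (TEq.refl _) hx3.symm (TEq.refl _)
  refine ⟨R₃, g₁.comp (g₂.comp g₃), y, PM.of_mem ?_ hy', PM.of_mem h3.mem hy', fun T l y' h4 => ?_⟩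
  · exact tmem_mkTm_of (S := S₁) (ι := En F f₁) (B := fun t => t.R) (h := fun t => t.σ)
      (t := fun t => t.κ.tm.map t.k₁) ⟨R₃, σ.comp (g₁.comp (g₂.comp g₃)), κ, k₁, β, γ, h3⟩
      (Hom.id R₃)
  · refine TEq.of_dn fun T₁ l₁ => ?_
    obtain ⟨T₂, l₂, p, hp1, hp2⟩ := (h4.map l₁).ex
    obtain ⟨t, k, e1, rfl⟩ := (act_mkTm (S := S₁) (ι := En F f₁) (B := fun t => t.R)
      (h := fun t => t.σ) (t := fun t => t.κ.tm.map t.k₁)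
      (σ.comp (g₁.comp (g₂.comp (g₃.comp (l.comp (l₁.comp l₂)))))) p).1 hp1
    obtain ⟨γ', h5⟩ := t.ok' k e1
    obtain ⟨w, hw⟩ := h5.op T₂.top
    have h6 := hy'.map (l.comp (l₁.comp l₂))
    obtain rfl : γ = γ' :=
      teq_chk.1 ((hx3.map (l.comp (l₁.comp l₂))).symm.trans (hp2.inj hw).1)
    have e2 := h5.uniq (h3.map (l.comp (l₁.comp l₂)))
    exact ⟨T₂, l₂, (IsOP.inj hp2 (h6.congr (TEq.of_eq e2.symm) (TEq.refl _) (TEq.refl _))).2⟩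

end ACWO

open ACWO in
theorem valid_acwoAx : Valid acwoAx := by
  intro S
  refine force_all.2 fun R₁ f₁ A => force_all.2 fun R₂ f₂ F => force_imp.2 fun R₃ f₃ h => ?_
  obtain ⟨h1, h2⟩ := force_inf.1 h
  refine force_ex.2 fun R₄ f₄ => ?_
  obtain ⟨S₁, g₁, G, hG⟩ := acwo_sem (((A.map f₂).map f₃).map f₄) ((F.map f₃).map f₄)
    (fun R f z hz => ord_chk h1 (f₄.comp f) z hz)
    (fun R f x hx => by
      obtain ⟨R', g, y, hy⟩ :=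
        (force_ex.1 (force_imp.1 (force_all.1 h2 R (f₄.comp f) x) R (Hom.id R) hx)).here
      exact ⟨R', g, y, force_pairMem.1 hy⟩)
  refine ⟨S₁, g₁, G, force_all.2 fun R σ x => force_imp.2 fun R' g hx =>
    force_ex.2 fun R'' g' => ?_⟩
  obtain ⟨T, l, y, k1, k2, k3⟩ := hG R'' (σ.comp (g.comp g')) (x.map (g.comp g')) (TMem.map hx g')
  refine ⟨T, l, y, force_inf.2 ⟨force_inf.2 ⟨force_pairMem.2 k1, force_pairMem.2 k2⟩,
    force_all.2 fun T₁ l₁ y' => force_imp.2 fun T₂ l₂ hy' => ?_⟩⟩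
  exact k3 T₂ (l₁.comp l₂) (y'.map l₂) (force_pairMem.1 hy')

end Crest.Agent.R296
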