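import Crest.Agent.R296.Force

/-! # Basic properties of forced equality and membership -/

set_option autoImplicit false

namespace Crest.Agent.R296

section dn
variable {S : Obj} {P Q : ∀ R : Obj, Hom S R → Prop}

theorem Dn.here (h : Dn S P) : ∃ (R : Obj) (g : Hom S R), P R g := h S (Hom.id S)

theorem Dn.map (h : Dn S P) {R : Obj} (f : Hom S R) : Dn R fun R' g => P R' (f.comp g) :=
  fun R' g => h R' (f.comp g)

theorem Dn.imp (h : Dn S P) (hPQ : ∀ R f, P R f → Q R f) : Dn S Q := fun R f => by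
  obtain ⟨R', g, hg⟩ := h R f
  exact ⟨R', g, hPQ _ _ hg⟩

theorem Dn.of_all (h : ∀ R f, P R f) : Dn S P := fun R f => ⟨R, Hom.id R, h R f⟩

theorem Dn.dn (h : Dn S fun R f => Dn R fun R' g => P R' (f.comp g)) : Dn S P := fun R f => by
  obtain ⟨R', g, hg⟩ := h R f
  obtain ⟨R'', g', hg'⟩ := hg.here
  exact ⟨R'', g.comp g', hg'⟩

end dn

theorem Act.map {S R : Obj} {x z : Tm S} (h : Act x z) (f : Hom S R) : Act (x.map f) (z.map f) := by
  obtain ⟨i, k, h1, rfl⟩ := h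
  exact ⟨i, k.comp f, congrArg f h1, rfl⟩

theorem teq_iff {S : Obj} (x y : Tm S) : TEq x y ↔
    (∀ (R : Obj) (f : Hom S R) (z : Tm R), Act (x.map f) z →
      ∃ (R' : Obj) (g : Hom R R') (w : Tm R'), Act (y.map (f.comp g)) w ∧ TEq (z.map g) w) ∧
    (∀ (R : Obj) (f : Hom S R) (w : Tm R), Act (y.map f) w →
      ∃ (R' : Obj) (g : Hom R R') (z : Tm R'), Act (x.map (f.comp g)) z ∧ TEq z (w.map g)) := by
  obtain ⟨⟨ι, B, a, d, ch⟩, u⟩ := x
  obtain ⟨⟨ι', B', a', d', ch'⟩, v⟩ := y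
  unfold TEq
  rw [NEq]
  refine and_congr ?_ ?_
  · constructor
    · rintro h R f z ⟨i, k, h1, rfl⟩
      obtain ⟨R', g, i', k', h2, h3⟩ := h R f i k h1
      exact ⟨R', g, _, ⟨i', k', h2, rfl⟩, h3⟩
    · intro h R f i k h1
      obtain ⟨R', g, w, ⟨i', k', h2, rfl⟩, h3⟩ := h R f _ ⟨i, k, h1, rfl⟩
      exact ⟨R', g, i', k', h2, h3⟩
  · constructor
    · rintro h R f z ⟨i, k, h1, rfl⟩
      obtain ⟨R', g, i', k', h2, h3⟩ := h R f i k h1
      exact ⟨R', g, _, ⟨i', k', h2, rfl⟩, h3⟩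
    · intro h R f i k h1
      obtain ⟨R', g, w, ⟨i', k', h2, rfl⟩, h3⟩ := h R f _ ⟨i, k, h1, rfl⟩
      exact ⟨R', g, i', k', h2, h3⟩

/-- induction along activated children. -/
theorem act_induction {P : ∀ S : Obj, Tm S → Prop}
    (h : ∀ (S : Obj) (x : Tm S),
      (∀ (R : Obj) (u : R.α) (z : Tm R), Act ⟨x.nm, u⟩ z → P R z) → P S x)
    (S : Obj) (x : Tm S) : P S x := by
  obtain ⟨n, u⟩ := x
  induction n generalizing S u with
  | mk ι B a d ch ih =>
    refine h S _ ?_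
    rintro R v z ⟨i, k, -, rfl⟩
    exact ih i R _

theorem TEq.map {S R : Obj} {x y : Tm S} (h : TEq x y) (f : Hom S R) : TEq (x.map f) (y.map f) := by
  rw [teq_iff] at h ⊢
  exact ⟨fun R' g z hz => h.1 R' (f.comp g) z hz, fun R' g z hz => h.2 R' (f.comp g) z hz⟩

theorem TEq.refl {S : Obj} (x : Tm S) : TEq x x := by
  refine act_induction (P := fun S x => TEq x x) ?_ S x
  intro S x ih
  rw [teq_iff]
  exact ⟨fun R f z hz => ⟨R, Hom.id R, z, hz, ih R _ z hz⟩,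
    fun R f z hz => ⟨R, Hom.id R, z, hz, ih R _ z hz⟩⟩

theorem TEq.of_eq {S : Obj} {x y : Tm S} (h : x = y) : TEq x y := h ▸ TEq.refl x

theorem TEq.symm {S : Obj} {x y : Tm S} (h : TEq x y) : TEq y x := by
  refine act_induction (P := fun S x => ∀ y, TEq x y → TEq y x) ?_ S x y h
  intro S x ih y h
  rw [teq_iff] at h ⊢
  constructor
  · intro R f w hw
    obtain ⟨R', g, z, hz, h1⟩ := h.2 R f w hw
    exact ⟨R', g, z, hz, ih R' _ z hz _ h1⟩
  · intro R f z hz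
    obtain ⟨R', g, w, hw, h1⟩ := h.1 R f z hz
    exact ⟨R', g, w, hw, ih R' _ _ (hz.map g) _ h1⟩

theorem TEq.trans {S : Obj} {x y z : Tm S} (h : TEq x y) (h' : TEq y z) : TEq x z := by
  refine act_induction (P := fun S x => ∀ y z, TEq x y → TEq y z → TEq x z) ?_ S x y z h h'
  intro S x ih y z h h'
  rw [teq_iff] at h h' ⊢
  constructor
  · intro R f x' hx'
    obtain ⟨R', g, y', hy', h1⟩ := h.1 R f x' hx'
    obtain ⟨R'', g', z', hz', h2⟩ := h'.1 R' (f.comp g) y' hy'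
    exact ⟨R'', g.comp g', z', hz', ih R'' _ _ (hx'.map (g.comp g')) _ _ (h1.map g') h2⟩
  · intro R f z' hz'
    obtain ⟨R', g, y', hy', h1⟩ := h'.2 R f z' hz'
    obtain ⟨R'', g', x', hx', h2⟩ := h.2 R' (f.comp g) y' hy'
    exact ⟨R'', g.comp g', x', hx', ih R'' _ _ hx' _ _ h2 (h1.map g')⟩

theorem TEq.of_dn {S : Obj} {x y : Tm S} (h : Dn S fun _ f => TEq (x.map f) (y.map f)) :
    TEq x y := by
  rw [teq_iff]
  constructor
  · intro R f z hz
    obtain ⟨R', g, h1⟩ := h R f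
    obtain ⟨R'', g', w, hw, h2⟩ := ((teq_iff _ _).1 h1).1 R' (Hom.id R') _ (hz.map g)
    exact ⟨R'', g.comp g', w, hw, h2⟩
  · intro R f z hz
    obtain ⟨R', g, h1⟩ := h R f
    obtain ⟨R'', g', w, hw, h2⟩ := ((teq_iff _ _).1 h1).2 R' (Hom.id R') _ (hz.map g)
    exact ⟨R'', g.comp g', w, hw, h2⟩

theorem TMem.map {S R : Obj} {z y : Tm S} (h : TMem z y) (f : Hom S R) :
    TMem (z.map f) (y.map f) := fun R' g => h R' (f.comp g)

theorem TMem.of_dn {S : Obj} {z y : Tm S} (h : Dn S fun _ f => TMem (z.map f) (y.map f)) :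
    TMem z y := Dn.dn h

theorem TMem.of_act_teq {S : Obj} {z w y : Tm S} (hw : Act y w) (h : TEq z w) : TMem z y :=
  Dn.of_all fun _ f => ⟨w.map f, hw.map f, h.map f⟩

theorem TMem.of_act {S : Obj} {z y : Tm S} (h : Act y z) : TMem z y :=
  TMem.of_act_teq h (TEq.refl z)

/-- a member is, in some extension, equal to an activated child. -/
theorem TMem.ex {S : Obj} {z y : Tm S} (h : TMem z y) :
    ∃ (R : Obj) (f : Hom S R) (w : Tm R), Act (y.map f) w ∧ TEq (z.map f) w := Dn.here h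

theorem TMem.congr_left {S : Obj} {z z' y : Tm S} (h : TMem z y) (h' : TEq z z') : TMem z' y :=
  Dn.imp h fun _ f ⟨w, hw, h1⟩ => ⟨w, hw, (h'.map f).symm.trans h1⟩

theorem TMem.congr_right {S : Obj} {z y y' : Tm S} (h : TMem z y) (h' : TEq y y') : TMem z y' := by
  intro R f
  obtain ⟨R', g, w, hw, h1⟩ := h R f
  obtain ⟨R'', g', w', hw', h2⟩ := ((teq_iff _ _).1 h').1 R' (f.comp g) w hw
  exact ⟨R'', g.comp g', w', hw', (h1.map g').trans h2⟩

theorem teq_of_act {S : Obj} {x y : Tm S}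
    (h1 : ∀ (R : Obj) (f : Hom S R) (z : Tm R), Act (x.map f) z → TMem z (y.map f))
    (h2 : ∀ (R : Obj) (f : Hom S R) (z : Tm R), Act (y.map f) z → TMem z (x.map f)) : TEq x y := by
  rw [teq_iff]
  constructor
  · intro R f z hz
    exact (h1 R f z hz).ex
  · intro R f z hz
    obtain ⟨R', g, w, hw, h⟩ := (h2 R f z hz).ex
    exact ⟨R', g, w, hw, h.symm⟩

theorem teq_ext {S : Obj} {x y : Tm S}
    (h : ∀ (R : Obj) (f : Hom S R) (z : Tm R), TMem z (x.map f) ↔ TMem z (y.map f)) : TEq x y :=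
  teq_of_act (fun R f z hz => (h R f z).1 (TMem.of_act hz))
    (fun R f z hz => (h R f z).2 (TMem.of_act hz))

/-- membership in a constructed term. -/
theorem tmem_mkTm {S R : Obj} {ι : Type 1} {B : ι → Obj} {h : ∀ i, Hom S (B i)}
    {t : ∀ i, Tm (B i)} (f : Hom S R) (z : Tm R) :
    TMem z ((mkTm S ι B h t).map f) ↔ Dn R fun R' g =>
      ∃ (i : ι) (k : Hom (B i) R'), (h i).comp k = f.comp g ∧ TEq (z.map g) ((t i).map k) := by
  constructor
  · intro hz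
    refine Dn.imp hz ?_
    rintro R' g ⟨w, hw, h1⟩
    obtain ⟨i, k, h2, rfl⟩ := (act_mkTm (f.comp g) w).1 hw
    exact ⟨i, k, h2, h1⟩
  · intro hz
    refine Dn.imp hz ?_
    rintro R' g ⟨i, k, h2, h1⟩
    exact ⟨_, (act_mkTm (f.comp g) _).2 ⟨i, k, h2, rfl⟩, h1⟩

theorem tmem_mkTm_of {S R : Obj} {ι : Type 1} {B : ι → Obj} {h : ∀ i, Hom S (B i)}
    {t : ∀ i, Tm (B i)} (i : ι) (k : Hom (B i) R) :
    TMem ((t i).map k) ((mkTm S ι B h t).map ((h i).comp k)) :=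
  TMem.of_act ((act_mkTm _ _).2 ⟨i, k, rfl, rfl⟩)

/-- among the extensions carrying an index of a well-order there is one with the least index. -/
theorem exists_min_ext {S : Obj} {J : Type*} (r : J → J → Prop) [IsWellOrder J r]
    (P : ∀ R : Obj, Hom S R → J → Prop) (h : ∃ R f j, P R f j) :
    ∃ (R : Obj) (f : Hom S R) (j : J), P R f j ∧
      ∀ (R' : Obj) (g : Hom S R') (j' : J), P R' g j' → ¬ r j' j := by
  obtain ⟨R₀, f₀, j₀, h₀⟩ := h
  obtain ⟨j, ⟨R, f, hj⟩, hmin⟩ :=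
    (IsWellFounded.wf (r := r)).has_min {j | ∃ R f, P R f j} ⟨j₀, R₀, f₀, h₀⟩
  exact ⟨R, f, j, hj, fun R' g j' h' => hmin j' ⟨R', g, h'⟩⟩

end Crest.Agent.R296
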