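import Crest.Agent.R296.Conn

/-!
# Check names of ordinals

PLAN.  `act_chk` from the unfolding equation of `chk` (`Ordinal.typein`/`Ordinal.enum` or `ToType.mk`; every `δ < γ` is
some `typein i`; activate with `B = S`, `k = Hom.id`).  `teq_chk`, `tmem_chk`: strong induction (`teq_iff`).
`valid_infAx`: witness `chk ω`; the successor of `chk n` is `chk (n+1)`.
`ord_chk`: prove by `act_induction` the semantic statement: if `x` is transitive and all members of `x` are transitive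
(`Trans x := ∀ R f y z, TMem z y → TMem y (x.map f) → TMem z (x.map f)`), then densely `x = chk γ`.
Members of such an `x` are again such.  (1) there are `β` and an extension in which `chk β ∈ x` is never forced:
otherwise for every `β` there are `R, f, i, k` with `chk β = child (i,k)` forced at `R`, and `β ↦ (R, i, k)` would be an injection
of `Ordinal.{1}` into a type in `Type 1` (`not_injective_of_ordinal`, `teq_chk`).  (2) take the least such `β`
(`exists_min_ext`), at that extension every `γ < β` has `chk γ ∈ x` (`TMem.of_dn`), and `x = chk β` by `teq_of_act`: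
an activated child is densely `chk γ` (induction), `γ = β` and `γ > β` (transitivity) are impossible.
-/

set_option autoImplicit false

namespace Crest.Agent.R296

open FirstOrder FirstOrder.Language Crest.LogicCS.SetTheory

noncomputable def chk (γ : Ordinal.{1}) : Name :=
  .mk (Σ B : Obj, B.α × γ.ToType) (fun i => i.1) (fun i => i.2.1) (fun i => i.2.1)
    fun i => chk (Ordinal.typein (α := γ.ToType) (· < ·) i.2.2)
termination_by γ
decreasing_by exact Ordinal.typein_lt_self _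

variable {S : Obj}

theorem act_chk {γ : Ordinal.{1}} {u : S.α} {z : Tm S} :
    Act ⟨chk γ, u⟩ z ↔ ∃ δ < γ, z = ⟨chk δ, u⟩ := by
  rw [chk]
  constructor
  · rintro ⟨⟨B, b, j⟩, k, h1, rfl⟩
    refine ⟨_, Ordinal.typein_lt_self j, ?_⟩
    have h2 : k b = u := h1
    exact congrArg (Tm.mk _) h2
  · rintro ⟨δ, hδ, rfl⟩
    obtain ⟨j, rfl⟩ := Ordinal.typein_surj (α := γ.ToType) (· < ·) (o := δ)
      (by rwa [Ordinal.type_toType])
    exact ⟨⟨S, u, j⟩, Hom.id S, rfl, rfl⟩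

theorem teq_chk_of_eq (γ : Ordinal.{1}) :
    ∀ {S : Obj} (u v : S.α), TEq (⟨chk γ, u⟩ : Tm S) ⟨chk γ, v⟩ := by
  induction γ using WellFoundedLT.induction with
  | ind γ ih =>
    intro S u v
    rw [teq_iff]
    constructor
    · intro R f z hz
      obtain ⟨δ, hδ, rfl⟩ := act_chk.1 hz
      exact ⟨R, Hom.id R, ⟨chk δ, f v⟩, act_chk.2 ⟨δ, hδ, rfl⟩, ih δ hδ _ _⟩
    · intro R f z hz
      obtain ⟨δ, hδ, rfl⟩ := act_chk.1 hz
      exact ⟨R, Hom.id R, ⟨chk δ, f u⟩, act_chk.2 ⟨δ, hδ, rfl⟩, ih δ hδ _ _⟩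

theorem eq_of_teq_chk (γ : Ordinal.{1}) :
    ∀ {δ : Ordinal.{1}} {S : Obj} {u v : S.α}, TEq (⟨chk γ, u⟩ : Tm S) ⟨chk δ, v⟩ → γ = δ := by
  induction γ using WellFoundedLT.induction with
  | ind γ ih =>
    intro δ S u v h
    rw [teq_iff] at h
    refine le_antisymm (le_of_forall_lt fun γ' hγ' => ?_) (le_of_forall_lt fun δ' hδ' => ?_)
    · obtain ⟨R', g, w, hw, h1⟩ := h.1 S (Hom.id S) ⟨chk γ', u⟩ (act_chk.2 ⟨γ', hγ', rfl⟩)
      obtain ⟨δ', hδ', rfl⟩ := act_chk.1 hw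
      rw [ih γ' hγ' h1]
      exact hδ'
    · obtain ⟨R', g, w, hw, h1⟩ := h.2 S (Hom.id S) ⟨chk δ', v⟩ (act_chk.2 ⟨δ', hδ', rfl⟩)
      obtain ⟨γ', hγ', rfl⟩ := act_chk.1 hw
      rw [← ih γ' hγ' h1]
      exact hγ'

theorem teq_chk {γ δ : Ordinal.{1}} {u v : S.α} : TEq (⟨chk γ, u⟩ : Tm S) ⟨chk δ, v⟩ ↔ γ = δ :=
  ⟨eq_of_teq_chk γ, fun h => h ▸ teq_chk_of_eq γ u v⟩

theorem tmem_chk {γ δ : Ordinal.{1}} {u v : S.α} : TMem (⟨chk δ, u⟩ : Tm S) ⟨chk γ, v⟩ ↔ δ < γ := by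
  constructor
  · intro h
    obtain ⟨R, f, w, hw, h1⟩ := h.ex
    obtain ⟨δ', hδ', rfl⟩ := act_chk.1 hw
    rw [eq_of_teq_chk δ h1]
    exact hδ'
  · intro h
    exact TMem.of_act_teq (act_chk.2 ⟨δ, h, rfl⟩) (teq_chk_of_eq δ _ _)

/-- a member of a check ordinal is, in an extension, a smaller check ordinal. -/
theorem TMem.ex_chk {γ : Ordinal.{1}} {u : S.α} {z : Tm S} (h : TMem z ⟨chk γ, u⟩) :
    ∃ (R : Obj) (f : Hom S R) (δ : Ordinal.{1}), δ < γ ∧ TEq (z.map f) ⟨chk δ, R.top⟩ := by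
  obtain ⟨R, f, w, hw, h1⟩ := h.ex
  obtain ⟨δ, hδ, rfl⟩ := act_chk.1 hw
  exact ⟨R, f, δ, hδ, h1.trans (teq_chk_of_eq δ _ _)⟩

theorem tmem_chk_succ {δ : Ordinal.{1}} {u v : S.α} {y z : Tm S} (hy : TEq y ⟨chk δ, u⟩) :
    TMem z ⟨chk (Order.succ δ), v⟩ ↔
      Dn S fun _ g => TMem (z.map g) (y.map g) ∨ TEq (z.map g) (y.map g) := by
  constructor
  · intro hz R f
    obtain ⟨R', g, ε, hε, h1⟩ := TMem.ex_chk (hz.map f)
    refine ⟨R', g, ?_⟩
    rcases (Order.lt_succ_iff.1 hε).lt_or_eq with h2 | h2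
    · left
      exact ((tmem_chk.2 h2).congr_left h1.symm).congr_right (hy.map (f.comp g)).symm
    · right
      subst h2
      exact (h1.trans (teq_chk_of_eq _ _ _)).trans (hy.map (f.comp g)).symm
  · intro h
    refine TMem.of_dn (Dn.dn (h.imp ?_))
    rintro R f (h1 | h1)
    · intro R' g
      obtain ⟨R'', g', ε, hε, h2⟩ := TMem.ex_chk ((h1.congr_right (hy.map f)).map g)
      exact ⟨R'', g', (tmem_chk.2 (hε.trans (Order.lt_succ δ))).congr_left h2.symm⟩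
    · exact Dn.of_all fun R' g =>
        (tmem_chk.2 (Order.lt_succ δ)).congr_left ((h1.trans (hy.map f)).map g).symm

theorem valid_infAx : Valid infAx := by
  intro S
  unfold infAx
  refine force_ex_of ⟨chk Ordinal.omega0, S.top⟩ (force_inf.2 ⟨?_, ?_⟩)
  · refine force_ex_of ⟨chk 0, S.top⟩ (force_inf.2 ⟨?_, ?_⟩)
    · intro R f z R' g h
      have h1 : TMem (z.map g) ⟨chk 0, g (f S.top)⟩ := h
      obtain ⟨_, _, δ, hδ, -⟩ := h1.ex_chk
      exact absurd hδ (not_lt_zero)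
    · exact tmem_chk.2 Ordinal.omega0_pos
  · intro R f y R' g h
    have h1 : TMem (y.map g) ⟨chk Ordinal.omega0, g (f S.top)⟩ := h
    refine force_ex.2 fun R1 f1 => ?_
    obtain ⟨R2, f2, δ, hδ, h2⟩ := TMem.ex_chk (h1.map f1)
    refine ⟨R2, f2, ⟨chk (Order.succ δ), R2.top⟩, force_inf.2 ⟨?_, ?_⟩⟩
    · exact tmem_chk.2 (Ordinal.isSuccLimit_omega0.succ_lt hδ)
    · intro R3 f3 z
      refine force_iff.2 fun R4 f4 => ?_
      rw [force_sup]
      exact tmem_chk_succ (h2.map (f3.comp f4))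

/-- `x` is forced to be transitive. -/
def TTrans (x : Tm S) : Prop :=
  ∀ (R : Obj) (f : Hom S R) (y z : Tm R), TMem z y → TMem y (x.map f) → TMem z (x.map f)

/-- `x` is forced to be an ordinal. -/
def TOrd (x : Tm S) : Prop :=
  TTrans x ∧ ∀ (R : Obj) (f : Hom S R) (y : Tm R), TMem y (x.map f) → TTrans y

theorem TOrd.mem {x : Tm S} (h : TOrd x) {R : Obj} (f : Hom S R) {y : Tm R}
    (hy : TMem y (x.map f)) : TOrd y :=
  ⟨h.2 R f y hy, fun R' g w hw => h.2 R' (f.comp g) w (h.1 R' (f.comp g) _ w hw (hy.map g))⟩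

theorem exists_not_mem_chk (x : Tm S) :
    ∃ β : Ordinal.{1}, ∀ (R : Obj) (f : Hom S R), ¬ TMem ⟨chk β, R.top⟩ (x.map f) := by
  by_contra hc
  push Not at hc
  have H : ∀ β : Ordinal.{1}, ∃ t : (Σ R : Obj, x.nm.ι × R.α),
      TEq (⟨chk β, t.1.top⟩ : Tm t.1) ⟨x.nm.ch t.2.1, t.2.2⟩ := by
    intro β
    obtain ⟨R, f, h⟩ := hc β
    obtain ⟨R', g, w, ⟨i, k, -, rfl⟩, h1⟩ := h.ex
    exact ⟨⟨R', i, _⟩, (teq_chk_of_eq β _ _).trans h1⟩
  choose t ht using H
  refine not_injective_of_ordinal t fun β β' hβ => ?_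
  have h1 := ht β
  have h2 := ht β'
  rw [hβ] at h1
  exact teq_chk.1 (h1.trans h2.symm)

theorem TOrd.ex_chk {x : Tm S} (hx : TOrd x) :
    ∃ (R : Obj) (g : Hom S R) (γ : Ordinal.{1}), TEq (x.map g) ⟨chk γ, R.top⟩ := by
  refine act_induction (P := fun S x => TOrd x →
    ∃ (R : Obj) (g : Hom S R) (γ : Ordinal.{1}), TEq (x.map g) ⟨chk γ, R.top⟩) ?_ S x hx
  intro S x ih hx
  obtain ⟨β₀, h₀⟩ := exists_not_mem_chk x
  obtain ⟨R, f, β, hβ, hmin⟩ := exists_min_ext (S := S) (J := Ordinal.{1}) (· < ·)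
    (fun R f β => ∀ (R' : Obj) (g : Hom R R'), ¬ TMem ⟨chk β, R'.top⟩ (x.map (f.comp g)))
    ⟨S, Hom.id S, β₀, h₀⟩
  refine ⟨R, f, β, teq_of_act ?_ ?_⟩
  · intro R1 f1 z hz
    refine TMem.of_dn fun R2 f2 => ?_
    have hz2 : Act (x.map ((f.comp f1).comp f2)) (z.map f2) := hz.map f2
    obtain ⟨R3, f3, γ, hγ⟩ := ih R2 _ _ hz2 (hx.mem _ (TMem.of_act hz2))
    refine ⟨R3, f3, ?_⟩
    have hz3 : TMem ⟨chk γ, R3.top⟩ (x.map (f.comp ((f1.comp f2).comp f3))) :=
      ((TMem.of_act hz2).map f3).congr_left hγ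
    rcases lt_trichotomy γ β with h | h | h
    · exact (tmem_chk.2 h).congr_left hγ.symm
    · subst h
      exact (hβ R3 _ hz3).elim
    · exact (hβ R3 _ (hx.1 R3 _ _ _ (tmem_chk.2 h) hz3)).elim
  · intro R1 f1 z hz
    obtain ⟨δ, hδ, rfl⟩ := act_chk.1 hz
    refine TMem.of_dn fun R2 f2 => ?_
    by_contra hc
    refine hmin R2 ((f.comp f1).comp f2) δ (fun R3 f3 h => hc ⟨R3, f3, ?_⟩) hδ
    exact h.congr_left (teq_chk_of_eq δ _ _)

theorem force_isTrans {n : ℕ} {i : Fin n} {e : Fin n → Tm S} (h : Force (isTrans i) S e) :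
    TTrans (e i) := by
  unfold isTrans at h
  simp only [force_inf, force_all, force_imp, force_vmem, Fin.snoc_last, Fin.snoc_castSucc,
    emap_apply, Tm.map_map] at h
  exact fun R f y z hz hy => h R f y R (Hom.id R) z R (Hom.id R) ⟨hz, hy⟩

theorem force_isOrd {n : ℕ} {i : Fin n} {e : Fin n → Tm S} (h : Force (isOrd i) S e) :
    TOrd (e i) := by
  unfold isOrd at h
  rw [force_inf] at h
  refine ⟨force_isTrans h.1, fun R f y hy => ?_⟩
  have h1 := h.2 R f y R (Hom.id R) (by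
    rw [force_vmem]
    simpa only [Fin.snoc_last, Fin.snoc_castSucc, emap_apply, Tm.map_map, Tm.map_id,
      Hom.comp_id] using hy)
  have h2 := force_isTrans h1
  simpa only [Fin.snoc_last, emap_apply, Tm.map_id] using h2

/-- members of an ordinal are densely check ordinals. -/
theorem ord_chk {n : ℕ} {i : Fin n} {e : Fin n → Tm S} (h : Force (isOrd i) S e)
    {R : Obj} (f : Hom S R) (z : Tm R) (hz : TMem z ((e i).map f)) :
    ∃ (R' : Obj) (g : Hom R R') (γ : Ordinal.{1}), TEq (z.map g) ⟨chk γ, R'.top⟩ :=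
  ((force_isOrd h).mem f hz).ex_chk

end Crest.Agent.R296
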