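import Crest.Agent.R296.Basic

/-! # The forcing relation: monotonicity, regularity, connectives, congruence, `liftAt` -/

set_option autoImplicit false

namespace Crest.Agent.R296

open FirstOrder FirstOrder.Language Crest.LogicCS.SetTheory

variable {n : ℕ}

@[simp] theorem emap_apply {S R : Obj} (e : Fin n → Tm S) (f : Hom S R) (i : Fin n) :
    emap e f i = (e i).map f := rfl
@[simp] theorem emap_id {S : Obj} (e : Fin n → Tm S) : emap e (Hom.id S) = e := rfl
@[simp] theorem emap_emap {S R T : Obj} (e : Fin n → Tm S) (f : Hom S R) (g : Hom R T) :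
    emap (emap e f) g = emap e (f.comp g) := rfl

theorem emap_snoc {S R : Obj} (e : Fin n → Tm S) (x : Tm S) (f : Hom S R) :
    emap (Fin.snoc e x : Fin (n + 1) → Tm S) f = Fin.snoc (emap e f) (x.map f) := by
  funext i
  refine Fin.lastCases ?_ (fun j => ?_) i <;> simp

theorem emap_elim0 {S R : Obj} (f : Hom S R) : emap (Fin.elim0 : Fin 0 → Tm S) f = Fin.elim0 :=
  funext fun i => i.elim0

theorem force_falsum {S : Obj} {e : Fin n → Tm S} :
    Force (BoundedFormula.falsum : setL.BoundedFormula Empty n) S e ↔ False := Iff.rfl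

theorem force_bot {S : Obj} {e : Fin n → Tm S} :
    Force (⊥ : setL.BoundedFormula Empty n) S e ↔ False := Iff.rfl

theorem force_imp {φ ψ : setL.BoundedFormula Empty n} {S : Obj} {e : Fin n → Tm S} :
    Force (φ ⟹ ψ) S e ↔
      ∀ (R : Obj) (f : Hom S R), Force φ R (emap e f) → Force ψ R (emap e f) := Iff.rfl

theorem force_all {φ : setL.BoundedFormula Empty (n + 1)} {S : Obj} {e : Fin n → Tm S} :
    Force (∀' φ) S e ↔
      ∀ (R : Obj) (f : Hom S R) (x : Tm R), Force φ R (Fin.snoc (emap e f) x) := Iff.rfl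

theorem force_not {φ : setL.BoundedFormula Empty n} {S : Obj} {e : Fin n → Tm S} :
    Force (∼φ) S e ↔ ∀ (R : Obj) (f : Hom S R), ¬ Force φ R (emap e f) := Iff.rfl

theorem force_vmem {i j : Fin n} {S : Obj} {e : Fin n → Tm S} :
    Force (vmem i j) S e ↔ TMem (e i) (e j) := Iff.rfl

theorem force_veq {i j : Fin n} {S : Obj} {e : Fin n → Tm S} :
    Force (veq i j) S e ↔ TEq (e i) (e j) := Iff.rfl

theorem Force.map {φ : setL.BoundedFormula Empty n} {S R : Obj} {e : Fin n → Tm S}
    (h : Force φ S e) (f : Hom S R) : Force φ R (emap e f) := by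
  cases φ with
  | falsum => exact h
  | equal t₁ t₂ => exact TEq.map h f
  | rel r ts => cases r; exact TMem.map h f
  | imp φ ψ => exact fun R' g => h R' (f.comp g)
  | all φ => exact fun R' g => h R' (f.comp g)

theorem Force.of_dn {φ : setL.BoundedFormula Empty n} {S : Obj} {e : Fin n → Tm S}
    (h : Dn S fun R f => Force φ R (emap e f)) : Force φ S e := by
  induction φ generalizing S with
  | falsum => obtain ⟨_, _, h⟩ := h.here; exact h
  | equal t₁ t₂ => exact TEq.of_dn h
  | rel r ts => cases r; exact TMem.of_dn h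
  | imp φ ψ _ ih =>
    intro R f hφ
    refine ih fun R' g => ?_
    obtain ⟨R'', g', h1⟩ := h R' (f.comp g)
    exact ⟨R'', g', h1 R'' (Hom.id _) (hφ.map (g.comp g'))⟩
  | all φ ih =>
    intro R f x
    refine ih fun R' g => ?_
    obtain ⟨R'', g', h1⟩ := h R' (f.comp g)
    refine ⟨R'', g', ?_⟩
    beta_reduce
    rw [emap_snoc]
    exact h1 R'' (Hom.id _) _

theorem not_force {φ : setL.BoundedFormula Empty n} {S : Obj} {e : Fin n → Tm S}
    (h : ¬ Force φ S e) : ∃ (R : Obj) (f : Hom S R), Force (∼φ) R (emap e f) := by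
  by_contra hc
  refine h (Force.of_dn fun R f => ?_)
  by_contra hc'
  exact hc ⟨R, f, fun R' g h1 => hc' ⟨R', g, h1⟩⟩

theorem force_inf {φ ψ : setL.BoundedFormula Empty n} {S : Obj} {e : Fin n → Tm S} :
    Force (φ ⊓ ψ) S e ↔ Force φ S e ∧ Force ψ S e := by
  change (∀ (R : Obj) (f : Hom S R), Force (φ ⟹ ∼ψ) R (emap e f) → False) ↔ _
  constructor
  · intro h
    constructor
    · refine Force.of_dn fun R f => ?_
      by_contra hc
      exact h R f fun R' g h1 => (hc ⟨R', g, h1⟩).elim
    · refine Force.of_dn fun R f => ?_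
      by_contra hc
      exact h R f fun R' g _ R'' g' h1 => hc ⟨R'', g.comp g', h1⟩
  · rintro ⟨h1, h2⟩ R f h
    exact h R (Hom.id R) (h1.map f) R (Hom.id R) (h2.map f)

theorem force_sup {φ ψ : setL.BoundedFormula Empty n} {S : Obj} {e : Fin n → Tm S} :
    Force (φ ⊔ ψ) S e ↔ Dn S fun R f => Force φ R (emap e f) ∨ Force ψ R (emap e f) := by
  change (∀ (R : Obj) (f : Hom S R), Force (∼φ) R (emap e f) → Force ψ R (emap e f)) ↔ _
  constructor
  · intro h R f
    by_cases h1 : Force φ R (emap e f)
    · exact ⟨R, Hom.id R, Or.inl h1⟩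
    · obtain ⟨R', g, h2⟩ := not_force h1
      exact ⟨R', g, Or.inr (h R' (f.comp g) h2)⟩
  · intro h R f h1
    refine Force.of_dn fun R' g => ?_
    obtain ⟨R'', g', h2 | h2⟩ := h R' (f.comp g)
    · exact (h1 R'' (g.comp g') h2).elim
    · exact ⟨R'', g', h2⟩

theorem force_ex {φ : setL.BoundedFormula Empty (n + 1)} {S : Obj} {e : Fin n → Tm S} :
    Force (∃' φ) S e ↔ Dn S fun R f => ∃ x : Tm R, Force φ R (Fin.snoc (emap e f) x) := by
  change (∀ (R : Obj) (f : Hom S R), Force (∀' ∼φ) R (emap e f) → False) ↔ _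
  constructor
  · intro h R f
    by_contra hc
    refine h R f fun R' g x R'' g' h1 => hc ⟨R'', g.comp g', x.map g', ?_⟩
    rw [emap_snoc] at h1
    exact h1
  · intro h R f h1
    obtain ⟨R', g, x, h2⟩ := h R f
    exact h1 R' g x R' (Hom.id _) h2

theorem force_ex_of {φ : setL.BoundedFormula Empty (n + 1)} {S : Obj} {e : Fin n → Tm S}
    (x : Tm S) (h : Force φ S (Fin.snoc e x)) : Force (∃' φ) S e :=
  force_ex.2 (Dn.of_all fun _ f => ⟨x.map f, by rw [← emap_snoc]; exact h.map f⟩)

theorem force_iff {φ ψ : setL.BoundedFormula Empty n} {S : Obj} {e : Fin n → Tm S} :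
    Force (φ ⇔ ψ) S e ↔
      ∀ (R : Obj) (f : Hom S R), (Force φ R (emap e f) ↔ Force ψ R (emap e f)) := by
  change Force ((φ ⟹ ψ) ⊓ (ψ ⟹ φ)) S e ↔ _
  rw [force_inf]
  exact ⟨fun h R f => ⟨h.1 R f, h.2 R f⟩, fun h => ⟨fun R f => (h R f).1, fun R f => (h R f).2⟩⟩

theorem Force.congr_iff {φ : setL.BoundedFormula Empty n} {S : Obj} {e e' : Fin n → Tm S}
    (he : ∀ i, TEq (e i) (e' i)) : Force φ S e ↔ Force φ S e' := by
  induction φ generalizing S with
  | falsum => exact Iff.rfl
  | equal t₁ t₂ =>
    exact ⟨fun h => ((he _).symm.trans h).trans (he _), fun h => ((he _).trans h).trans (he _).symm⟩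
  | rel r ts =>
    cases r
    exact ⟨fun h => (TMem.congr_left h (he _)).congr_right (he _),
      fun h => (TMem.congr_left h (he _).symm).congr_right (he _).symm⟩
  | imp φ ψ ih1 ih2 =>
    refine forall_congr' fun R => forall_congr' fun f => ?_
    rw [ih1 (e := emap e f) (e' := emap e' f) fun i => (he i).map f,
      ih2 (e := emap e f) (e' := emap e' f) fun i => (he i).map f]
  | all φ ih =>
    refine forall_congr' fun R => forall_congr' fun f => forall_congr' fun x => ih fun i => ?_
    refine Fin.lastCases ?_ (fun j => ?_) i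
    · simpa using TEq.refl x
    · simpa using (he j).map f

theorem Force.congr {φ : setL.BoundedFormula Empty n} {S : Obj} {e e' : Fin n → Tm S}
    (h : Force φ S e) (he : ∀ i, TEq (e i) (e' i)) : Force φ S e' := (Force.congr_iff he).1 h

theorem Force.congr_snoc {φ : setL.BoundedFormula Empty (n + 1)} {S : Obj} {e : Fin n → Tm S}
    {x y : Tm S} (h : Force φ S (Fin.snoc e x)) (hxy : TEq x y) : Force φ S (Fin.snoc e y) := by
  refine h.congr fun i => ?_
  refine Fin.lastCases ?_ (fun j => ?_) i
  · simpa using hxy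
  · simpa using TEq.refl (e j)

theorem force_castLE_of_eq {m : ℕ} (h : m = n) {h' : m ≤ n} {φ : setL.BoundedFormula Empty m}
    {S : Obj} {e : Fin n → Tm S} : Force (φ.castLE h') S e ↔ Force φ S (e ∘ Fin.cast h) := by
  subst h
  simp only [BoundedFormula.castLE_rfl, Fin.cast_refl, Function.comp_id]

theorem tv_liftAt {n' m : ℕ} (t : setL.Term (Empty ⊕ Fin n)) :
    tv (t.liftAt n' m) = if ↑(tv t) < m then Fin.castAdd n' (tv t) else Fin.addNat (tv t) n' := by
  cases t with
  | var a =>
    cases a with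
    | inl e => exact e.elim
    | inr i => rfl
  | func f _ => exact Empty.elim f

theorem force_liftAt {n' m : ℕ} {φ : setL.BoundedFormula Empty n} {S : Obj}
    {e : Fin (n + n') → Tm S} (hmn : m ≤ n) :
    Force (φ.liftAt n' m) S e ↔
      Force φ S (e ∘ fun i => if ↑i < m then Fin.castAdd n' i else Fin.addNat i n') := by
  rw [BoundedFormula.liftAt]
  induction φ generalizing S with
  | falsum => exact Iff.rfl
  | equal t₁ t₂ =>
    simp only [BoundedFormula.mapTermRel, Force, tv_liftAt, Function.comp_apply]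
  | rel r ts =>
    simp only [BoundedFormula.mapTermRel, Force, tv_liftAt, Function.comp_apply, id]
  | imp _ _ ih1 ih2 =>
    simp only [BoundedFormula.mapTermRel, Force, ih1 hmn, ih2 hmn]
    rfl
  | @all k _ ih3 =>
    have h : k + 1 + n' = k + n' + 1 := by rw [add_assoc, add_comm 1 n', ← add_assoc]
    simp only [BoundedFormula.mapTermRel, Force, force_castLE_of_eq h, ih3 (hmn.trans k.le_succ)]
    refine forall_congr' fun R => forall_congr' fun f => forall_congr' fun x =>
      iff_eq_eq.mpr (congr rfl (funext (Fin.lastCases ?_ fun i => ?_)))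
    · simp only [Function.comp_apply, Fin.val_last, Fin.snoc_last]
      refine (congr rfl (Fin.ext ?_)).trans (Fin.snoc_last _ _)
      split_ifs <;> dsimp; lia
    · simp only [Function.comp_apply, Fin.snoc_castSucc]
      refine (congr rfl (Fin.ext ?_)).trans (Fin.snoc_castSucc _ _ _)
      simp only [Fin.val_castSucc, Fin.val_cast]
      split_ifs <;> simp

theorem valid_alls {φ : setL.BoundedFormula Empty n}
    (h : ∀ (S : Obj) (e : Fin n → Tm S), Force φ S e) : Valid (BoundedFormula.alls φ) := by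
  induction n with
  | zero => exact fun S => h S _
  | succ n ih => exact ih (φ := φ.all) fun S e R f x => h R _

end Crest.Agent.R296
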