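import Crest.Agent.R296.Str
import Crest.Prelude.Def_SetTheory

/-!
# Names, terms and the forcing relation

A name is a family of tagged children; a *term* at a stage `S` is a name anchored at a point of `S`.
The `i`-th child of `(x,u)` is *activated* at `S` by an embedding `k : B i → S` with `k (a i) = u`; it is then the
term `(ch i, k (d i))`.
-/

set_option autoImplicit false

namespace Crest.Agent.R296

open FirstOrder FirstOrder.Language Crest.LogicCS.SetTheory

inductive Name : Type 2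
  | mk (ι : Type 1) (B : ι → Obj) (a d : ∀ i, (B i).α) (ch : ι → Name) : Name

namespace Name
def ι : Name → Type 1 | mk ι _ _ _ _ => ι
def B : (x : Name) → x.ι → Obj | mk _ B _ _ _ => B
def a : (x : Name) → (i : x.ι) → (x.B i).α | mk _ _ a _ _ => a
def d : (x : Name) → (i : x.ι) → (x.B i).α | mk _ _ _ d _ => d
def ch : (x : Name) → x.ι → Name | mk _ _ _ _ ch => ch
end Name

structure Tm (S : Obj) : Type 2 where
  nm : Name
  pt : S.α

def Tm.map {S R : Obj} (x : Tm S) (f : Hom S R) : Tm R := ⟨x.nm, f x.pt⟩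

@[simp] theorem Tm.map_id {S : Obj} (x : Tm S) : x.map (Hom.id S) = x := rfl
@[simp] theorem Tm.map_map {S R T : Obj} (x : Tm S) (f : Hom S R) (g : Hom R T) :
    (x.map f).map g = x.map (f.comp g) := rfl
@[simp] theorem Tm.map_nm {S R : Obj} (x : Tm S) (f : Hom S R) : (x.map f).nm = x.nm := rfl
@[simp] theorem Tm.map_pt {S R : Obj} (x : Tm S) (f : Hom S R) : (x.map f).pt = f x.pt := rfl

/-- forced equality of anchored names. -/
def NEq : Name → Name → (S : Obj) → S.α → S.α → Prop
  | .mk _ B a d ch, .mk _ B' a' d' ch', S, u, v =>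
    (∀ (R : Obj) (f : Hom S R) i (k : Hom (B i) R), k (a i) = f u →
      ∃ (R' : Obj) (g : Hom R R') (i' : _) (k' : Hom (B' i') R'), k' (a' i') = g (f v) ∧
        NEq (ch i) (ch' i') R' (g (k (d i))) (k' (d' i'))) ∧
    (∀ (R : Obj) (f : Hom S R) i' (k' : Hom (B' i') R), k' (a' i') = f v →
      ∃ (R' : Obj) (g : Hom R R') (i : _) (k : Hom (B i) R'), k (a i) = g (f u) ∧
        NEq (ch i) (ch' i') R' (k (d i)) (g (k' (d' i'))))

def TEq {S : Obj} (x y : Tm S) : Prop := NEq x.nm y.nm S x.pt y.pt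

/-- `z` is an activated child of `x`. -/
def Act {S : Obj} (x z : Tm S) : Prop :=
  ∃ (i : x.nm.ι) (k : Hom (x.nm.B i) S), k (x.nm.a i) = x.pt ∧ z = ⟨x.nm.ch i, k (x.nm.d i)⟩

/-- "densely below `S`". -/
def Dn (S : Obj) (P : ∀ R : Obj, Hom S R → Prop) : Prop :=
  ∀ (R : Obj) (f : Hom S R), ∃ (R' : Obj) (g : Hom R R'), P R' (f.comp g)

/-- forced membership. -/
def TMem {S : Obj} (z y : Tm S) : Prop :=
  Dn S fun R f => ∃ w : Tm R, Act (y.map f) w ∧ TEq (z.map f) w

/-- the variable a term of the language of set theory stands for. -/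
def tv {n : ℕ} : setL.Term (Empty ⊕ Fin n) → Fin n
  | .var (.inl e) => e.elim
  | .var (.inr i) => i
  | .func f _ => Empty.elim f

def emap {n : ℕ} {S R : Obj} (e : Fin n → Tm S) (f : Hom S R) : Fin n → Tm R := fun i => (e i).map f

def relF {S : Obj} : ∀ {l : ℕ}, SetRel l → (Fin l → Tm S) → Prop
  | _, SetRel.mem, v => TMem (v 0) (v 1)

def Force : ∀ {n : ℕ}, setL.BoundedFormula Empty n → (S : Obj) → (Fin n → Tm S) → Prop
  | _, .falsum, _, _ => False
  | _, .equal t₁ t₂, _, e => TEq (e (tv t₁)) (e (tv t₂))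
  | _, .rel r ts, _, e => relF r fun i => e (tv (ts i))
  | _, .imp φ ψ, S, e => ∀ (R : Obj) (f : Hom S R), Force φ R (emap e f) → Force ψ R (emap e f)
  | _, .all φ, S, e => ∀ (R : Obj) (f : Hom S R) (x : Tm R), Force φ R (Fin.snoc (emap e f) x)

/-- a sentence is *valid* when every stage forces it. -/
def Valid (σ : setL.Sentence) : Prop := ∀ S : Obj, Force σ S Fin.elim0

/-- the term at `S` (anchored at the top) whose children are the terms `t i` at the extensions `h i : S → B i`. -/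
def mkTm (S : Obj) (ι : Type 1) (B : ι → Obj) (h : ∀ i, Hom S (B i)) (t : ∀ i, Tm (B i)) : Tm S :=
  ⟨.mk ι B (fun i => h i S.top) (fun i => (t i).pt) (fun i => (t i).nm), S.top⟩

theorem act_mkTm {S R : Obj} {ι : Type 1} {B : ι → Obj} {h : ∀ i, Hom S (B i)} {t : ∀ i, Tm (B i)}
    (f : Hom S R) (z : Tm R) :
    Act ((mkTm S ι B h t).map f) z ↔
      ∃ (i : ι) (k : Hom (B i) R), (h i).comp k = f ∧ z = (t i).map k := by
  constructor
  · rintro ⟨i, k, h1, h2⟩
    exact ⟨i, k, Hom.ext_top _ _ h1, h2⟩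
  · rintro ⟨i, k, h1, h2⟩
    exact ⟨i, k, by subst h1; rfl, h2⟩

end Crest.Agent.R296
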