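import Crest.Agent.R296.Conn

/-! # A two-valued model of the valid sentences (generic sequence of stages) -/

set_option autoImplicit false

namespace Crest.Agent.R296

open FirstOrder FirstOrder.Language Crest.LogicCS.SetTheory

instance gen_setRel_sub (l : ℕ) : Subsingleton (SetRel l) :=
  ⟨fun a b => by cases a; cases b; rfl⟩

instance gen_symbols : Countable setL.Symbols := by
  have h1 : ∀ l, Countable (setL.Functions l) := fun _ => inferInstanceAs (Countable Empty)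
  have h2 : ∀ l, Countable (setL.Relations l) := fun l => inferInstanceAs (Countable (SetRel l))
  unfold Language.Symbols
  infer_instance

instance gen_bf (k : ℕ) : Countable (setL.BoundedFormula Empty k) :=
  (sigma_mk_injective (β := fun n => setL.BoundedFormula Empty n) (i := k)).countable

def GTask : Type := Σ k, setL.BoundedFormula Empty k × (Fin k → ℕ)

instance : Countable GTask := by unfold GTask; infer_instance
instance : Nonempty GTask := ⟨⟨0, ⊥, Fin.elim0⟩⟩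

structure GSt : Type 2 where
  S : Obj
  τ : ℕ → Tm S

def emptyTm (S : Obj) : Tm S :=
  ⟨.mk PEmpty (fun i => i.elim) (fun i => i.elim) (fun i => i.elim) fun i => i.elim, S.top⟩

theorem gstep_ex (s : GSt) (t : GTask) : ∃ r : Σ R : Obj, Hom s.S R × Tm R,
    (Force t.2.1 r.1 (emap (s.τ ∘ t.2.2) r.2.1) ∨ Force (∼t.2.1) r.1 (emap (s.τ ∘ t.2.2) r.2.1)) ∧
    ∀ φ : setL.BoundedFormula Empty (t.1 + 1), t.2.1 = φ.all →
      Force t.2.1 r.1 (emap (s.τ ∘ t.2.2) r.2.1) ∨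
        Force (∼φ) r.1 (Fin.snoc (emap (s.τ ∘ t.2.2) r.2.1) r.2.2) := by
  obtain ⟨k, ψ, idx⟩ := t
  by_cases h : Force ψ s.S (s.τ ∘ idx)
  · exact ⟨⟨s.S, Hom.id _, emptyTm _⟩, Or.inl h, fun _ _ => Or.inl h⟩
  by_cases h' : ∃ φ : setL.BoundedFormula Empty (k + 1), ψ = φ.all
  · obtain ⟨φ, rfl⟩ := h'
    rw [force_all] at h
    push Not at h
    obtain ⟨R, f, x, hx⟩ := h
    obtain ⟨R', g, hg⟩ := not_force hx
    rw [emap_snoc] at hg
    refine ⟨⟨R', f.comp g, x.map g⟩, Or.inr ?_, fun φ' hφ => Or.inr ?_⟩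
    · intro R'' g' h1
      have h2 := force_all.1 h1 R'' (Hom.id _) ((x.map g).map g')
      refine hg R'' g' ?_
      rw [emap_snoc]
      exact h2
    · cases hφ
      exact hg
  · obtain ⟨R, f, hf⟩ := not_force h
    exact ⟨⟨R, f, emptyTm _⟩, Or.inr hf, fun φ hφ => (h' ⟨φ, hφ⟩).elim⟩

noncomputable def gen : ℕ → GTask := (exists_surjective_nat GTask).choose

noncomputable def gnext (n : ℕ) (s : GSt) : GSt :=
  ⟨(gstep_ex s (gen n.unpair.1)).choose.1, fun i =>
    if i = n then (gstep_ex s (gen n.unpair.1)).choose.2.2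
    else (s.τ i).map (gstep_ex s (gen n.unpair.1)).choose.2.1⟩

noncomputable def gseq : ℕ → GSt
  | 0 => ⟨unitObj, fun _ => emptyTm _⟩
  | n + 1 => gnext n (gseq n)

noncomputable def ghom (n : ℕ) : Hom (gseq n).S (gseq (n + 1)).S :=
  (gstep_ex (gseq n) (gen n.unpair.1)).choose.2.1

theorem gseq_ne {n i : ℕ} (h : i ≠ n) : (gseq (n + 1)).τ i = ((gseq n).τ i).map (ghom n) :=
  if_neg h

theorem gseq_eq (n : ℕ) :
    (gseq (n + 1)).τ n = (gstep_ex (gseq n) (gen n.unpair.1)).choose.2.2 := if_pos rfl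

theorem gseq_le {n m : ℕ} (h : n ≤ m) :
    ∃ f : Hom (gseq n).S (gseq m).S, ∀ i < n, (gseq m).τ i = ((gseq n).τ i).map f := by
  induction h with
  | refl => exact ⟨Hom.id _, fun _ _ => rfl⟩
  | @step m hm ih =>
    obtain ⟨f, hf⟩ := ih
    refine ⟨f.comp (ghom m), fun i hi => ?_⟩
    rw [gseq_ne (by have : n ≤ m := hm; omega), hf i hi]
    rfl

/-- eventually forced. -/
def GT {k : ℕ} (ψ : setL.BoundedFormula Empty k) (idx : Fin k → ℕ) : Prop :=
  ∃ n, (∀ i, idx i < n) ∧ Force ψ (gseq n).S ((gseq n).τ ∘ idx)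

theorem gt_persist {k : ℕ} {ψ : setL.BoundedFormula Empty k} {idx : Fin k → ℕ} {n m : ℕ}
    (h1 : ∀ i, idx i < n) (h2 : Force ψ (gseq n).S ((gseq n).τ ∘ idx)) (h : n ≤ m) :
    Force ψ (gseq m).S ((gseq m).τ ∘ idx) := by
  obtain ⟨f, hf⟩ := gseq_le h
  have : (gseq m).τ ∘ idx = emap ((gseq n).τ ∘ idx) f := funext fun i => hf _ (h1 i)
  rw [this]
  exact h2.map f

theorem gt_task {k : ℕ} (ψ : setL.BoundedFormula Empty k) (idx : Fin k → ℕ) :
    (GT ψ idx ∨ GT (∼ψ) idx) ∧ ∀ φ : setL.BoundedFormula Empty (k + 1), ψ = φ.all →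
      GT ψ idx ∨ ∃ j, GT (∼φ) (Fin.snoc idx j) := by
  obtain ⟨a, ha⟩ := (exists_surjective_nat GTask).choose_spec ⟨k, ψ, idx⟩
  obtain ⟨N, hN⟩ : ∃ N, ∀ i, idx i < N := by
    obtain ⟨N, hN⟩ := (Set.finite_range idx).bddAbove
    exact ⟨N + 1, fun i => Nat.lt_succ_of_le (hN ⟨i, rfl⟩)⟩
  have hn : ∀ i, idx i < Nat.pair a N := fun i => (hN i).trans_le (Nat.right_le_pair a N)
  generalize hn' : Nat.pair a N = n at hn
  have hg : gen n.unpair.1 = ⟨k, ψ, idx⟩ := by rw [← hn', Nat.unpair_pair]; exact ha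
  have key : ∀ t : GTask, gen n.unpair.1 = t → (∀ i, t.2.2 i < n) →
      (GT t.2.1 t.2.2 ∨ GT (∼t.2.1) t.2.2) ∧
      ∀ φ : setL.BoundedFormula Empty (t.1 + 1), t.2.1 = φ.all →
        GT t.2.1 t.2.2 ∨ ∃ j, GT (∼φ) (Fin.snoc t.2.2 j) := by
    rintro t rfl hn
    obtain ⟨h1, h2⟩ := (gstep_ex (gseq n) (gen n.unpair.1)).choose_spec
    have e1 : (gseq (n + 1)).τ ∘ (gen n.unpair.1).2.2 =
        emap ((gseq n).τ ∘ (gen n.unpair.1).2.2) (ghom n) :=
      funext fun i => gseq_ne (hn i).ne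
    have hn1 : ∀ i, (gen n.unpair.1).2.2 i < n + 1 := fun i => (hn i).trans (Nat.lt_succ_self n)
    constructor
    · rcases h1 with h1 | h1
      · exact Or.inl ⟨n + 1, hn1, by rw [e1]; exact h1⟩
      · exact Or.inr ⟨n + 1, hn1, by rw [e1]; exact h1⟩
    · intro φ hφ
      rcases h2 φ hφ with h2 | h2
      · exact Or.inl ⟨n + 1, hn1, by rw [e1]; exact h2⟩
      · refine Or.inr ⟨n, n + 1, fun i => ?_, ?_⟩
        · refine Fin.lastCases ?_ (fun j => ?_) i
          · simp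
          · simpa using hn1 j
        · rw [Fin.comp_snoc, e1, gseq_eq]
          exact h2
  exact key _ hg hn

theorem gt_not {k : ℕ} {ψ : setL.BoundedFormula Empty k} {idx : Fin k → ℕ} (h : GT ψ idx)
    (h' : GT (∼ψ) idx) : False := by
  obtain ⟨n, h1, h2⟩ := h
  obtain ⟨m, h3, h4⟩ := h'
  exact gt_persist h3 h4 (le_max_right n m) _ (Hom.id _) (gt_persist h1 h2 (le_max_left n m))

theorem gt_imp {k : ℕ} {φ ψ : setL.BoundedFormula Empty k} {idx : Fin k → ℕ} :
    GT (φ.imp ψ) idx ↔ (GT φ idx → GT ψ idx) := by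
  constructor
  · rintro ⟨n, h1, h2⟩ ⟨m, h3, h4⟩
    exact ⟨max n m, fun i => (h1 i).trans_le (le_max_left n m),
      gt_persist h1 h2 (le_max_left n m) _ (Hom.id _) (gt_persist h3 h4 (le_max_right n m))⟩
  · intro h
    rcases (gt_task φ idx).1 with h1 | ⟨n, h1, h2⟩
    · obtain ⟨n, h2, h3⟩ := h h1
      exact ⟨n, h2, fun R f _ => h3.map f⟩
    · exact ⟨n, h1, fun R f h3 => (h2 R f h3).elim⟩

theorem gt_all {k : ℕ} {φ : setL.BoundedFormula Empty (k + 1)} {idx : Fin k → ℕ} :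
    GT φ.all idx ↔ ∀ j, GT φ (Fin.snoc idx j) := by
  constructor
  · rintro ⟨n, h1, h2⟩ j
    refine ⟨max n (j + 1), fun i => ?_, ?_⟩
    · refine Fin.lastCases ?_ (fun i => ?_) i
      · simp
      · simpa using Or.inl (h1 i)
    · rw [Fin.comp_snoc]
      exact gt_persist h1 h2 (le_max_left n (j + 1)) _ (Hom.id _) _
  · intro h
    rcases (gt_task φ.all idx).2 φ rfl with h1 | ⟨j, h1⟩
    · exact h1
    · exact (gt_not (h j) h1).elim

def GE (i j : ℕ) : Prop := ∃ n, i < n ∧ j < n ∧ TEq ((gseq n).τ i) ((gseq n).τ j)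
def GM (i j : ℕ) : Prop := ∃ n, i < n ∧ j < n ∧ TMem ((gseq n).τ i) ((gseq n).τ j)

theorem ge_persist {i j n m : ℕ} (h1 : i < n) (h2 : j < n)
    (h : TEq ((gseq n).τ i) ((gseq n).τ j)) (hm : n ≤ m) : TEq ((gseq m).τ i) ((gseq m).τ j) := by
  obtain ⟨f, hf⟩ := gseq_le hm
  rw [hf i h1, hf j h2]
  exact h.map f

theorem gm_persist {i j n m : ℕ} (h1 : i < n) (h2 : j < n)
    (h : TMem ((gseq n).τ i) ((gseq n).τ j)) (hm : n ≤ m) : TMem ((gseq m).τ i) ((gseq m).τ j) := by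
  obtain ⟨f, hf⟩ := gseq_le hm
  rw [hf i h1, hf j h2]
  exact h.map f

def gSetoid : Setoid ℕ where
  r := GE
  iseqv :=
    ⟨fun i => ⟨i + 1, Nat.lt_succ_self i, Nat.lt_succ_self i, TEq.refl _⟩,
      fun ⟨n, h1, h2, h3⟩ => ⟨n, h2, h1, h3.symm⟩,
      fun ⟨n, h1, h2, h3⟩ ⟨m, h4, h5, h6⟩ => ⟨max n m, by omega, by omega,
        (ge_persist h1 h2 h3 (le_max_left n m)).trans (ge_persist h4 h5 h6 (le_max_right n m))⟩⟩

theorem gm_congr {i j i' j' : ℕ} (h : GM i j) (hi : GE i i') (hj : GE j j') : GM i' j' := by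
  obtain ⟨n, h1, h2, h3⟩ := h
  obtain ⟨m, h4, h5, h6⟩ := hi
  obtain ⟨l, h7, h8, h9⟩ := hj
  exact ⟨n + m + l, by omega, by omega, ((gm_persist h1 h2 h3 (by omega)).congr_left
    (ge_persist h4 h5 h6 (by omega))).congr_right (ge_persist h7 h8 h9 (by omega))⟩

def GMod : Type := Quotient gSetoid

def gmk (i : ℕ) : GMod := Quotient.mk gSetoid i

def gRel : ∀ {l : ℕ}, SetRel l → (Fin l → GMod) → Prop
  | _, SetRel.mem, v => ∃ i j, v 0 = gmk i ∧ v 1 = gmk j ∧ GM i j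

instance : setL.Structure GMod where
  funMap f _ := Empty.elim f
  RelMap r v := gRel r v

instance : Nonempty GMod := ⟨gmk 0⟩

theorem gen_realize_term {k : ℕ} (t : setL.Term (Empty ⊕ Fin k)) (v : Empty → GMod)
    (xs : Fin k → GMod) : t.realize (Sum.elim v xs) = xs (tv t) := by
  cases t with
  | var a =>
    cases a with
    | inl e => exact e.elim
    | inr i => rfl
  | func f _ => exact Empty.elim f

theorem gen_bound {k : ℕ} (idx : Fin k → ℕ) (n : ℕ) : ∃ m, n ≤ m ∧ ∀ i, idx i < m := by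
  obtain ⟨N, hN⟩ := (Set.finite_range idx).bddAbove
  exact ⟨n + N + 1, by omega, fun i => by have := hN ⟨i, rfl⟩; omega⟩

theorem gen_truth {k : ℕ} (ψ : setL.BoundedFormula Empty k) (v : Empty → GMod) (idx : Fin k → ℕ) :
    ψ.Realize v (gmk ∘ idx) ↔ GT ψ idx := by
  induction ψ with
  | falsum => exact ⟨fun h => h.elim, fun ⟨_, _, h⟩ => h⟩
  | equal t₁ t₂ =>
    simp only [BoundedFormula.Realize, gen_realize_term, Function.comp_apply]
    constructor
    · intro h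
      obtain ⟨n, h1, h2, h3⟩ : GE _ _ := Quotient.exact h
      obtain ⟨m, h4, h5⟩ := gen_bound idx n
      exact ⟨m, h5, ge_persist h1 h2 h3 h4⟩
    · rintro ⟨n, h1, h2⟩
      exact Quotient.sound (s := gSetoid) ⟨n, h1 _, h1 _, h2⟩
  | rel r ts =>
    cases r
    simp only [BoundedFormula.Realize, gen_realize_term, Function.comp_apply]
    constructor
    · rintro ⟨i, j, hi, hj, h⟩
      obtain ⟨n, h1, h2, h3⟩ := gm_congr h (Quotient.exact hi.symm) (Quotient.exact hj.symm)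
      obtain ⟨m, h4, h5⟩ := gen_bound idx n
      exact ⟨m, h5, gm_persist h1 h2 h3 h4⟩
    · rintro ⟨n, h1, h2⟩
      exact ⟨_, _, rfl, rfl, n, h1 _, h1 _, h2⟩
  | imp φ ψ ih1 ih2 =>
    rw [gt_imp, ← ih1, ← ih2]
    rfl
  | all φ ih =>
    rw [gt_all]
    simp only [BoundedFormula.Realize]
    constructor
    · intro h j
      rw [← ih, Fin.comp_snoc]
      exact h _
    · intro h x
      obtain ⟨j, rfl⟩ := Quotient.exists_rep x
      have := (ih _).2 (h j)
      rw [Fin.comp_snoc] at this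
      exact this

theorem satisfiable_of_valid (T : setL.Theory) (h : ∀ σ ∈ T, Valid σ) : T.IsSatisfiable := by
  have : T.Model GMod := ⟨fun σ hσ => by
    have h1 := (gen_truth σ default Fin.elim0).2 ⟨0, fun i => i.elim0, by
      have := h σ hσ (gseq 0).S
      convert this⟩
    unfold Sentence.Realize Formula.Realize
    convert h1⟩
  exact Theory.Model.isSatisfiable GMod

end Crest.Agent.R296
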