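import Crest.Agent.R296.GlueA

/-!
# Gluing (amalgamation) of two structures

`q` is glued onto `p` along `L' = ↓d₁ ∪ ↓d₂ ⊆ q` through `η₁` on `↓d₁` and `η₂` on `↓d₂`; the points of
`q \ L'` are new; they are put below exactly the points of `p` in `Y` (`Y = ∅` or `Y = ↑y`).

PLAN.  Carrier `γ := β ⊕ {a : α // ¬ q.le a d₁ ∧ ¬ q.le a d₂}`, `i := Sum.inl`,
`j a := if q.le a d₁ then inl (η₁ a) else if q.le a d₂ then inl (η₂ a) else inr a`
(`η₁ = η₂` on `↓c` by `Emb.share`, so `a ≤ d₂ → j a = inl (η₂ a)` always).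
* order: `inl b ≤ inl b' ↔ b ≤ b'`, `inr a ≤ inr a' ↔ a ≤ a'`, `inr a ≤ inl b ↔ Y b`,
  `inl b ≤ inr a ↔ (∀ M cpt ≥ a, ∃ c' cpt, c' ≤ M, c' ≤ d₁, b ≤ η₁ c') ∨ (same with d₂, η₂)`.
  Useful facts: `Y` is upward closed, closed under glb's of compact points, `Y b ↔ ∀ cpt D ≥ b, Y D`
  (`sep`, `ex_cpt`); (X) `w ≤ η₁ d₁ → w ≤ η₂ d₂ → w ≤ η₁ c` (from `hsplit` at `b = η₁ d₁`);
  (H) for compact `M` of `q`: `inl b ≤ j M ↔ (∃ c' cpt ≤ M, d₁, b ≤ η₁ c') ∨ (∃ c' cpt ≤ M, d₂, b ≤ η₂ c')`;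
  if for every compact `M ≥ a` one of the two alternatives holds then one holds for all `M`
  (take the glb of two counterexamples) - this gives `sep`.
* `cpt (inl b) ↔ p.cpt b`, `cpt (inr a) ↔ q.cpt a`.  glb of `inr a`, `inl b`: `inr a` if `Y b`, otherwise
  (by `hsplit`, say the first alternative) `inl (glb b (η₂ (glb a d₂)))`.
* `germ x s ↔ (∃ b s', p.germ b s' ∧ x = inl b ∧ s = inl ∘ s') ∨ (∃ a s', q.germ a s' ∧ x = j a ∧ s = j ∘ s')`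
  (for `a ≤ dᵢ` the terms `s' n` are eventually `≤ dᵢ`: `germ_cof` + `germ_anti`).
* `lab x y l ↔ (inl-image of p.lab) ∨ (j-image of q.lab) ∨ (¬(x,y ∈ range inl) ∧ ¬(x,y ∈ range j) ∧ x ≤ y ∧ l = φ x)`
  with `φ` from `fresh_labels (labels of p ∪ labels of q) _ γ κ₀`.
* `good`, `clu`: `inl`-images of those of `p` and `j`-images of those of `q`.
  `clu_meet` for a `q`-cluster `(A,S)`, `s ∈ S`, and `D = inl b ≥ j '' A`: if `s ≤ dᵢ` use the `p`-cluster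
  `(ηᵢ '' A, ηᵢ '' S)` (the element found is `ηᵢ s'` with `s' ≤ s ≤ dᵢ`); if `s ∉ L'` and `Y b` take `s` itself;
  otherwise `hsplit b` gives (say) `b ∧ η₁ d₁ ≤ η c`, so `A ≤ d₂`; take `s₁` for `(s, d₂)` in `q`, then `s₂`
  for `(η₂ s₁, b)` in the `p`-cluster.  For a `p`-cluster, `s ∈ S`, `D = inr M`: `¬ Y s` by `hclu`; pick a
  compact `M₀ ≥ s` with `¬ Y M₀`, `hsplit M₀` gives `i` with `A ≤ D' := ηᵢ (glb M dᵢ)`; use `clu_meet` at `D'`,
  and answer with the glb of the `M₁` obtained and `M₀`.  `D = j M`, `q`-cluster: `Emb.isMeet`-like.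
  `clu_ng`: `q`-cluster, `s ∉ L'`, `p`-good pair `(f₀,f')`, `inl f' ≤ inr s`: for one `i`, `f' ≤ ηᵢ(M ∧ dᵢ)` for all
  compact `M ≥ s`; then `A ≤ dᵢ`, take `s₁` for `(s,dᵢ)`; `f' ≤ ηᵢ s₁` by `sep`/`Emb.cof`; contradiction in `p`.
  `p`-cluster and `q`-good pair with `f' ∉ L'`: `Y s`, and (H) at `f₀` contradicts `hclu`.
Splitting into helper lemmas / a helper file `GlueA.lean` is fine.
-/

set_option autoImplicit false

namespace Crest.Agent.R296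

theorem glue {α β : Type} [Countable α] [Countable β] (q : Str α) (p : Str β)
    (η₁ η₂ : α → β) (h₁ : Emb q p η₁) (h₂ : Emb q p η₂) (d₁ d₂ c : α)
    (hd₁ : q.cpt d₁) (hd₂ : q.cpt d₂) (hc₁ : q.le c d₁) (hc₂ : q.le c d₂)
    (hc : ∀ u, q.le u d₁ → q.le u d₂ → q.le u c) (hη : η₁ c = η₂ c)
    (Y : β → Prop) (hY : (∀ b, ¬ Y b) ∨ ∃ y, ∀ b, Y b ↔ p.le y b)
    (hY1 : ∀ b, Y b → p.le (η₁ d₁) b ∧ p.le (η₂ d₂) b)
    (hY2 : ¬ Y (η₁ d₁) ∧ ¬ Y (η₂ d₂))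
    (hsplit : ∀ b, p.cpt b → ¬ Y b →
      (∀ w, p.le w b → p.le w (η₁ d₁) → p.le w (η₁ c)) ∨
      (∀ w, p.le w b → p.le w (η₂ d₂) → p.le w (η₁ c)))
    (hclu : ∀ A S, p.clu A S → ∀ s ∈ S, Y s → ¬ ∀ a ∈ A, p.le a (η₁ d₁) ∨ p.le a (η₂ d₂))
    (κ₀ : Lab) :
    ∃ (γ : Type) (_ : Countable γ) (W : Str γ) (i : β → γ) (j : α → γ),
      Emb p W i ∧ Emb q W j ∧
      (∀ a, q.le a d₁ → j a = i (η₁ a)) ∧ (∀ a, q.le a d₂ → j a = i (η₂ a)) ∧
      (∀ w, (∃ b, w = i b) ∨ ∃ a, ¬ q.le a d₁ ∧ ¬ q.le a d₂ ∧ w = j a) ∧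
      (∀ a b, ¬ q.le a d₁ → ¬ q.le a d₂ → j a ≠ i b ∧ (W.le (j a) (i b) ↔ Y b)) ∧
      (∀ a b, ¬ q.le a d₁ → ¬ q.le a d₂ → W.le (i b) (j a) → p.le b (η₁ d₁) ∨ p.le b (η₂ d₂)) ∧
      (∀ a b l, ¬ q.le a d₁ → ¬ q.le a d₂ → W.lab (j a) (i b) l → kap l = κ₀) := by
  let η : Bool → α → β := fun i => cond i η₁ η₂
  let d : Bool → α := fun i => cond i d₁ d₂
  obtain ⟨φ, φ1, φ2⟩ := fresh_labels ({l | ∃ u t, p.lab u t l} ∪ {l | ∃ u t, q.lab u t l})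
    (p.labels_countable.union q.labels_countable) (β ⊕ {a : α // ∀ i, ¬ q.le a (d i)}) κ₀
  let G : GlueD q p :=
    { η := η
      d := d
      c := c
      Y := Y
      φ := φ
      emb := fun i => by cases i; exacts [h₂, h₁]
      hd := fun i => by cases i; exacts [hd₂, hd₁]
      hcd := fun i => by cases i; exacts [hc₂, hc₁]
      hc := fun u hu => hc u (hu true) (hu false)
      hη := fun i k => by
        cases i <;> cases k
        exacts [rfl, hη.symm, hη, rfl]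
      hY := hY
      hY1 := fun b hb i => by cases i; exacts [(hY1 b hb).2, (hY1 b hb).1]
      hY2 := fun i => by cases i; exacts [hY2.2, hY2.1]
      hsplit := fun b hb hn => by
        rcases hsplit b hb hn with h | h
        · exact ⟨true, h⟩
        · exact ⟨false, fun w h1 h2 => by
            have := h w h1 h2
            rwa [hη] at this⟩
      hclu := fun A S h s hs hy hA => hclu A S h s hs hy fun a ha => by
        obtain ⟨i, hi⟩ := hA a ha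
        cases i
        exacts [Or.inr hi, Or.inl hi]
      φ_inj := φ1
      φ_p := fun z u t h => (φ2 z).1 (Or.inl ⟨u, t, h⟩)
      φ_q := fun z u t h => (φ2 z).1 (Or.inr ⟨u, t, h⟩) }
  have hnew : ∀ a, ¬ q.le a d₁ → ¬ q.le a d₂ → ∀ i, ¬ q.le a (G.d i) := fun a h1 h2 i => by
    cases i; exacts [h2, h1]
  refine ⟨G.γ, inferInstance, G.W, Sum.inl, G.j, G.emb_inl, G.emb_j,
    fun a h => G.j_old (k := true) h, fun a h => G.j_old (k := false) h, ?_, ?_, ?_, ?_⟩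
  · rintro (b | a)
    · exact Or.inl ⟨b, rfl⟩
    · exact Or.inr ⟨a.1, a.2 true, a.2 false, G.inr_eq a⟩
  · intro a b h1 h2
    rw [G.j_new (hnew a h1 h2)]
    exact ⟨Sum.inr_ne_inl, Iff.rfl⟩
  · intro a b _ _ h
    obtain ⟨i, _, hi⟩ := G.le_inl_j.1 h
    cases i
    exacts [Or.inr hi, Or.inl hi]
  · intro a b l h1 h2 h
    rw [G.lab_new (hnew a h1 h2) h]
    exact (φ2 _).2

end Crest.Agent.R296
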