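import Crest.Agent.R296.Str

/-!
# Gluing: the construction (helper file of `Glue.lean`)

The two gluing maps are indexed by `Bool`.  The order between an old point `b` and a point `a` of `q`
is `L b a : ∃ i, b ≤ η i a ∧ b ≤ η i (d i)`.
-/

set_option autoImplicit false

namespace Crest.Agent.R296

/-- forget `good` and `clu` -/
def Str.glueBare {α : Type} (p : Str α) : Str α :=
  { p with
    good := fun _ _ => False
    clu := fun _ _ => False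
    good_spec := fun h => h.elim
    clu_ne := fun h => h.elim
    clu_le := fun h => h.elim
    clu_meet := fun h => h.elim
    clu_ng := fun h => h.elim }

/-- gluing data -/
structure GlueD {α β : Type} (q : Str α) (p : Str β) where
  η : Bool → α → β
  d : Bool → α
  c : α
  Y : β → Prop
  φ : β ⊕ {a : α // ∀ i, ¬ q.le a (d i)} → Lab
  emb : ∀ i, Emb q p (η i)
  hd : ∀ i, q.cpt (d i)
  hcd : ∀ i, q.le c (d i)
  hc : ∀ u, (∀ i, q.le u (d i)) → q.le u c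
  hη : ∀ i k, η i c = η k c
  hY : (∀ b, ¬ Y b) ∨ ∃ y, ∀ b, Y b ↔ p.le y b
  hY1 : ∀ b, Y b → ∀ i, p.le (η i (d i)) b
  hY2 : ∀ i, ¬ Y (η i (d i))
  hsplit : ∀ b, p.cpt b → ¬ Y b → ∃ i, ∀ w, p.le w b → p.le w (η i (d i)) → p.le w (η i c)
  hclu : ∀ A S, p.clu A S → ∀ s ∈ S, Y s → ¬ ∀ a ∈ A, ∃ i, p.le a (η i (d i))
  φ_inj : Function.Injective φ
  φ_p : ∀ z u t, ¬ p.lab u t (φ z)
  φ_q : ∀ z u t, ¬ q.lab u t (φ z)

namespace GlueD
open Sum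

variable {α β : Type} {q : Str α} {p : Str β} (G : GlueD q p)

theorem all_of_ne {P : Bool → Prop} {i k : Bool} (h : i ≠ k) (hi : P i) (hk : P k) : ∀ l, P l := by
  intro l
  cases i <;> cases k <;> cases l <;> first | assumption | exact absurd rfl h

theorem c_cpt : q.cpt G.c := by
  obtain ⟨e, he, h1, h2, h3⟩ := q.glb (G.hd true) (G.hd false)
  rw [q.le_antisymm (h3 _ (G.hcd true) (G.hcd false))
    (G.hc e (all_of_ne (i := true) (k := false) (by simp) h1 h2))]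
  exact he

theorem share {a : α} {i k : Bool} (hi : q.le a (G.d i)) (hk : q.le a (G.d k)) :
    G.η i a = G.η k a := by
  by_cases h : i = k
  · rw [h]
  · exact (G.emb i).share (G.emb k) (G.hη i k)
      (G.hc a (all_of_ne (P := fun l => q.le a (G.d l)) h hi hk))

theorem le_of_cpt {a : α} {b : β} {i : Bool}
    (h : ∀ M, q.cpt M → q.le a M → p.le b (G.η i M)) : p.le b (G.η i a) := by
  refine p.sep fun D hD haD => ?_
  obtain ⟨M, hM, h1, h2⟩ := (G.emb i).cof hD haD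
  exact p.le_trans (h M hM h1) h2

/-- transfer below `η c` -/
theorem tr {a : α} {b : β} {i : Bool} (k : Bool) (h1 : p.le b (G.η i a))
    (h2 : p.le b (G.η i G.c)) : p.le b (G.η k a) := by
  refine G.le_of_cpt fun M hM haM => ?_
  obtain ⟨e, _, h3, h4, h5⟩ :=
    (G.emb i).glb hM G.c_cpt (p.le_trans h1 ((G.emb i).mono haM)) h2
  rw [G.share (q.le_trans h4 (G.hcd i)) (q.le_trans h4 (G.hcd k))] at h5
  exact p.le_trans h5 ((G.emb k).mono h3)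

theorem cross {w : β} {i k : Bool} (h : i ≠ k) (hi : p.le w (G.η i (G.d i)))
    (hk : p.le w (G.η k (G.d k))) : p.le w (G.η i G.c) := by
  obtain ⟨l, hl⟩ := G.hsplit _ ((G.emb i).cpt (G.hd i)) (G.hY2 i)
  rw [G.hη i l]
  exact hl w hi (all_of_ne (P := fun l => p.le w (G.η l (G.d l))) h hi hk l)

theorem swap {a : α} {i k : Bool} (hk : q.le a (G.d k)) (h : p.le (G.η k a) (G.η i (G.d i))) :
    q.le a (G.d i) := by
  by_cases hik : k = i
  · rw [← hik]; exact hk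
  · exact q.le_trans (((G.emb k).le_iff _ _).1 (G.cross hik ((G.emb k).mono hk) h)) (G.hcd i)

theorem Y_mono {b b' : β} (h : G.Y b) (h' : p.le b b') : G.Y b' := by
  rcases G.hY with hY | ⟨y, hY⟩
  · exact absurd h (hY b)
  · exact (hY _).2 (p.le_trans ((hY _).1 h) h')

theorem Y_glb {b b' e : β} (h : G.Y b) (h' : G.Y b')
    (he : ∀ u, p.le u b → p.le u b' → p.le u e) : G.Y e := by
  rcases G.hY with hY | ⟨y, hY⟩
  · exact absurd h (hY b)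
  · exact (hY _).2 (he _ ((hY _).1 h) ((hY _).1 h'))

theorem Y_sep {b : β} (h : ∀ D, p.cpt D → p.le b D → G.Y D) : G.Y b := by
  rcases G.hY with hY | ⟨y, hY⟩
  · obtain ⟨D, h1, h2⟩ := p.ex_cpt b
    exact absurd (h D h1 h2) (hY D)
  · exact (hY _).2 (p.sep fun D h1 h2 => (hY _).1 (h D h1 h2))

theorem not_Y {b : β} {i : Bool} (h : p.le b (G.η i (G.d i))) : ¬ G.Y b :=
  fun hb => G.hY2 i (G.Y_mono hb h)

/-- `b` is below the point `a` of `q` -/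
def L (b : β) (a : α) : Prop := ∃ i, p.le b (G.η i a) ∧ p.le b (G.η i (G.d i))

theorem L_iff {b : β} {a : α} {k : Bool} (hk : q.le a (G.d k)) : G.L b a ↔ p.le b (G.η k a) := by
  constructor
  · rintro ⟨i, h1, h2⟩
    by_cases hik : i = k
    · rw [← hik]; exact h1
    · refine G.tr k h1 ((G.emb i).glb' (G.hd i) (G.hd k) (fun u hi hk' => G.hc u ?_) h2
        (p.le_trans h1 ((G.emb i).mono hk)))
      exact all_of_ne (P := fun l => q.le u (G.d l)) hik hi hk'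
  · exact fun h => ⟨k, h, p.le_trans h ((G.emb k).mono hk)⟩

theorem L_two {w : β} {a a' : α} (h : G.L w a) (h' : G.L w a') :
    ∃ i, p.le w (G.η i a) ∧ p.le w (G.η i a') ∧ p.le w (G.η i (G.d i)) := by
  obtain ⟨i, h1, h2⟩ := h
  obtain ⟨k, h3, h4⟩ := h'
  by_cases hik : i = k
  · subst hik; exact ⟨i, h1, h3, h2⟩
  · exact ⟨k, G.tr k h1 (G.cross hik h2 h4), h3, h4⟩

theorem split {b : β} (hb : p.cpt b) (hY : ¬ G.Y b) :
    ∃ k, ∀ w a, p.le w b → G.L w a → p.le w (G.η k a) ∧ p.le w (G.η k (G.d k)) := by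
  obtain ⟨l, hl⟩ := G.hsplit b hb hY
  refine ⟨!l, fun w a hw ⟨i, h1, h2⟩ => ?_⟩
  by_cases hil : i = l
  · subst hil
    have h3 := hl w hw h2
    refine ⟨G.tr _ h1 h3, ?_⟩
    rw [G.hη i (!i)] at h3
    exact p.le_trans h3 ((G.emb _).mono (G.hcd _))
  · have : i = !l := by cases i <;> cases l <;> simp_all
    subst this
    exact ⟨h1, h2⟩

theorem L_sep {b : β} {a : α} (h : ∀ M, q.cpt M → q.le a M → G.L b M) : G.L b a := by
  by_contra hn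
  have key : ∀ i, ∃ M, q.cpt M ∧ q.le a M ∧
      ¬ (p.le b (G.η i M) ∧ p.le b (G.η i (G.d i))) := by
    intro i
    by_contra hM
    push Not at hM
    obtain ⟨M₀, h1, h2⟩ := q.ex_cpt a
    exact hn ⟨i, G.le_of_cpt fun M h3 h4 => (hM M h3 h4).1, (hM M₀ h1 h2).2⟩
  choose M h1 h2 h3 using key
  obtain ⟨e, he, h4, h5, h6⟩ := q.glb (h1 true) (h1 false)
  obtain ⟨i, h7, h8⟩ := h e he (h6 a (h2 true) (h2 false))
  refine h3 i ⟨p.le_trans h7 ((G.emb i).mono ?_), h8⟩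
  cases i
  · exact h5
  · exact h4

/-- the carrier -/
abbrev γ : Type := β ⊕ {a : α // ∀ i, ¬ q.le a (G.d i)}

open Classical in
/-- the embedding of `q` -/
noncomputable def j (a : α) : G.γ :=
  if h : ∃ i, q.le a (G.d i) then inl (G.η h.choose a) else inr ⟨a, fun i hi => h ⟨i, hi⟩⟩

theorem j_old {a : α} {k : Bool} (hk : q.le a (G.d k)) : G.j a = inl (G.η k a) := by
  have h : ∃ i, q.le a (G.d i) := ⟨k, hk⟩
  rw [j, dif_pos h, G.share h.choose_spec hk]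

theorem j_new {a : α} (h : ∀ i, ¬ q.le a (G.d i)) : G.j a = inr ⟨a, h⟩ := by
  rw [j, dif_neg (fun ⟨i, hi⟩ => h i hi)]

theorem inr_eq (a : {a : α // ∀ i, ¬ q.le a (G.d i)}) : (inr a : G.γ) = G.j a.1 :=
  (G.j_new a.2).symm

theorem old_or_new (a : α) : (∃ k, q.le a (G.d k)) ∨ ∀ i, ¬ q.le a (G.d i) := by
  by_cases h : ∃ k, q.le a (G.d k)
  · exact Or.inl h
  · exact Or.inr fun i hi => h ⟨i, hi⟩

theorem j_eq_inl {a : α} {b : β} (h : G.j a = inl b) : ∃ k, q.le a (G.d k) ∧ b = G.η k a := by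
  rcases G.old_or_new a with ⟨k, hk⟩ | hn
  · rw [G.j_old hk] at h
    exact ⟨k, hk, (inl_injective h).symm⟩
  · rw [G.j_new hn] at h
    cases h

/-- the order -/
def le : G.γ → G.γ → Prop
  | inl b, inl b' => p.le b b'
  | inl b, inr a => G.L b a.1
  | inr _, inl b => G.Y b
  | inr a, inr a' => q.le a.1 a'.1

/-- the compact points -/
def cpt : G.γ → Prop
  | inl b => p.cpt b
  | inr a => q.cpt a.1

theorem le_inl_j {b : β} {a : α} : G.le (inl b) (G.j a) ↔ G.L b a := by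
  rcases G.old_or_new a with ⟨k, hk⟩ | hn
  · rw [G.j_old hk, G.L_iff hk]; rfl
  · rw [G.j_new hn]; rfl

theorem le_j_j {a a' : α} : G.le (G.j a) (G.j a') ↔ q.le a a' := by
  rcases G.old_or_new a with ⟨k, hk⟩ | hn
  · rw [G.j_old hk, G.le_inl_j]
    constructor
    · rintro ⟨i, h1, h2⟩
      rw [G.share hk (G.swap hk h2)] at h1
      exact ((G.emb i).le_iff _ _).1 h1
    · exact fun h => ⟨k, (G.emb k).mono h, (G.emb k).mono hk⟩
  · rw [G.j_new hn]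
    rcases G.old_or_new a' with ⟨k, hk⟩ | hn'
    · rw [G.j_old hk]
      exact ⟨fun h => absurd h (G.not_Y ((G.emb k).mono hk)),
        fun h => absurd (q.le_trans h hk) (hn k)⟩
    · rw [G.j_new hn']; rfl

theorem le_j_of_Y {b : β} (h : G.Y b) (a : α) : G.le (G.j a) (inl b) := by
  rcases G.old_or_new a with ⟨k, hk⟩ | hn
  · rw [G.j_old hk]
    exact p.le_trans ((G.emb k).mono hk) (G.hY1 b h k)
  · rw [G.j_new hn]; exact h

theorem le_j_inl {a : α} {b : β} (h : G.le (G.j a) (inl b)) (hY : ¬ G.Y b) :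
    ∃ k, q.le a (G.d k) ∧ p.le (G.η k a) b := by
  rcases G.old_or_new a with ⟨k, hk⟩ | hn
  · rw [G.j_old hk] at h
    exact ⟨k, hk, h⟩
  · rw [G.j_new hn] at h
    exact absurd h hY

theorem le_inl {u : G.γ} {b : β} (h : G.le u (inl b)) (hY : ¬ G.Y b) :
    ∃ w, u = inl w ∧ p.le w b := by
  rcases u with w | a
  · exact ⟨w, rfl, h⟩
  · exact absurd h hY

theorem cpt_j {a : α} : G.cpt (G.j a) ↔ q.cpt a := by
  rcases G.old_or_new a with ⟨k, hk⟩ | hn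
  · rw [G.j_old hk]
    exact ⟨(G.emb k).cpt_of, (G.emb k).cpt⟩
  · rw [G.j_new hn]; rfl

theorem le_refl' (x : G.γ) : G.le x x := by
  rcases x with b | a
  · exact p.le_refl _
  · exact q.le_refl _

theorem le_trans' {x y z : G.γ} (h : G.le x y) (h' : G.le y z) : G.le x z := by
  rcases x with b | a <;> rcases y with b' | a' <;> rcases z with b'' | a''
  · exact p.le_trans h h'
  · obtain ⟨i, h1, h2⟩ := h'
    exact ⟨i, p.le_trans h h1, p.le_trans h h2⟩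
  · obtain ⟨i, _, h2⟩ := h
    exact p.le_trans h2 (G.hY1 _ h' i)
  · obtain ⟨i, h1, h2⟩ := h
    exact ⟨i, p.le_trans h1 ((G.emb i).mono h'), h2⟩
  · exact G.Y_mono h h'
  · obtain ⟨i, _, h2⟩ := h'
    exact absurd h (G.not_Y h2)
  · exact h'
  · exact q.le_trans h h'

theorem le_antisymm' {x y : G.γ} (h : G.le x y) (h' : G.le y x) : x = y := by
  rcases x with b | a <;> rcases y with b' | a'
  · rw [p.le_antisymm h h']
  · obtain ⟨i, _, h2⟩ := h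
    exact absurd h' (G.not_Y h2)
  · obtain ⟨i, _, h2⟩ := h'
    exact absurd h (G.not_Y h2)
  · rw [Subtype.ext (q.le_antisymm h h')]

theorem j_inj {a a' : α} (h : G.j a = G.j a') : a = a' :=
  q.le_antisymm (G.le_j_j.1 (h ▸ G.le_refl' _)) (G.le_j_j.1 (h ▸ G.le_refl' _))

theorem sep' {u v : G.γ} (h : ∀ D, G.cpt D → G.le v D → G.le u D) : G.le u v := by
  rcases v with b' | a'
  · rcases u with b | a
    · exact p.sep fun D h1 h2 => h (inl D) h1 h2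
    · exact G.Y_sep fun D h1 h2 => h (inl D) h1 h2
  · rw [G.inr_eq] at h ⊢
    rcases u with b | a
    · exact G.le_inl_j.2 (G.L_sep fun M h1 h2 =>
        G.le_inl_j.1 (h (G.j M) (G.cpt_j.2 h1) (G.le_j_j.2 h2)))
    · rw [G.inr_eq] at h ⊢
      exact G.le_j_j.2 (q.sep fun M h1 h2 =>
        G.le_j_j.1 (h (G.j M) (G.cpt_j.2 h1) (G.le_j_j.2 h2)))

theorem glb_inl {b b' e : β} (he : ∀ u, p.le u b → p.le u b' → p.le u e) {w : G.γ}
    (h1 : G.le w (inl b)) (h2 : G.le w (inl b')) : G.le w (inl e) := by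
  rcases w with w | a
  · exact he w h1 h2
  · exact G.Y_glb h1 h2 he

theorem glb_j {a a' e : α} (ha : q.cpt a) (ha' : q.cpt a')
    (he : ∀ u, q.le u a → q.le u a' → q.le u e) {w : G.γ}
    (h1 : G.le w (G.j a)) (h2 : G.le w (G.j a')) : G.le w (G.j e) := by
  rcases w with w | a''
  · obtain ⟨i, h3, h4, h5⟩ := G.L_two (G.le_inl_j.1 h1) (G.le_inl_j.1 h2)
    exact G.le_inl_j.2 ⟨i, (G.emb i).glb' ha ha' he h3 h4, h5⟩
  · rw [G.inr_eq] at h1 h2 ⊢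
    exact G.le_j_j.2 (he _ (G.le_j_j.1 h1) (G.le_j_j.1 h2))

theorem glb_mix {a : {a : α // ∀ i, ¬ q.le a (G.d i)}} {b : β} (ha : q.cpt a.1) (hb : p.cpt b) :
    ∃ e, G.cpt e ∧ G.le e (inr a) ∧ G.le e (inl b) ∧
      ∀ u, G.le u (inr a) → G.le u (inl b) → G.le u e := by
  by_cases hY : G.Y b
  · exact ⟨inr a, ha, G.le_refl' _, hY, fun u h _ => h⟩
  · obtain ⟨k, hk⟩ := G.split hb hY
    obtain ⟨e, he, h1, h2, h3⟩ := q.glb ha (G.hd k)
    obtain ⟨e', he', h4, h5, h6⟩ := p.glb hb ((G.emb k).cpt he)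
    refine ⟨inl e', he', ⟨k, p.le_trans h5 ((G.emb k).mono h1),
      p.le_trans h5 ((G.emb k).mono h2)⟩, h4, fun u h7 h8 => ?_⟩
    obtain ⟨w, rfl, hw⟩ := G.le_inl h8 hY
    obtain ⟨h9, h10⟩ := hk w a.1 hw h7
    exact h6 w hw ((G.emb k).glb' ha (G.hd k) h3 h9 h10)

theorem glb' {x y : G.γ} (hx : G.cpt x) (hy : G.cpt y) :
    ∃ e, G.cpt e ∧ G.le e x ∧ G.le e y ∧ ∀ u, G.le u x → G.le u y → G.le u e := by
  rcases x with b | a <;> rcases y with b' | a'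
  · obtain ⟨e, he, h1, h2, h3⟩ := p.glb hx hy
    exact ⟨inl e, he, h1, h2, fun u h4 h5 => G.glb_inl h3 h4 h5⟩
  · obtain ⟨e, he, h1, h2, h3⟩ := G.glb_mix hy hx
    exact ⟨e, he, h2, h1, fun u h4 h5 => h3 u h5 h4⟩
  · exact G.glb_mix hx hy
  · obtain ⟨e, he, h1, h2, h3⟩ := q.glb hx hy
    rw [G.inr_eq, G.inr_eq]
    exact ⟨G.j e, G.cpt_j.2 he, G.le_j_j.2 h1, G.le_j_j.2 h2,
      fun u h4 h5 => G.glb_j hx hy h3 h4 h5⟩

/-- germs -/
def germ (x : G.γ) (s : ℕ → G.γ) : Prop :=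
  (∃ b s', p.germ b s' ∧ x = inl b ∧ s = inl ∘ s') ∨
    ∃ a s', q.germ a s' ∧ x = G.j a ∧ s = G.j ∘ s'

theorem germ_ev {a : α} {s : ℕ → α} (h : q.germ a s) {k : Bool} (hk : q.le a (G.d k)) :
    ∃ N, ∀ n, N ≤ n → G.j (s n) = inl (G.η k (s n)) := by
  obtain ⟨N, hN⟩ := q.germ_cof h (G.hd k) hk
  exact ⟨N, fun n hn => G.j_old (q.le_trans (q.germ_anti h hn) hN)⟩

theorem germ_mix {b : β} {a : α} {s : ℕ → β} {s' : ℕ → α} (h : p.germ b s) (h' : q.germ a s')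
    (e : G.j a = inl b) : ∃ N, ∀ n, N ≤ n → (inl (s n) : G.γ) = G.j (s' n) := by
  obtain ⟨k, hk, rfl⟩ := G.j_eq_inl e
  obtain ⟨N, hN⟩ := G.germ_ev h' hk
  obtain ⟨N', hN'⟩ := p.germ_uniq h ((G.emb k).germ h')
  refine ⟨max N N', fun n hn => ?_⟩
  rw [hN n (le_of_max_le_left hn), hN' n (le_of_max_le_right hn)]
  rfl

theorem germ_uniq' {u : G.γ} {s s' : ℕ → G.γ} (h : G.germ u s) (h' : G.germ u s') :
    ∃ N, ∀ n, N ≤ n → s n = s' n := by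
  rcases h with ⟨b, t, h1, h2, rfl⟩ | ⟨a, t, h1, h2, rfl⟩ <;>
    rcases h' with ⟨b', t', h3, h4, rfl⟩ | ⟨a', t', h3, h4, rfl⟩
  · obtain rfl : b = b' := inl_injective (h2.symm.trans h4)
    obtain ⟨N, hN⟩ := p.germ_uniq h1 h3
    exact ⟨N, fun n hn => congrArg inl (hN n hn)⟩
  · exact G.germ_mix h1 h3 (h4.symm.trans h2)
  · obtain ⟨N, hN⟩ := G.germ_mix h3 h1 (h2.symm.trans h4)
    exact ⟨N, fun n hn => (hN n hn).symm⟩
  · obtain rfl : a = a' := G.j_inj (h2.symm.trans h4)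
    obtain ⟨N, hN⟩ := q.germ_uniq h1 h3
    exact ⟨N, fun n hn => congrArg G.j (hN n hn)⟩

theorem germ_cof' {u : G.γ} {s : ℕ → G.γ} {D : G.γ} (h : G.germ u s) (hD : G.cpt D)
    (hu : G.le u D) : ∃ n, G.le (s n) D := by
  rcases h with ⟨b, t, h1, rfl, rfl⟩ | ⟨a, t, h1, rfl, rfl⟩ <;> rcases D with D | M
  · exact p.germ_cof h1 hD hu
  · obtain ⟨i, h2, h3⟩ := hu
    obtain ⟨n, hn⟩ := p.germ_cof h1 ((G.emb i).cpt hD) h2
    obtain ⟨n', hn'⟩ := p.germ_cof h1 ((G.emb i).cpt (G.hd i)) h3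
    exact ⟨max n n', i, p.le_trans (p.germ_anti h1 (le_max_left _ _)) hn,
      p.le_trans (p.germ_anti h1 (le_max_right _ _)) hn'⟩
  · by_cases hY : G.Y D
    · exact ⟨0, G.le_j_of_Y hY _⟩
    · obtain ⟨k, hk, h2⟩ := G.le_j_inl hu hY
      obtain ⟨N, hN⟩ := G.germ_ev h1 hk
      obtain ⟨n, hn⟩ := p.germ_cof ((G.emb k).germ h1) hD h2
      refine ⟨max N n, ?_⟩
      show G.le (G.j (t (max N n))) (inl D)
      rw [hN _ (le_max_left _ _)]
      exact p.le_trans ((G.emb k).mono (q.germ_anti h1 (le_max_right _ _))) hn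
  · rw [G.inr_eq] at hu ⊢
    obtain ⟨n, hn⟩ := q.germ_cof h1 hD (G.le_j_j.1 hu)
    exact ⟨n, G.le_j_j.2 hn⟩

/-- labels -/
def lab (x y : G.γ) (l : Lab) : Prop :=
  (∃ u t, p.lab u t l ∧ x = inl u ∧ y = inl t) ∨
    (∃ u t, q.lab u t l ∧ x = G.j u ∧ y = G.j t) ∨
    (¬ (∃ u t, x = inl u ∧ y = inl t) ∧ ¬ (∃ u t, x = G.j u ∧ y = G.j t) ∧ G.le x y ∧ l = G.φ x)

theorem lab_mix {u t : α} {l : Lab} (h : q.lab u t l) {t' : β} (e : G.j t = inl t') :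
    ∃ u', G.j u = inl u' ∧ p.lab u' t' l := by
  obtain ⟨k, hk, rfl⟩ := G.j_eq_inl e
  exact ⟨G.η k u, G.j_old (q.le_trans (q.lab_le h) hk), (G.emb k).lab h⟩

theorem lab_fun' {x y : G.γ} {l l' : Lab} (h : G.lab x y l) (h' : G.lab x y l') : l = l' := by
  rcases h with ⟨u, t, h1, h2, h3⟩ | ⟨u, t, h1, h2, h3⟩ | ⟨h1, h2, h3, h4⟩ <;>
    rcases h' with ⟨u', t', k1, k2, k3⟩ | ⟨u', t', k1, k2, k3⟩ | ⟨k1, k2, k3, k4⟩
  · obtain rfl : u = u' := inl_injective (h2.symm.trans k2)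
    obtain rfl : t = t' := inl_injective (h3.symm.trans k3)
    exact p.lab_fun h1 k1
  · obtain ⟨u'', e, h4⟩ := G.lab_mix k1 (k3.symm.trans h3)
    obtain rfl : u = u'' := inl_injective (h2.symm.trans (k2.trans e))
    exact p.lab_fun h1 h4
  · exact absurd ⟨u, t, h2, h3⟩ k1
  · obtain ⟨u'', e, h4⟩ := G.lab_mix h1 (h3.symm.trans k3)
    obtain rfl : u' = u'' := inl_injective (k2.symm.trans (h2.trans e))
    exact p.lab_fun h4 k1
  · obtain rfl : u = u' := G.j_inj (h2.symm.trans k2)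
    obtain rfl : t = t' := G.j_inj (h3.symm.trans k3)
    exact q.lab_fun h1 k1
  · exact absurd ⟨u, t, h2, h3⟩ k2
  · exact absurd ⟨u', t', k2, k3⟩ h1
  · exact absurd ⟨u', t', k2, k3⟩ h2
  · exact h4.trans k4.symm

theorem lab_inj' {x x' y : G.γ} {l : Lab} (h : G.lab x y l) (h' : G.lab x' y l) : x = x' := by
  rcases h with ⟨u, t, h1, h2, h3⟩ | ⟨u, t, h1, h2, h3⟩ | ⟨h1, h2, h3, h4⟩ <;>
    rcases h' with ⟨u', t', k1, k2, k3⟩ | ⟨u', t', k1, k2, k3⟩ | ⟨k1, k2, k3, k4⟩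
  · obtain rfl : t = t' := inl_injective (h3.symm.trans k3)
    rw [h2, k2, p.lab_inj h1 k1]
  · obtain ⟨u'', e, h4⟩ := G.lab_mix k1 (k3.symm.trans h3)
    rw [h2, k2, e, p.lab_inj h1 h4]
  · exact absurd (k4 ▸ h1) (G.φ_p _ _ _)
  · obtain ⟨u'', e, h4⟩ := G.lab_mix h1 (h3.symm.trans k3)
    rw [h2, k2, e, p.lab_inj h4 k1]
  · obtain rfl : t = t' := G.j_inj (h3.symm.trans k3)
    rw [h2, k2, q.lab_inj h1 k1]
  · exact absurd (k4 ▸ h1) (G.φ_q _ _ _)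
  · exact absurd (h4 ▸ k1) (G.φ_p _ _ _)
  · exact absurd (h4 ▸ k1) (G.φ_q _ _ _)
  · exact G.φ_inj (h4.symm.trans k4)

/-- the glued structure without `good` and `clu` -/
def W₀ : Str G.γ where
  le := G.le
  cpt := G.cpt
  germ := G.germ
  lab := G.lab
  good := fun _ _ => False
  clu := fun _ _ => False
  le_refl := G.le_refl'
  le_trans := G.le_trans'
  le_antisymm := G.le_antisymm'
  sep := G.sep'
  glb := G.glb'
  germ_ex := by
    rintro (b | a)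
    · obtain ⟨s, hs⟩ := p.germ_ex b
      exact ⟨_, Or.inl ⟨b, s, hs, rfl, rfl⟩⟩
    · obtain ⟨s, hs⟩ := q.germ_ex a.1
      exact ⟨_, Or.inr ⟨a.1, s, hs, G.inr_eq a, rfl⟩⟩
  germ_uniq := G.germ_uniq'
  germ_cpt := by
    rintro u s (⟨b, t, h1, rfl, rfl⟩ | ⟨a, t, h1, rfl, rfl⟩) n
    · exact p.germ_cpt h1 n
    · obtain ⟨h2, h3, h4⟩ := q.germ_cpt h1 n
      exact ⟨G.cpt_j.2 h2, G.le_j_j.2 h3, G.le_j_j.2 h4⟩
  germ_cof := G.germ_cof'
  lab_ex := by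
    intro x y h
    by_cases h1 : ∃ u t, x = inl u ∧ y = inl t
    · obtain ⟨u, t, rfl, rfl⟩ := h1
      obtain ⟨l, hl⟩ := p.lab_ex (u := u) (t := t) h
      exact ⟨l, Or.inl ⟨u, t, hl, rfl, rfl⟩⟩
    by_cases h2 : ∃ u t, x = G.j u ∧ y = G.j t
    · obtain ⟨u, t, rfl, rfl⟩ := h2
      obtain ⟨l, hl⟩ := q.lab_ex (G.le_j_j.1 h)
      exact ⟨l, Or.inr (Or.inl ⟨u, t, hl, rfl, rfl⟩)⟩
    · exact ⟨_, Or.inr (Or.inr ⟨h1, h2, h, rfl⟩)⟩
  lab_le := by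
    rintro x y l (⟨u, t, h1, rfl, rfl⟩ | ⟨u, t, h1, rfl, rfl⟩ | ⟨_, _, h3, _⟩)
    · exact p.lab_le h1
    · exact G.le_j_j.2 (q.lab_le h1)
    · exact h3
  lab_fun := G.lab_fun'
  lab_inj := G.lab_inj'
  good_spec := fun h => h.elim
  clu_ne := fun h => h.elim
  clu_le := fun h => h.elim
  clu_meet := fun h => h.elim
  clu_ng := fun h => h.elim

theorem emb_inl₀ : Emb p.glueBare G.W₀ inl where
  le_iff _ _ := Iff.rfl
  cpt h := h
  glb ha hb h1 h2 := by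
    obtain ⟨e, he, h3, h4, h5⟩ := p.glb ha hb
    exact ⟨e, he, h3, h4, G.glb_inl h5 h1 h2⟩
  germ h := Or.inl ⟨_, _, h, rfl, rfl⟩
  lab h := Or.inl ⟨_, _, h, rfl, rfl⟩
  good h := h.elim
  clu h := h.elim

theorem emb_j₀ : Emb q.glueBare G.W₀ G.j where
  le_iff _ _ := G.le_j_j
  cpt h := G.cpt_j.2 h
  glb ha hb h1 h2 := by
    obtain ⟨e, he, h3, h4, h5⟩ := q.glb ha hb
    exact ⟨e, he, h3, h4, G.glb_j ha hb h5 h1 h2⟩
  germ h := Or.inr ⟨_, _, h, rfl, rfl⟩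
  lab h := Or.inr (Or.inl ⟨_, _, h, rfl, rfl⟩)
  good h := h.elim
  clu h := h.elim

theorem meet_inl {s d c : β} (hd : p.cpt d)
    (h : ∀ N, p.cpt N → p.le s N → ∃ M, p.cpt M ∧ p.le c M ∧ ∀ u, p.le u d → p.le u M → p.le u N) :
    ∀ N, G.cpt N → G.le (inl s) N →
      ∃ M, G.cpt M ∧ G.le (inl c) M ∧ ∀ u, G.le u (inl d) → G.le u M → G.le u N :=
  G.emb_inl₀.isMeet (s := s) (d := d) (c := c) hd h

theorem meet_j {s d c : α} (hd : q.cpt d)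
    (h : ∀ N, q.cpt N → q.le s N → ∃ M, q.cpt M ∧ q.le c M ∧ ∀ u, q.le u d → q.le u M → q.le u N) :
    ∀ N, G.cpt N → G.le (G.j s) N →
      ∃ M, G.cpt M ∧ G.le (G.j c) M ∧ ∀ u, G.le u (G.j d) → G.le u M → G.le u N :=
  G.emb_j₀.isMeet (s := s) (d := d) (c := c) hd h

/-- good pairs -/
def good (x y : G.γ) : Prop :=
  (∃ e e', p.good e e' ∧ x = inl e ∧ y = inl e') ∨ ∃ e e', q.good e e' ∧ x = G.j e ∧ y = G.j e'

/-- clusters -/
def clu (A S : Set G.γ) : Prop :=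
  (∃ A' S', p.clu A' S' ∧ A = inl '' A' ∧ S = inl '' S') ∨
    ∃ A' S', q.clu A' S' ∧ A = G.j '' A' ∧ S = G.j '' S'

theorem meet_p {A S : Set β} (h : p.clu A S) {s : β} (hs : s ∈ S) {D : G.γ} (hD : G.cpt D)
    (hA : ∀ a ∈ A, G.le (inl a) D) :
    ∃ s' ∈ S, G.le (inl s') D ∧ p.le s' s ∧ ∀ N, G.cpt N → G.le (inl s') N →
      ∃ M, G.cpt M ∧ G.le (inl s) M ∧ ∀ u, G.le u D → G.le u M → G.le u N := by
  rcases D with b | M
  · obtain ⟨s', h1, h2, h3, h4⟩ := p.clu_meet h s hs b hD hA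
    exact ⟨s', h1, h2, h3, G.meet_inl hD h4⟩
  · have hY : ¬ G.Y s := fun hY => G.hclu A S h s hs hY fun a ha => by
      obtain ⟨i, _, h2⟩ := hA a ha
      exact ⟨i, h2⟩
    obtain ⟨M₀, hM₀, hsM₀, hY₀⟩ : ∃ M₀, p.cpt M₀ ∧ p.le s M₀ ∧ ¬ G.Y M₀ := by
      by_contra hn
      push Not at hn
      exact hY (G.Y_sep hn)
    obtain ⟨k, hk⟩ := G.split hM₀ hY₀
    obtain ⟨e, he, e1, e2, e3⟩ := q.glb hD (G.hd k)
    have key : ∀ w, p.le w M₀ → G.L w M.1 → p.le w (G.η k e) := fun w h1 h2 =>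
      (G.emb k).glb' hD (G.hd k) e3 (hk w _ h1 h2).1 (hk w _ h1 h2).2
    obtain ⟨s', h1, h2, h3, h4⟩ := p.clu_meet h s hs (G.η k e) ((G.emb k).cpt he) fun a ha =>
      key a (p.le_trans (p.clu_le h a ha s hs) hsM₀) (hA a ha)
    refine ⟨s', h1, ⟨k, p.le_trans h2 ((G.emb k).mono e1), p.le_trans h2 ((G.emb k).mono e2)⟩,
      h3, fun N hN hsN => ?_⟩
    obtain ⟨M₁, m1, m2, m3⟩ := G.meet_inl ((G.emb k).cpt he) h4 N hN hsN
    obtain ⟨M₂, n1, n2, n3, n4⟩ := G.glb' (x := M₁) (y := inl M₀) m1 hM₀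
    refine ⟨M₂, n1, n4 _ m2 hsM₀, fun u hu hu' => ?_⟩
    obtain ⟨w, rfl, hw⟩ := G.le_inl (G.le_trans' hu' n3) hY₀
    exact m3 _ (key w hw hu) (G.le_trans' hu' n2)

theorem meet_q {A S : Set α} (h : q.clu A S) {s : α} (hs : s ∈ S) {D : G.γ} (hD : G.cpt D)
    (hA : ∀ a ∈ A, G.le (G.j a) D) :
    ∃ s' ∈ S, G.le (G.j s') D ∧ q.le s' s ∧ ∀ N, G.cpt N → G.le (G.j s') N →
      ∃ M, G.cpt M ∧ G.le (G.j s) M ∧ ∀ u, G.le u D → G.le u M → G.le u N := by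
  rcases D with b | M
  · by_cases hY : G.Y b
    · exact ⟨s, hs, G.le_j_of_Y hY _, q.le_refl _,
        fun N hN hsN => ⟨N, hN, hsN, fun _ _ h => h⟩⟩
    obtain ⟨k, hk⟩ := G.split hD hY
    have hA' : ∀ a ∈ A, q.le a (G.d k) ∧ p.le (G.η k a) b := by
      intro a ha
      obtain ⟨i, hi, h1⟩ := G.le_j_inl (hA a ha) hY
      have h2 := G.swap hi (hk _ a h1 ⟨i, p.le_refl _, (G.emb i).mono hi⟩).2
      exact ⟨h2, G.share hi h2 ▸ h1⟩
    obtain ⟨s₁, h1, h2, h3, h4⟩ := q.clu_meet h s hs (G.d k) (G.hd k) fun a ha => (hA' a ha).1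
    obtain ⟨_, ⟨s₂, h5, rfl⟩, h6, h7, h8⟩ := p.clu_meet ((G.emb k).clu h) (G.η k s₁)
      (Set.mem_image_of_mem _ h1) b hD (by
        rintro _ ⟨a, ha, rfl⟩
        exact (hA' a ha).2)
    have h9 : q.le s₂ s₁ := ((G.emb k).le_iff _ _).1 h7
    have e₂ : G.j s₂ = inl (G.η k s₂) := G.j_old (q.le_trans h9 h2)
    refine ⟨s₂, h5, by rw [e₂]; exact h6, q.le_trans h9 h3, fun N hN hsN => ?_⟩
    rw [e₂] at hsN
    obtain ⟨M₁, m1, m2, m3⟩ := G.meet_inl hD h8 N hN hsN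
    rw [← G.j_old h2] at m2
    obtain ⟨M₂, n1, n2, n3⟩ := G.meet_j (G.hd k) h4 M₁ m1 m2
    obtain ⟨M₃, o1, o2⟩ := q.ex_cpt s
    obtain ⟨M₄, r1, r2, r3, r4⟩ := G.glb' n1 (G.cpt_j.2 o1)
    refine ⟨M₄, r1, r4 _ n2 (G.le_j_j.2 o2), fun u hu hu' => ?_⟩
    refine m3 u hu (n3 u ?_ (G.le_trans' hu' r2))
    obtain ⟨w, rfl, hw⟩ := G.le_inl hu hY
    rw [G.j_old (q.le_refl _)]
    exact (hk w M₃ hw (G.le_inl_j.1 (G.le_trans' hu' r3))).2
  · rw [G.inr_eq] at hA ⊢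
    obtain ⟨s', h1, h2, h3, h4⟩ := q.clu_meet h s hs M.1 hD fun a ha => G.le_j_j.1 (hA a ha)
    exact ⟨s', h1, G.le_j_j.2 h2, h3, G.meet_j hD h4⟩

theorem clu_ng' {A S : Set G.γ} (h : G.clu A S) (x : G.γ) (hx : x ∈ S) (e e' : G.γ)
    (hg : G.good e e') (hA : ∀ a ∈ A, G.le a e) : ¬ G.le e' x := by
  rcases h with ⟨A, S, h, rfl, rfl⟩ | ⟨A, S, h, rfl, rfl⟩ <;> obtain ⟨s, hs, rfl⟩ := hx <;>
    rcases hg with ⟨f, f', hf, rfl, rfl⟩ | ⟨f, f', hf, rfl, rfl⟩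
  · exact p.clu_ng h s hs f f' hf fun a ha => hA _ (Set.mem_image_of_mem _ ha)
  · intro hle
    by_cases hY : G.Y s
    · refine G.hclu A S h s hs hY fun a ha => ?_
      obtain ⟨i, _, h2⟩ := G.le_inl_j.1 (hA _ (Set.mem_image_of_mem _ ha))
      exact ⟨i, h2⟩
    · obtain ⟨k, hk, h1⟩ := G.le_j_inl hle hY
      refine p.clu_ng h s hs _ _ ((G.emb k).good hf) (fun a ha => ?_) h1
      exact (G.L_iff (q.le_trans (q.good_spec hf).2.2.1 hk)).1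
        (G.le_inl_j.1 (hA _ (Set.mem_image_of_mem _ ha)))
  · intro hle
    obtain ⟨i, h1, h2⟩ := G.le_inl_j.1 hle
    have h3 : p.le f (G.η i (G.d i)) := p.le_trans (p.good_spec hf).2.2.1 h2
    refine p.clu_ng ((G.emb i).clu h) _ (Set.mem_image_of_mem _ hs) f f' hf ?_ h1
    rintro _ ⟨a, ha, rfl⟩
    obtain ⟨k, hk, h4⟩ := G.le_j_inl (hA _ (Set.mem_image_of_mem _ ha)) (G.not_Y h3)
    rw [← G.share hk (G.swap hk (p.le_trans h4 h3))]
    exact h4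
  · intro hle
    exact q.clu_ng h s hs f f' hf (fun a ha => G.le_j_j.1 (hA _ (Set.mem_image_of_mem _ ha)))
      (G.le_j_j.1 hle)

/-- the glued structure -/
def W : Str G.γ :=
  { G.W₀ with
    good := G.good
    clu := G.clu
    good_spec := by
      rintro x y (⟨e, e', h, rfl, rfl⟩ | ⟨e, e', h, rfl, rfl⟩)
      · exact p.good_spec h
      · obtain ⟨h1, h2, h3, h4⟩ := q.good_spec h
        exact ⟨G.cpt_j.2 h1, G.cpt_j.2 h2, G.le_j_j.2 h3, fun h5 => h4 (G.le_j_j.1 h5)⟩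
    clu_ne := by
      rintro A S (⟨A, S, h, rfl, rfl⟩ | ⟨A, S, h, rfl, rfl⟩)
      · exact (p.clu_ne h).image _
      · exact (q.clu_ne h).image _
    clu_le := by
      rintro A S (⟨A, S, h, rfl, rfl⟩ | ⟨A, S, h, rfl, rfl⟩) _ ⟨a, ha, rfl⟩ _ ⟨s, hs, rfl⟩
      · exact p.clu_le h a ha s hs
      · exact G.le_j_j.2 (q.clu_le h a ha s hs)
    clu_meet := by
      rintro A S (⟨A, S, h, rfl, rfl⟩ | ⟨A, S, h, rfl, rfl⟩) _ ⟨s, hs, rfl⟩ D hD hA
      · obtain ⟨s', h1, h2, h3, h4⟩ := G.meet_p h hs hD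
          fun a ha => hA _ (Set.mem_image_of_mem _ ha)
        exact ⟨_, Set.mem_image_of_mem _ h1, h2, h3, h4⟩
      · obtain ⟨s', h1, h2, h3, h4⟩ := G.meet_q h hs hD
          fun a ha => hA _ (Set.mem_image_of_mem _ ha)
        exact ⟨_, Set.mem_image_of_mem _ h1, h2, G.le_j_j.2 h3, h4⟩
    clu_ng := fun h => G.clu_ng' h }

theorem emb_inl : Emb p G.W inl where
  le_iff := G.emb_inl₀.le_iff
  cpt := G.emb_inl₀.cpt
  glb := G.emb_inl₀.glb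
  germ := G.emb_inl₀.germ
  lab := G.emb_inl₀.lab
  good h := Or.inl ⟨_, _, h, rfl, rfl⟩
  clu h := Or.inl ⟨_, _, h, rfl, rfl⟩

theorem emb_j : Emb q G.W G.j where
  le_iff := G.emb_j₀.le_iff
  cpt := G.emb_j₀.cpt
  glb := G.emb_j₀.glb
  germ := G.emb_j₀.germ
  lab := G.emb_j₀.lab
  good h := Or.inr ⟨_, _, h, rfl, rfl⟩
  clu h := Or.inr ⟨_, _, h, rfl, rfl⟩

theorem lab_new {a : α} (ha : ∀ i, ¬ q.le a (G.d i)) {b : β} {l : Lab}
    (h : G.lab (G.j a) (inl b) l) : l = G.φ (G.j a) := by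
  rcases h with ⟨u, t, _, h2, _⟩ | ⟨u, t, h1, h2, h3⟩ | ⟨_, _, _, h4⟩
  · rw [G.j_new ha] at h2
    cases h2
  · obtain ⟨u', e, _⟩ := G.lab_mix h1 h3.symm
    rw [e, G.j_new ha] at h2
    cases h2
  · exact h4

end GlueD

end Crest.Agent.R296
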