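import Crest.Agent.R296.Chk
import Crest.Agent.R296.Iface

/-!
# The axiom of choice fails

PLAN.  Fix an injection `code : Lab × Lab → Ordinal.{1}` (e.g. `Ordinal.typein WellOrderingRel` on `ULift (Lab × Lab)`) and `β₀ : Lab`.
Global names:
* `Gn := .mk {(B, a, w₁, w₂, β₁, β₂) | w₁ ≤ w₂, lab w₁ a β₁, lab w₂ a β₂} B a a (chk (code (β₁, β₂)))`;
* `Xn := .mk {(B, a, d) | a ≤ d, ¬ d ≤ a, lab a d β₀} B a d Gn`;   `Fn := .mk (Σ B, B.α × B.α) B a d Xn`.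
`teq_G : TEq ⟨Gn, v⟩ ⟨Gn, v'⟩ → v = v'` by `dist` (in the extension `chk (code (β₁,β₂)) ∈ (Gn, v)`; a matching child of `(Gn, v')`
gives `w₁' ≤ w₂'` with labels `β₁, β₂` below `v'`, so `w₁' = w₂`, `w₂' = w₁` by `lab_inj`).
Suppose `R` forces `acAx`; instantiate at `⟨Fn, R.top⟩`.  Members are densely `⟨Xn, u⟩`, nonempty by `add_top`
(`good_spec`, `le_top`); two members sharing an element are equal (`teq_G`, `lab_inj`).  Get `c` at `R₁`; apply to the member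
`⟨Xn, R₁.top⟩`, get `w = ⟨Gn, v⟩` at `f : R₁ → R₂` with `¬ v ≤ u := f top`; `self_amalg` gives `h h'` with `h u = h' u`, `h v ≠ h' v`;
`f.comp h = f.comp h'` (`Hom.ext_top`), so `w.map h'` is in the member and in `c`, hence equal to `w.map h`: contradiction.
-/

set_option autoImplicit false

namespace Crest.Agent.R296

open FirstOrder FirstOrder.Language Crest.LogicCS.SetTheory

namespace NotAC

theorem exists_code : ∃ code : Lab × Lab → Ordinal.{1}, Function.Injective code :=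
  ⟨fun p => Ordinal.typein (α := ULift.{1} (Lab × Lab)) WellOrderingRel (ULift.up p),
    fun _ _ h => congrArg ULift.down (Ordinal.typein_injective _ h)⟩

noncomputable def code : Lab × Lab → Ordinal.{1} := exists_code.choose

theorem code_inj : Function.Injective code := exists_code.choose_spec

def b0 : Lab := fun _ => true

noncomputable def Gn : Name :=
  .mk (Σ B : Obj, {t : B.α × B.α × B.α × Lab × Lab //
      B.str.le t.2.1 t.2.2.1 ∧ B.str.lab t.2.1 t.1 t.2.2.2.1 ∧ B.str.lab t.2.2.1 t.1 t.2.2.2.2})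
    (fun i => i.1) (fun i => i.2.1.1) (fun i => i.2.1.1) fun i => chk (code i.2.1.2.2.2)

noncomputable def Xn : Name :=
  .mk (Σ B : Obj, {t : B.α × B.α // B.str.le t.1 t.2 ∧ ¬ B.str.le t.2 t.1 ∧ B.str.lab t.1 t.2 b0})
    (fun i => i.1) (fun i => i.2.1.1) (fun i => i.2.1.2) fun _ => Gn

noncomputable def Fn : Name :=
  .mk (Σ B : Obj, B.α × B.α) (fun i => i.1) (fun i => i.2.1) (fun i => i.2.2) fun _ => Xn

variable {S : Obj}

theorem act_G {v : S.α} {z : Tm S} : Act ⟨Gn, v⟩ z ↔ ∃ w₁ w₂ β₁ β₂, S.str.le w₁ w₂ ∧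
    S.str.lab w₁ v β₁ ∧ S.str.lab w₂ v β₂ ∧ z = ⟨chk (code (β₁, β₂)), v⟩ := by
  constructor
  · rintro ⟨⟨B, ⟨a, w₁, w₂, β₁, β₂⟩, h1, h2, h3⟩, k, hk, rfl⟩
    have hk' : k a = v := hk
    exact ⟨k w₁, k w₂, β₁, β₂, k.emb.mono h1, hk' ▸ k.emb.lab h2, hk' ▸ k.emb.lab h3,
      congrArg (Tm.mk _) hk'⟩
  · rintro ⟨w₁, w₂, β₁, β₂, h1, h2, h3, rfl⟩
    exact ⟨⟨S, (v, w₁, w₂, β₁, β₂), h1, h2, h3⟩, Hom.id S, rfl, rfl⟩

theorem act_X {u : S.α} {z : Tm S} : Act ⟨Xn, u⟩ z ↔ ∃ d, S.str.le u d ∧ ¬ S.str.le d u ∧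
    S.str.lab u d b0 ∧ z = ⟨Gn, d⟩ := by
  constructor
  · rintro ⟨⟨B, ⟨a, d⟩, h1, h2, h3⟩, k, hk, rfl⟩
    have hk' : k a = u := hk
    exact ⟨k d, hk' ▸ k.emb.mono h1, fun h => h2 ((k.emb.le_iff _ _).1 (hk' ▸ h)),
      hk' ▸ k.emb.lab h3, rfl⟩
  · rintro ⟨d, h1, h2, h3, rfl⟩
    exact ⟨⟨S, (u, d), h1, h2, h3⟩, Hom.id S, rfl, rfl⟩

theorem act_F {u : S.α} {z : Tm S} : Act ⟨Fn, u⟩ z ↔ ∃ d, z = ⟨Xn, d⟩ := by
  constructor
  · rintro ⟨⟨B, a, d⟩, k, -, rfl⟩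
    exact ⟨k d, rfl⟩
  · rintro ⟨d, rfl⟩
    exact ⟨⟨S, u, d⟩, Hom.id S, rfl, rfl⟩

theorem teq_G {v v' : S.α} (h : TEq (⟨Gn, v⟩ : Tm S) ⟨Gn, v'⟩) : v = v' := by
  by_contra hne
  obtain ⟨R, g, w₁, w₂, β₁, β₂, h1, h2, h3, h4, h5, h6⟩ := dist S v v' hne
  obtain ⟨R', g', w, hw, h7⟩ := ((teq_iff _ _).1 h).1 R g ⟨chk (code (β₁, β₂)), g v⟩
    (act_G.2 ⟨w₁, w₂, β₁, β₂, h1, h3, h4, rfl⟩)
  obtain ⟨u₁, u₂, γ₁, γ₂, k1, k2, k3, rfl⟩ := act_G.1 hw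
  have e := code_inj (teq_chk.1 h7)
  obtain ⟨rfl, rfl⟩ := Prod.mk.inj e
  have e1 : u₁ = g' w₂ := R'.str.lab_inj k2 (g'.emb.lab h6)
  have e2 : u₂ = g' w₁ := R'.str.lab_inj k3 (g'.emb.lab h5)
  subst e1 e2
  exact h2 ((g'.emb.le_iff _ _).1 k1)

theorem ac_sem {e : Fin 0 → Tm S} (h : Force acAx S e) (F : Tm S)
    (h1 : ∀ (R : Obj) (f : Hom S R) (x : Tm R), TMem x (F.map f) →
      Dn R fun R' g => ∃ y : Tm R', TMem y (x.map g))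
    (h2 : ∀ (R : Obj) (f : Hom S R) (x y z : Tm R), TMem x (F.map f) → TMem y (F.map f) →
      TMem z x → TMem z y → TEq x y) :
    ∃ (R : Obj) (f : Hom S R) (c : Tm R), ∀ (R' : Obj) (g : Hom R R') (x : Tm R'),
      TMem x (F.map (f.comp g)) → ∃ (R'' : Obj) (k : Hom R' R'') (w : Tm R''),
        TMem w (x.map k) ∧ TMem w (c.map (g.comp k)) ∧ ∀ (T : Obj) (l : Hom R'' T) (w' : Tm T),
          TMem w' (x.map (k.comp l)) → TMem w' (c.map (g.comp (k.comp l))) → TEq w' (w.map l) := by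
  have h3 := force_imp.1 (force_all.1 h S (Hom.id S) F) S (Hom.id S) (force_inf.2 ⟨?_, ?_⟩)
  · obtain ⟨R, f, c, hc⟩ := (force_ex.1 h3).here
    refine ⟨R, f, c, fun R' g x hx => ?_⟩
    have h4 := force_imp.1 (force_all.1 hc R' g x) R' (Hom.id R') hx
    obtain ⟨R'', k, w, hw⟩ := (force_ex.1 h4).here
    obtain ⟨hw1, hw2⟩ := force_inf.1 hw
    obtain ⟨hw3, hw4⟩ := force_inf.1 hw1
    refine ⟨R'', k, w, hw3, hw4, fun T l w' k1 k2 => ?_⟩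
    exact force_imp.1 (force_all.1 hw2 T l w') T (Hom.id T) (force_inf.2 ⟨k1, k2⟩)
  · refine force_all.2 fun R f x => force_imp.2 fun R' g hx => force_ex.2 ?_
    exact h1 R' (f.comp g) (x.map g) hx
  · refine force_all.2 fun R f x => force_all.2 fun R' g y => force_imp.2 fun R'' k hx => ?_
    obtain ⟨hx1, hx2⟩ := force_inf.1 hx
    obtain ⟨hx3, hx4⟩ := force_inf.1 hx1
    refine TEq.of_dn (x := (x.map g).map k) (y := y.map k) ((force_ex.1 hx2).imp ?_)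
    rintro T l ⟨z, hz⟩
    obtain ⟨hz1, hz2⟩ := force_inf.1 hz
    exact h2 T (f.comp (g.comp (k.comp l))) _ _ z (TMem.map hx3 l) (TMem.map hx4 l) hz1 hz2

end NotAC

open NotAC in
theorem valid_not_acAx : Valid (∼acAx) := by
  intro S
  refine force_not.2 fun R f h => ?_
  obtain ⟨R₁, f₁, c, hc⟩ := ac_sem h ⟨Fn, R.top⟩ (by
    intro T g x hx T' g'
    obtain ⟨T₁, g₁, w, hw, h1⟩ := (hx.map g').ex
    obtain ⟨d, rfl⟩ := act_F.1 hw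
    obtain ⟨T₂, g₂, h2, h3⟩ := add_top T₁ d b0
    refine ⟨T₂, g₁.comp g₂, ⟨Gn, T₂.top⟩, TMem.congr_right (y := ⟨Xn, g₂ d⟩)
      (TMem.of_act (act_X.2 ⟨_, T₂.le_top _, fun h4 => ?_, h3, rfl⟩)) (h1.map g₂).symm⟩
    exact (T₂.str.good_spec h2).2.2.2 (T₂.str.le_trans h4 (g₂.emb.mono (T₁.le_top d)))) (by
    intro T g x y z hx hy hzx hzy
    refine TEq.of_dn fun T' g' => ?_
    obtain ⟨T₁, g₁, w, hw, h1⟩ := (hx.map g').ex
    obtain ⟨d, rfl⟩ := act_F.1 hw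
    obtain ⟨T₂, g₂, w, hw, h2⟩ := (hy.map (g'.comp g₁)).ex
    obtain ⟨d', rfl⟩ := act_F.1 hw
    obtain ⟨T₃, g₃, w, hw, h3⟩ :=
      ((hzx.map (g'.comp (g₁.comp g₂))).congr_right (h1.map g₂)).ex
    obtain ⟨v, -, -, hv, rfl⟩ := act_X.1 hw
    obtain ⟨T₄, g₄, w, hw, h4⟩ :=
      ((hzy.map (g'.comp (g₁.comp (g₂.comp g₃)))).congr_right (h2.map g₃)).ex
    obtain ⟨v', -, -, hv', rfl⟩ := act_X.1 hw
    have e : g₄ v = v' := teq_G ((h3.map g₄).symm.trans h4)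
    subst e
    have e2 : g₄ (g₃ (g₂ d)) = g₄ (g₃ d') := T₄.str.lab_inj (g₄.emb.lab hv) hv'
    refine ⟨T₄, g₁.comp (g₂.comp (g₃.comp g₄)), (h1.map (g₂.comp (g₃.comp g₄))).trans
      (TEq.trans (TEq.of_eq ?_) (h2.map (g₃.comp g₄)).symm)⟩
    exact congrArg (Tm.mk Xn) e2)
  obtain ⟨R₂, k, w, hw1, hw2, hw3⟩ := hc R₁ (Hom.id R₁) ⟨Xn, R₁.top⟩
    (TMem.of_act (act_F.2 ⟨_, rfl⟩))
  obtain ⟨R₃, l, w', hw', h1⟩ := hw1.ex
  obtain ⟨v, -, hv, -, rfl⟩ := act_X.1 hw'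
  obtain ⟨R₄, p, p', hp, hp'⟩ := self_amalg R₃ (l (k R₁.top)) v
    (l.emb.cpt (k.emb.cpt R₁.top_cpt)) hv
  have e : k.comp (l.comp p') = k.comp (l.comp p) := Hom.ext_top _ _ hp.symm
  have h2 := hw3 R₄ (l.comp p) (w.map (l.comp p')) (e ▸ hw1.map (l.comp p'))
    (by
      have := hw2.map (l.comp p')
      rw [← e]
      exact this)
  exact hp' (teq_G (((h1.map p).symm.trans h2.symm).trans (h1.map p')))

end Crest.Agent.R296
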