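import Crest.Agent.R296.Basic
import Crest.Agent.R296.Iface

/-!
# Supports and least supports

PLAN.
* `Supp.mono`: `Hom.share`.  `supp_of_cpt`: `Emb.share_cpt`.  `Supp.glb`: `chain` and `TEq.of_dn`
  (given `h h' : S → R` and any `f : R → R₁`, apply `chain` to `h.comp f`, `h'.comp f`).
* `teq_push`: `teq_of_act`; a child of the push-forward activated at `R` by `k : B → R` with `k (h u) = f u` is a child of
  `y.map (h.comp k)`, and `y.map (h.comp k) = y.map f` is forced since `u` supports `y`.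
* `least_exists`: state `(S, e, y, d)` with `d` compact, `e ≤ d`, `Supp d y`; start `d = top`.  One step for a point `a` of `S`:
  (A) if some extension has a compact `D ≥ e` supporting `y` with `¬ a ≤ D`, move there and replace `d` by the glb of `d` and `D`;
  (B) if `a` is compact, `e ≤ a` and `a` supports `y` in some extension, move there and replace `d` by the glb of `d` and `a`.
  Bookkeeping: fix for every object a surjection `ℕ → α` (`exists_surjective_nat`, nonempty by `top`); keep in the state a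
  function `τ : ℕ → ℕ → S.α` where row `n` is reset at stage `n` to the enumeration of the current object and all rows are
  mapped along; at stage `n` treat `τ (unpair n).1 (unpair n).2` (`(unpair n).1 ≤ n`), so every point of every stage is treated
  at some later stage.  Apply `sealing`.  `m` supports `y` by `supp_of_cpt`; for `u ≥ e` supporting `y` in `R` use `sep`:
  a compact `D ≥ u` supports `y`; it is above every `a` below all `d k` (else step (A) would have pushed `d` off `a`);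
  the second alternative of `sealing` gives `t` supporting `y` (`Supp.glb`, `Supp.mono`), so step (B) made `d ≤ t`, `m ≤ t`.
-/

set_option autoImplicit false

namespace Crest.Agent.R296

variable {S : Obj}

def Supp (u : S.α) (y : Tm S) : Prop :=
  ∀ (R : Obj) (h h' : Hom S R), h u = h' u → TEq (y.map h) (y.map h')

/-- `m` is (and stays) the least support of `y` above `e`. -/
def Least (e m : S.α) (y : Tm S) : Prop :=
  S.str.le e m ∧ Supp m y ∧
    ∀ (R : Obj) (h : Hom S R) (u : R.α), R.str.le (h e) u → Supp u (y.map h) → R.str.le (h m) u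

/-- the push-forward of `y` to a name anchored at `u`. -/
def push (y : Tm S) (u : S.α) : Name :=
  .mk (Σ (B : Obj) (h : Hom S B) (i : y.nm.ι), {k : Hom (y.nm.B i) B // k (y.nm.a i) = h y.pt})
    (fun t => t.1) (fun t => t.2.1 u) (fun t => t.2.2.2.1 (y.nm.d t.2.2.1)) fun t => y.nm.ch t.2.2.1

theorem Supp.map {R : Obj} {u : S.α} {y : Tm S} (h : Supp u y) (f : Hom S R) :
    Supp (f u) (y.map f) := fun R' g g' hg => h R' (f.comp g) (f.comp g') hg

theorem Supp.mono {u u' : S.α} {y : Tm S} (h : Supp u y) (hu : S.str.le u u') : Supp u' y :=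
  fun R g g' hg => h R g g' (g.share g' hg hu)

theorem Supp.congr {u : S.α} {y y' : Tm S} (h : Supp u y) (hy : TEq y y') : Supp u y' :=
  fun R g g' hg => ((hy.map g).symm.trans (h R g g' hg)).trans (hy.map g')

theorem supp_pt (y : Tm S) : Supp y.pt y := fun _ _ _ hg =>
  TEq.of_eq (congrArg (Tm.mk y.nm) hg)

theorem supp_of_cpt {u : S.α} {y : Tm S} (h : ∀ d, S.str.cpt d → S.str.le u d → Supp d y) :
    Supp u y := fun R g g' hg => by
  obtain ⟨d, hd, h1, h2⟩ := g.emb.share_cpt g'.emb hg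
  exact h d hd h1 R g g' h2

theorem Least.map {R : Obj} {e m : S.α} {y : Tm S} (h : Least e m y) (f : Hom S R) :
    Least (f e) (f m) (y.map f) :=
  ⟨f.emb.mono h.1, h.2.1.map f, fun R' g u h1 h2 => h.2.2 R' (f.comp g) u h1 h2⟩

theorem Least.congr {e m : S.α} {y y' : Tm S} (h : Least e m y) (hy : TEq y y') : Least e m y' :=
  ⟨h.1, h.2.1.congr hy, fun R g u h1 h2 => h.2.2 R g u h1 (h2.congr (hy.map g).symm)⟩

theorem Least.le {e m u : S.α} {y : Tm S} (h : Least e m y) (h1 : S.str.le e u) (h2 : Supp u y) :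
    S.str.le m u := h.2.2 S (Hom.id S) u h1 h2

theorem Least.uniq {e m m' : S.α} {y y' : Tm S} (h : Least e m y) (h' : Least e m' y')
    (hy : TEq y y') : m = m' :=
  S.str.le_antisymm (h.le h'.1 (h'.2.1.congr hy.symm)) (h'.le h.1 (h.2.1.congr hy))

theorem Supp.glb {d₁ d₂ c : S.α} {y : Tm S} (h₁ : Supp d₁ y) (h₂ : Supp d₂ y)
    (hd₁ : S.str.cpt d₁) (hd₂ : S.str.cpt d₂) (hcc : S.str.cpt c) (hc₁ : S.str.le c d₁)
    (hc₂ : S.str.le c d₂) (hc : ∀ u, S.str.le u d₁ → S.str.le u d₂ → S.str.le u c) : Supp c y := by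
  intro R h h' hh
  refine TEq.of_dn fun R₁ f => ?_
  obtain ⟨R', g, k₁, k₂, k₃, k₄, e1, e2, e3, e4, e5⟩ :=
    chain S R₁ (h.comp f) (h'.comp f) d₁ d₂ c hd₁ hd₂ hcc hc₁ hc₂ hc (congrArg f hh)
  exact ⟨R', g, ((((h₁ R' ((h.comp f).comp g) k₁ e1).trans (h₂ R' k₁ k₂ e2)).trans
    (h₁ R' k₂ k₃ e3)).trans (h₂ R' k₃ k₄ e4)).trans (h₁ R' k₄ ((h'.comp f).comp g) e5)⟩

theorem teq_push {u : S.α} {y : Tm S} (h : Supp u y) : TEq y ⟨push y u, u⟩ := by
  refine teq_of_act ?_ ?_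
  · rintro R f z ⟨i, k, h1, rfl⟩
    exact TMem.of_act ⟨⟨R, f, i, k, h1⟩, Hom.id R, rfl, rfl⟩
  · rintro R f z ⟨⟨B, g, i, k₀, h0⟩, k, h1, rfl⟩
    have ha : Act (y.map (g.comp k)) ⟨y.nm.ch i, k (k₀ (y.nm.d i))⟩ :=
      ⟨i, k₀.comp k, congrArg k h0, rfl⟩
    exact (TMem.of_act ha).congr_right (h R (g.comp k) f h1)

private theorem Supp_shrink {R : Obj} {e d : S.α} {y : Tm S} (hd : S.str.cpt d)
    (hed : S.str.le e d) (hs : Supp d y) (h : Hom S R) {D : R.α} (hD : R.str.cpt D)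
    (heD : R.str.le (h e) D) (hsD : Supp D (y.map h)) :
    ∃ d' : R.α, R.str.cpt d' ∧ R.str.le (h e) d' ∧ Supp d' (y.map h) ∧ R.str.le d' (h d) ∧
      R.str.le d' D := by
  obtain ⟨c, h1, h2, h3, h4⟩ := R.str.glb (h.emb.cpt hd) hD
  exact ⟨c, h1, h4 _ (h.emb.mono hed) heD,
    Supp.glb (hs.map h) hsD (h.emb.cpt hd) hD h1 h2 h3 h4, h2, h3⟩

private theorem Supp_stepA {e d : S.α} {y : Tm S} (hd : S.str.cpt d) (hed : S.str.le e d)
    (hs : Supp d y) (a : S.α) :
    ∃ (R : Obj) (f : Hom S R) (d' : R.α), R.str.cpt d' ∧ R.str.le (f e) d' ∧ Supp d' (y.map f) ∧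
      R.str.le d' (f d) ∧ (R.str.le (f a) d' → ∀ (R' : Obj) (h : Hom R R') (D : R'.α),
        R'.str.cpt D → R'.str.le (h (f e)) D → Supp D (y.map (f.comp h)) →
        R'.str.le (h (f a)) D) := by
  by_cases H : ∃ (R : Obj) (h : Hom S R) (D : R.α), R.str.cpt D ∧ R.str.le (h e) D ∧
      Supp D (y.map h) ∧ ¬ R.str.le (h a) D
  · obtain ⟨R, h, D, h1, h2, h3, h4⟩ := H
    obtain ⟨d', k1, k2, k3, k4, k5⟩ := Supp_shrink hd hed hs h h1 h2 h3
    exact ⟨R, h, d', k1, k2, k3, k4, fun k6 => absurd (R.str.le_trans k6 k5) h4⟩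
  · refine ⟨S, Hom.id S, d, hd, hed, hs, S.str.le_refl _, fun _ R h D h1 h2 h3 => ?_⟩
    by_contra h4
    exact H ⟨R, h, D, h1, h2, h3, h4⟩

private theorem Supp_stepB {e d : S.α} {y : Tm S} (hd : S.str.cpt d) (hed : S.str.le e d)
    (hs : Supp d y) (a : S.α) :
    ∃ (R : Obj) (f : Hom S R) (d' : R.α), R.str.cpt d' ∧ R.str.le (f e) d' ∧ Supp d' (y.map f) ∧
      R.str.le d' (f d) ∧ (S.str.cpt a → S.str.le e a → ∀ (R' : Obj) (h : Hom R R'),
        Supp (h (f a)) (y.map (f.comp h)) → R.str.le d' (f a)) := by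
  by_cases H : S.str.cpt a ∧ S.str.le e a ∧ ∃ (R : Obj) (h : Hom S R), Supp (h a) (y.map h)
  · obtain ⟨h1, h2, R, h, h3⟩ := H
    obtain ⟨d', k1, k2, k3, k4, k5⟩ := Supp_shrink hd hed hs h (h.emb.cpt h1) (h.emb.mono h2) h3
    exact ⟨R, h, d', k1, k2, k3, k4, fun _ _ _ _ _ => k5⟩
  · exact ⟨S, Hom.id S, d, hd, hed, hs, S.str.le_refl _,
      fun h1 h2 R h h3 => absurd ⟨h1, h2, R, h, h3⟩ H⟩

private theorem Supp_step {e d : S.α} {y : Tm S} (hd : S.str.cpt d) (hed : S.str.le e d)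
    (hs : Supp d y) (a : S.α) :
    ∃ (R : Obj) (f : Hom S R) (d' : R.α), R.str.cpt d' ∧ R.str.le (f e) d' ∧ Supp d' (y.map f) ∧
      R.str.le d' (f d) ∧ (R.str.le (f a) d' → ∀ (R' : Obj) (h : Hom R R') (D : R'.α),
        R'.str.cpt D → R'.str.le (h (f e)) D → Supp D (y.map (f.comp h)) →
        R'.str.le (h (f a)) D) ∧ (S.str.cpt a → S.str.le e a → ∀ (R' : Obj) (h : Hom R R'),
        Supp (h (f a)) (y.map (f.comp h)) → R.str.le d' (f a)) := by
  obtain ⟨R₁, f₁, d₁, h1, h2, h3, h4, h5⟩ := Supp_stepA hd hed hs a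
  obtain ⟨R₂, f₂, d₂, k1, k2, k3, k4, k5⟩ := Supp_stepB h1 h2 h3 (f₁ a)
  refine ⟨R₂, f₁.comp f₂, d₂, k1, k2, k3, R₂.str.le_trans k4 (f₂.emb.mono h4),
    fun h6 R' h D => ?_, fun ha hea => k5 (f₁.emb.cpt ha) (f₁.emb.mono hea)⟩
  exact h5 ((f₂.emb.le_iff _ _).1 (R₂.str.le_trans h6 k4)) R' (f₂.comp h) D

/-- states of the construction of a least support -/
private structure SuppSt (ν : Name) : Type 1 where
  S : Obj
  e : S.α
  x : S.α
  d : S.α
  τ : ℕ → ℕ → S.α
  hd : S.str.cpt d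
  hed : S.str.le e d
  hs : Supp d ⟨ν, x⟩

private theorem Supp_enum (S : Obj) : ∃ g : ℕ → S.α, Function.Surjective g :=
  haveI : Nonempty S.α := ⟨S.top⟩
  exists_surjective_nat S.α

private noncomputable def SuppSt.row {ν : Name} (σ : SuppSt ν) (n : ℕ) : ℕ → ℕ → σ.S.α :=
  Function.update σ.τ n (Supp_enum σ.S).choose

private theorem SuppSt.next {ν : Name} (σ : SuppSt ν) (n : ℕ) :
    ∃ (σ' : SuppSt ν) (f : Hom σ.S σ'.S), f σ.e = σ'.e ∧ f σ.x = σ'.x ∧
      (∀ i j, σ'.τ i j = f (σ.row n i j)) ∧ σ'.S.str.le σ'.d (f σ.d) ∧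
      ∀ a, a = σ.row n n.unpair.1 n.unpair.2 →
        (σ'.S.str.le (f a) σ'.d → ∀ (R' : Obj) (h : Hom σ'.S R') (D : R'.α),
          R'.str.cpt D → R'.str.le (h σ'.e) D → Supp D ⟨ν, h σ'.x⟩ → R'.str.le (h (f a)) D) ∧
        (σ.S.str.cpt a → σ.S.str.le σ.e a → ∀ (R' : Obj) (h : Hom σ'.S R'),
          Supp (h (f a)) ⟨ν, h σ'.x⟩ → σ'.S.str.le σ'.d (f a)) := by
  obtain ⟨R, f, d', h1, h2, h3, h4, h5, h6⟩ :=
    Supp_step σ.hd σ.hed σ.hs (σ.row n n.unpair.1 n.unpair.2)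
  refine ⟨⟨R, f σ.e, f σ.x, d', fun i j => f (σ.row n i j), h1, h2, h3⟩, f, rfl, rfl,
    fun _ _ => rfl, h4, ?_⟩
  rintro a rfl
  exact ⟨h5, h6⟩

theorem least_exists (e : S.α) (y : Tm S) :
    ∃ (R : Obj) (f : Hom S R) (m : R.α), Least (f e) m (y.map f) := by
  obtain ⟨ν, x⟩ := y
  choose nx F hFe hFx hFτ hFd hFa using SuppSt.next (ν := ν)
  let σ₀ : SuppSt ν := ⟨S, e, x, S.top, fun _ _ => S.top, S.top_cpt, S.le_top e,
    (supp_pt ⟨ν, x⟩).mono (S.le_top x)⟩
  let σ : ℕ → SuppSt ν := fun n => Nat.rec σ₀ (fun n s => nx s n) n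
  let f : ∀ n, Hom (σ n).S (σ (n + 1)).S := fun n => F (σ n) n
  obtain ⟨T, g, m, hg, hm1, hm2, hm3⟩ := sealing (fun n => (σ n).S) f (fun n => (σ n).d)
    (fun n => (σ n).e) (fun n => (σ n).hd) (fun n => hFd (σ n) n) (fun n => hFe (σ n) n)
    (fun n => (σ n).hed)
  have ge : ∀ n, g n (σ n).e = g 0 e := by
    intro n
    induction n with
    | zero => rfl
    | succ n ih => rw [← ih, ← hg n]; exact congrArg (g (n + 1)) (hFe (σ n) n).symm
  have gx : ∀ n, g n (σ n).x = g 0 x := by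
    intro n
    induction n with
    | zero => rfl
    | succ n ih => rw [← ih, ← hg n]; exact congrArg (g (n + 1)) (hFx (σ n) n).symm
  have grow : ∀ n j N, n ≤ N → g N ((σ N).row N n j) = g n ((Supp_enum (σ n).S).choose j) := by
    intro n j N hN
    induction N, hN using Nat.le_induction with
    | base => rw [SuppSt.row, Function.update_self]
    | succ N hN ih =>
      rw [← ih, ← hg N, SuppSt.row, Function.update_of_ne (by omega)]
      exact congrArg (g (N + 1)) (hFτ (σ N) N n j)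
  have treat : ∀ n (a : (σ n).S.α), ∃ N, g N ((σ N).row N N.unpair.1 N.unpair.2) = g n a := by
    intro n a
    obtain ⟨j, hj⟩ := (Supp_enum (σ n).S).choose_spec a
    refine ⟨Nat.pair n j, ?_⟩
    rw [Nat.unpair_pair, grow n j _ (Nat.left_le_pair n j), hj]
  have hsd : ∀ n, Supp (g n (σ n).d) (⟨ν, g 0 x⟩ : Tm T) := by
    intro n
    rw [← gx n]
    exact (σ n).hs.map (g n)
  refine ⟨T, g 0, m, T.str.sep fun D hD hmD => ?_, supp_of_cpt fun D hD hmD => ?_,
    fun R h u heu hsu => R.str.sep fun D hD huD => ?_⟩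
  · obtain ⟨n, hn⟩ := hm2 D hD hmD
    rw [← ge n]
    exact T.str.le_trans ((g n).emb.mono (σ n).hed) hn
  · obtain ⟨n, hn⟩ := hm2 D hD hmD
    exact (hsd n).mono hn
  · have hsD : Supp D (⟨ν, h (g 0 x)⟩ : Tm R) := Supp.mono hsu huD
    have heD : R.str.le (h (g 0 e)) D := R.str.le_trans heu huD
    have hyp : ∀ n (a : (σ n).S.α), (∀ k, T.str.le (g n a) (g k (σ k).d)) →
        R.str.le (h (g n a)) D := by
      intro n a ha
      obtain ⟨N, hN⟩ := treat n a
      have e1 := hg N ((σ N).row N N.unpair.1 N.unpair.2)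
      rw [hN] at e1
      have h2 := (hFa (σ N) N _ rfl).1
        (((g (N + 1)).emb.le_iff _ _).1 (e1 ▸ ha (N + 1)))
        R ((g (N + 1)).comp h) D hD (by rw [← ge (N + 1)] at heD; exact heD)
        (by rw [← gx (N + 1)] at hsD; exact hsD)
      rw [← e1]
      exact h2
    rcases hm3 R h D hD hyp with h1 | ⟨n, t, ht, het, hmt, k, hk⟩
    · exact h1
    · exfalso
      obtain ⟨N, hN⟩ := treat n t
      have hc : R.str.cpt (h (g k (σ k).d)) := h.emb.cpt ((g k).emb.cpt (σ k).hd)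
      obtain ⟨c, c1, c2, c3, c4⟩ := R.str.glb hD hc
      have hst : Supp (h (g n t)) (⟨ν, h (g 0 x)⟩ : Tm R) :=
        (Supp.glb hsD ((hsd k).map h) hD hc c1 c2 c3 c4).mono (hk c c2 c3)
      have h2 := (hFa (σ N) N _ rfl).2
        ((g N).emb.cpt_of (by rw [hN]; exact (g n).emb.cpt ht))
        (((g N).emb.le_iff _ _).1 (by rw [hN, ge N, ← ge n]; exact (g n).emb.mono het))
        R ((g (N + 1)).comp h) (by
          have e1 := hg N ((σ N).row N N.unpair.1 N.unpair.2)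
          rw [hN] at e1
          rw [← e1, ← gx (N + 1)] at hst
          exact hst)
      have h3 := T.str.le_trans (hm1 (N + 1)) ((g (N + 1)).emb.mono h2)
      have e1 := hg N ((σ N).row N N.unpair.1 N.unpair.2)
      rw [hN] at e1
      exact hmt (e1 ▸ h3)

end Crest.Agent.R296
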