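import Crest.Agent.R296.Pair
import Crest.Agent.R296.Supp

/-! # The partition principle -/

set_option autoImplicit false

namespace Crest.Agent.R296

open FirstOrder FirstOrder.Language Crest.LogicCS.SetTheory

theorem wo_eq {J : Type*} {a b : J} (h1 : ¬ WellOrderingRel a b) (h2 : ¬ WellOrderingRel b a) :
    a = b := by
  rcases trichotomous_of (WellOrderingRel (α := J)) a b with h | h | h
  · exact (h1 h).elim
  · exact h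
  · exact (h2 h).elim

section pp

variable {S₀ : Obj}

/-- a piece of `Z`: a member of `Z` anchored at its least support. -/
structure Pc (Z : Tm S₀) : Type 1 where
  P : Obj
  ρ : Hom S₀ P
  i : Z.nm.ι
  δ : P.α
  u : P.α

def Pc.tm {Z : Tm S₀} (j : Pc Z) : Tm j.P := ⟨push (⟨Z.nm.ch j.i, j.δ⟩ : Tm j.P) j.u, j.u⟩

def Pc.Ok {Z : Tm S₀} (j : Pc Z) : Prop :=
  TMem j.tm (Z.map j.ρ) ∧ Least (j.ρ S₀.top) j.u j.tm

theorem exists_pc {Z : Tm S₀} {R : Obj} (ρ : Hom S₀ R) (w : Tm R) (hw : TMem w (Z.map ρ)) :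
    ∃ (j : Pc Z) (g : Hom R j.P), j.Ok ∧ j.ρ = ρ.comp g ∧ TEq (w.map g) j.tm := by
  obtain ⟨R₁, g₁, z, hz, h1⟩ := hw.ex
  obtain ⟨R₂, g₂, m, hm⟩ := least_exists (g₁ (ρ S₀.top)) z
  have hz' := hz
  obtain ⟨i, k, -, rfl⟩ := hz'
  have h2 := teq_push hm.2.1
  refine ⟨⟨R₂, (ρ.comp g₁).comp g₂, i, g₂ (k (Z.nm.d i)), m⟩, g₁.comp g₂, ⟨?_, ?_⟩, rfl, ?_⟩
  · exact (TMem.of_act (hz.map g₂)).congr_left h2
  · exact hm.congr h2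
  · exact (h1.map g₂).trans h2

theorem Pc.least_map {Z : Tm S₀} {j : Pc Z} (hj : j.Ok) {R : Obj} {ρ : Hom S₀ R} (k : Hom j.P R)
    (hk : j.ρ.comp k = ρ) : Least (ρ S₀.top) (k j.u) (j.tm.map k) := by
  subst hk
  exact hj.2.map k

variable (F X Y : Tm S₀)

/-- `w` is the realisation of the piece `j`. -/
def Rl (R : Obj) (ρ : Hom S₀ R) (w : Tm R) (j : Pc Y) : Prop :=
  j.Ok ∧ ∃ k : Hom j.P R, j.ρ.comp k = ρ ∧ TEq w (j.tm.map k)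

def MinIdx (R : Obj) (ρ : Hom S₀ R) (w : Tm R) (j : Pc Y) : Prop :=
  ∀ (R' : Obj) (g : Hom R R') (j' : Pc Y), Rl Y R' (ρ.comp g) (w.map g) j' → ¬ WellOrderingRel j' j

/-- a candidate preimage piece. -/
structure Cd : Type 1 where
  x : Pc X
  j : Pc Y
  k : Hom j.P x.P

def Cd.Ok (c : Cd X Y) : Prop :=
  c.x.Ok ∧ c.j.Ok ∧ c.j.ρ.comp c.k = c.x.ρ ∧ PM (F.map c.x.ρ) c.x.tm (c.j.tm.map c.k) ∧
    MinIdx Y c.x.P c.x.ρ (c.j.tm.map c.k) c.j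

def CRl (R : Obj) (ρ : Hom S₀ R) (j : Pc Y) (c : Cd X Y) : Prop :=
  c.Ok F ∧ c.j = j ∧ ∃ k₀ : Hom c.x.P R, c.x.ρ.comp k₀ = ρ

def MinCd (R : Obj) (ρ : Hom S₀ R) (c : Cd X Y) : Prop :=
  ∀ (R' : Obj) (g : Hom R R') (c' : Cd X Y), CRl F X Y R' (ρ.comp g) c.j c' → ¬ WellOrderingRel c' c

def URl (R : Obj) (ρ : Hom S₀ R) (e' ys u : R.α) (c : Cd X Y) (k₁ : Hom c.x.P R) (β : Lab) : Prop :=
  c.x.ρ.comp k₁ = ρ ∧ Join R ys (k₁ c.x.u) e' ∧ R.str.lab (k₁ c.x.u) ys β ∧ R.str.lab u ys (kap β)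

def EnOk (R : Obj) (ρ : Hom S₀ R) (e' : R.α) (c : Cd X Y) (k : Hom c.j.P R) (k₁ : Hom c.x.P R)
    (ys : R.α) (β : Lab) : Prop :=
  c.Ok F ∧ c.j.ρ.comp k = ρ ∧ MinIdx Y R ρ (c.j.tm.map k) c.j ∧ c.x.ρ.comp k₁ = ρ ∧
    MinCd F X Y R ρ c ∧
    (c.x.P.str.le c.x.u (c.x.ρ S₀.top) ∨
      (Least e' ys (c.j.tm.map k) ∧ URl X Y R ρ e' ys (k c.j.u) c k₁ β ∧
        ∀ (R' : Obj) (g : Hom R R') (k₁' : Hom c.x.P R') (β' : Lab),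
          URl X Y R' (ρ.comp g) (g e') (g ys) (g (k c.j.u)) c k₁' β' → ¬ WellOrderingRel β' β))

variable {F X Y}

theorem MinIdx.map {R R' : Obj} {ρ : Hom S₀ R} {w : Tm R} {j : Pc Y} (h : MinIdx Y R ρ w j)
    (g : Hom R R') : MinIdx Y R' (ρ.comp g) (w.map g) j :=
  fun R'' g' j' h' => h R'' (g.comp g') j' h'

theorem MinIdx.congr {R : Obj} {ρ : Hom S₀ R} {w w' : Tm R} {j : Pc Y} (h : MinIdx Y R ρ w j)
    (hw : TEq w w') : MinIdx Y R ρ w' j :=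
  fun R' g j' ⟨h1, k, h2, h3⟩ => h R' g j' ⟨h1, k, h2, (hw.map g).trans h3⟩

theorem MinCd.map {R R' : Obj} {ρ : Hom S₀ R} {c : Cd X Y} (h : MinCd F X Y R ρ c)
    (g : Hom R R') : MinCd F X Y R' (ρ.comp g) c :=
  fun R'' g' j' h' => h R'' (g.comp g') j' h'

theorem URl.map {R R' : Obj} {ρ : Hom S₀ R} {e' ys u : R.α} {c : Cd X Y} {k₁ : Hom c.x.P R}
    {β : Lab} (h : URl X Y R ρ e' ys u c k₁ β) (g : Hom R R') :
    URl X Y R' (ρ.comp g) (g e') (g ys) (g u) c (k₁.comp g) β :=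
  ⟨by rw [← h.1]; rfl, h.2.1.map g, g.emb.lab h.2.2.1, g.emb.lab h.2.2.2⟩

theorem EnOk.map {R R' : Obj} {ρ : Hom S₀ R} {e' : R.α} {c : Cd X Y} {k : Hom c.j.P R}
    {k₁ : Hom c.x.P R} {ys : R.α} {β : Lab} (h : EnOk F X Y R ρ e' c k k₁ ys β) (g : Hom R R') :
    EnOk F X Y R' (ρ.comp g) (g e') c (k.comp g) (k₁.comp g) (g ys) β := by
  obtain ⟨h1, h2, h3, h4, h5, h6⟩ := h
  refine ⟨h1, by rw [← h2]; rfl, h3.map g, by rw [← h4]; rfl, h5.map g, ?_⟩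
  rcases h6 with h6 | ⟨h6, h7, h8⟩
  · exact Or.inl h6
  · exact Or.inr ⟨h6.map g, h7.map g, fun R'' g' k₁' β' h' => h8 R'' (g.comp g') k₁' β' h'⟩

theorem cd_eq {R : Obj} {ρ : Hom S₀ R} {c c' : Cd X Y} {k₁ : Hom c.x.P R} {k₁' : Hom c'.x.P R}
    (hc : c.Ok F) (hc' : c'.Ok F) (h1 : c.x.ρ.comp k₁ = ρ) (h1' : c'.x.ρ.comp k₁' = ρ)
    (h : MinCd F X Y R ρ c) (h' : MinCd F X Y R ρ c') (hj : c.j = c'.j) : c = c' :=
  wo_eq (h' R (Hom.id R) c ⟨hc, hj, k₁, h1⟩) (h R (Hom.id R) c' ⟨hc', hj.symm, k₁', h1'⟩)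

theorem idx_eq {R : Obj} {ρ : Hom S₀ R} {j j' : Pc Y} {k : Hom j.P R} {k' : Hom j'.P R}
    (hj : j.Ok) (hj' : j'.Ok) (h1 : j.ρ.comp k = ρ) (h1' : j'.ρ.comp k' = ρ)
    (h : MinIdx Y R ρ (j.tm.map k) j) (h' : MinIdx Y R ρ (j'.tm.map k') j')
    (he : TEq (j.tm.map k) (j'.tm.map k')) : j = j' :=
  wo_eq (h' R (Hom.id R) j ⟨hj, k, h1, he.symm⟩) (h R (Hom.id R) j' ⟨hj', k', h1', he⟩)

theorem enOk_func {R : Obj} {ρ : Hom S₀ R} {e' : R.α} {c c' : Cd X Y} {k : Hom c.j.P R}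
    {k₁ : Hom c.x.P R} {ys : R.α} {β : Lab} {k' : Hom c'.j.P R}
    {k₁' : Hom c'.x.P R} {ys' : R.α} {β' : Lab} (h : EnOk F X Y R ρ e' c k k₁ ys β)
    (h' : EnOk F X Y R ρ e' c' k' k₁' ys' β') (he : TEq (c.j.tm.map k) (c'.j.tm.map k')) :
    TEq (c.x.tm.map k₁) (c'.x.tm.map k₁') := by
  obtain ⟨h1, h2, h3, h4, h5, h6⟩ := h
  obtain ⟨h1', h2', h3', h4', h5', h6'⟩ := h'
  have hj : c.j = c'.j := idx_eq h1.2.1 h1'.2.1 h2 h2' h3 h3' he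
  obtain rfl : c = c' := cd_eq h1 h1' h4 h4' h5 h5' hj
  refine TEq.of_eq (congrArg (Tm.mk c.x.tm.nm) ?_)
  show k₁ c.x.u = k₁' c.x.u
  have htop : k₁ (c.x.ρ S₀.top) = k₁' (c.x.ρ S₀.top) :=
    (congrArg (fun f : Hom S₀ R => f S₀.top) (h4.trans h4'.symm))
  rcases h6 with h6 | ⟨h6, h7, h8⟩
  · exact k₁.share k₁' htop h6
  rcases h6' with h6' | ⟨h6', h7', h8'⟩
  · exact k₁.share k₁' htop h6'
  have hu : k c.j.u = k' c.j.u :=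
    (Pc.least_map h1.2.1 k h2).uniq (Pc.least_map h1.2.1 k' h2') he
  obtain rfl : ys = ys' := h6.uniq h6' he
  have hβ : β = β' := by
    refine wo_eq (h8' R (Hom.id R) k₁ β ?_) (h8 R (Hom.id R) k₁' β' ?_)
    · rw [hu] at h7; exact h7
    · rw [← hu] at h7'; exact h7'
  subst hβ
  exact R.str.lab_inj h7.2.2.1 h7'.2.2.1

theorem cd_supp (hS : Surj F X Y) {c : Cd X Y} (hc : c.Ok F) : Supp c.x.u (c.j.tm.map c.k) := by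
  intro R h h' hh
  have h1 : c.x.ρ.comp h = c.x.ρ.comp h' := Hom.ext_top _ _ (h.share h' hh hc.1.2.1)
  have h2 : c.x.tm.map h = c.x.tm.map h' := congrArg (Tm.mk c.x.tm.nm) hh
  refine hS.2.1 R (c.x.ρ.comp h) (c.x.tm.map h) _ _ (hc.1.1.map h) (hc.2.2.2.1.map h) ?_
  rw [h1, h2]
  exact hc.2.2.2.1.map h'

theorem enOk_inj (hS : Surj F X Y) {R : Obj} {ρ : Hom S₀ R} {e' : R.α} {c c' : Cd X Y}
    {k : Hom c.j.P R} {k₁ : Hom c.x.P R} {ys : R.α} {β : Lab} {k' : Hom c'.j.P R}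
    {k₁' : Hom c'.x.P R} {ys' : R.α} {β' : Lab} (h : EnOk F X Y R ρ e' c k k₁ ys β)
    (h' : EnOk F X Y R ρ e' c' k' k₁' ys' β') (he : TEq (c.x.tm.map k₁) (c'.x.tm.map k₁')) :
    TEq (c.j.tm.map k) (c'.j.tm.map k') := by
  obtain ⟨h1, h2, h3, h4, h5, h6⟩ := h
  obtain ⟨h1', h2', h3', h4', h5', h6'⟩ := h'
  have p1 : PM (F.map ρ) (c.x.tm.map k₁) (c.j.tm.map (c.k.comp k₁)) := by
    rw [← h4]; exact h1.2.2.2.1.map k₁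
  have p2 : PM (F.map ρ) (c'.x.tm.map k₁') (c'.j.tm.map (c'.k.comp k₁')) := by
    rw [← h4']; exact h1'.2.2.2.1.map k₁'
  have m1 : TMem (c.x.tm.map k₁) (X.map ρ) := by
    rw [← h4]; exact h1.1.1.map k₁
  have he' : TEq (c.j.tm.map (c.k.comp k₁)) (c'.j.tm.map (c'.k.comp k₁')) :=
    hS.2.1 R ρ _ _ _ m1 p1 (p2.congr (TEq.refl _) he.symm (TEq.refl _))
  have hj : c.j = c'.j := by
    refine idx_eq (ρ := ρ) h1.2.1 h1'.2.1 ?_ ?_ ?_ ?_ he'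
    · rw [← h4, ← h1.2.2.1]; rfl
    · rw [← h4', ← h1'.2.2.1]; rfl
    · rw [← h4]; exact h1.2.2.2.2.map k₁
    · rw [← h4']; exact h1'.2.2.2.2.map k₁'
  obtain rfl : c = c' := cd_eq h1 h1' h4 h4' h5 h5' hj
  refine TEq.of_eq (congrArg (Tm.mk c.j.tm.nm) ?_)
  show k c.j.u = k' c.j.u
  have htop : k (c.j.ρ S₀.top) = k' (c.j.ρ S₀.top) :=
    (congrArg (fun f : Hom S₀ R => f S₀.top) (h2.trans h2'.symm))
  have hT : c.x.P.str.le c.x.u (c.x.ρ S₀.top) → k c.j.u = k' c.j.u := by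
    intro h6
    refine k.share k' htop ((c.k.emb.le_iff _ _).1 ?_)
    have h7 := (Pc.least_map h1.2.1 c.k h1.2.2.1).le h1.1.2.1 (cd_supp hS h1)
    have h8 : c.k (c.j.ρ S₀.top) = c.x.ρ S₀.top :=
      congrArg (fun f : Hom S₀ c.x.P => f S₀.top) h1.2.2.1
    rw [h8]
    exact c.x.P.str.le_trans h7 h6
  rcases h6 with h6 | ⟨h6, h7, h8⟩
  · exact hT h6
  rcases h6' with h6' | ⟨h6', h7', h8'⟩
  · exact hT h6'
  have hv : k₁ c.x.u = k₁' c.x.u :=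
    (Pc.least_map h1.1 k₁ h4).uniq (Pc.least_map h1.1 k₁' h4') he
  obtain ⟨-, j1, l1, l2⟩ := h7
  obtain ⟨-, j1', l1', l2'⟩ := h7'
  rw [← hv] at j1' l1'
  obtain rfl : ys = ys' := j1.uniq j1'
  obtain rfl : β = β' := R.str.lab_fun l1 l1'
  exact R.str.lab_inj l2 l2'

theorem enOk_total (hS : Surj F X Y) {R : Obj} (ρ : Hom S₀ R) (e' : R.α)
    (hg : R.str.good (ρ S₀.top) e') (b : Tm R) (hb : TMem b (Y.map ρ)) :
    ∃ (R' : Obj) (g : Hom R R') (c : Cd X Y) (k : Hom c.j.P R') (k₁ : Hom c.x.P R') (ys : R'.α)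
      (β : Lab), EnOk F X Y R' (ρ.comp g) (g e') c k k₁ ys β ∧ TEq (b.map g) (c.j.tm.map k) := by
  -- the least index
  obtain ⟨R₁, g₁, j, ⟨hj, k, hk, hb1⟩, hmin⟩ := exists_min_ext (S := R) WellOrderingRel
    (fun R' g j => Rl Y R' (ρ.comp g) (b.map g) j) (by
      obtain ⟨j, g, h1, h2, h3⟩ := exists_pc ρ b hb
      exact ⟨j.P, g, j, h1, Hom.id _, h2, h3⟩)
  have hmi : MinIdx Y R₁ (ρ.comp g₁) (j.tm.map k) j :=
    MinIdx.congr (w := b.map g₁) (fun R' g j' h' => hmin R' (g₁.comp g) j' h') hb1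
  -- the least candidate
  obtain ⟨R₂, g₂, c, ⟨hc, rfl, k₀, hk₀⟩, hminc⟩ := exists_min_ext (S := R₁) WellOrderingRel
    (fun R' g c => CRl F X Y R' ((ρ.comp g₁).comp g) j c) (by
      obtain ⟨R', g, a, ha, hp⟩ :=
        (hS.2.2 R₁ (ρ.comp g₁) (j.tm.map k) ((hb.map g₁).congr_left hb1)).here
      obtain ⟨x, g', h1, h2, h3⟩ := exists_pc ((ρ.comp g₁).comp g) a ha
      refine ⟨x.P, g.comp g', ⟨x, j, k.comp (g.comp g')⟩, ⟨h1, hj, ?_, ?_, ?_⟩, rfl, Hom.id _, h2⟩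
      · show j.ρ.comp (k.comp (g.comp g')) = x.ρ
        rw [h2, ← hk]; rfl
      · show PM (F.map x.ρ) x.tm (j.tm.map (k.comp (g.comp g')))
        rw [h2]
        exact (hp.map g').congr (TEq.refl _) h3 (TEq.refl _)
      · show MinIdx Y x.P x.ρ (j.tm.map (k.comp (g.comp g'))) j
        rw [h2]
        exact hmi.map (g.comp g'))
  have hmc : MinCd F X Y R₂ ((ρ.comp g₁).comp g₂) c :=
    fun R' g c' h' => hminc R' (g₂.comp g) c' h'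
  have hk2 : c.j.ρ.comp (k.comp g₂) = (ρ.comp g₁).comp g₂ := by rw [← hk]; rfl
  by_cases hT : c.x.P.str.le c.x.u (c.x.ρ S₀.top)
  · exact ⟨R₂, g₁.comp g₂, c, k.comp g₂, k₀, R₂.top, fun _ => true,
      ⟨hc, hk2, hmi.map g₂, hk₀, hmc, Or.inl hT⟩, hb1.map g₂⟩
  obtain ⟨R₃, g₃, ys, hys⟩ := least_exists (g₂ (g₁ e')) (c.j.tm.map (k.comp g₂))
  have hg3 : R₃.str.good (g₃ (g₂ (g₁ (ρ S₀.top)))) (g₃ (g₂ (g₁ e'))) :=
    g₃.emb.good (g₂.emb.good (g₁.emb.good hg))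
  have hle : R₃.str.le (g₃ (g₂ (k c.j.u))) ys :=
    ((Pc.least_map hj (k.comp g₂) hk2).map g₃).le
      (R₃.str.le_trans (R₃.str.good_spec hg3).2.2.1 hys.1) hys.2.1
  obtain ⟨α, hα⟩ := R₃.str.lab_ex hle
  have htop : k₀ (c.x.ρ S₀.top) = g₂ (g₁ (ρ S₀.top)) :=
    congrArg (fun f : Hom S₀ R₂ => f S₀.top) hk₀
  obtain ⟨R₄, g₄, β, ⟨k₁, hU⟩, hminβ⟩ := exists_min_ext (S := R₃) WellOrderingRel
    (fun R' g β => ∃ k₁ : Hom c.x.P R', URl X Y R' ((((ρ.comp g₁).comp g₂).comp g₃).comp g)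
      (g (g₃ (g₂ (g₁ e')))) (g ys) (g (g₃ (g₂ (k c.j.u)))) c k₁ β) (by
      obtain ⟨R', g, k₁, β, h1, h2, h3, h4⟩ := umove c.x.P R₃ (k₀.comp g₃) (c.x.ρ S₀.top) c.x.u
        (g₃ (g₂ (g₁ e'))) ys (by show R₃.str.good (g₃ (k₀ _)) _; rw [htop]; exact hg3) hys.1 hT α
      refine ⟨R', g, β, k₁, Hom.ext_top _ _ ?_, h2, h3, ?_⟩
      · show k₁ (c.x.ρ S₀.top) = g (g₃ (g₂ (g₁ (ρ S₀.top))))
        rw [h1, ← htop]; rfl
      · rw [h4]; exact g.emb.lab hα)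
  refine ⟨R₄, ((g₁.comp g₂).comp g₃).comp g₄, c, ((k.comp g₂).comp g₃).comp g₄, k₁, g₄ ys, β,
    ⟨hc, congrArg (fun f => (Hom.comp f g₃).comp g₄) hk2, ((hmi.map g₂).map g₃).map g₄, hU.1, (hmc.map g₃).map g₄,
      Or.inr ⟨hys.map g₄, hU, fun R' g k₁' β' h' => hminβ R' (g₄.comp g) β' ⟨k₁', h'⟩⟩⟩,
    ((hb1.map g₂).map g₃).map g₄⟩

/-- the entries of the injection. -/
structure En (F X Y : Tm S₀) {S₁ : Obj} (f₁ : Hom S₀ S₁) : Type 1 where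
  R : Obj
  σ : Hom S₁ R
  c : Cd X Y
  k : Hom c.j.P R
  k₁ : Hom c.x.P R
  ys : R.α
  β : Lab
  ok : EnOk F X Y R (f₁.comp σ) (σ S₁.top) c k k₁ ys β

theorem En.ok' {S₁ : Obj} {f₁ : Hom S₀ S₁} (t : En F X Y f₁) {R : Obj} {σ : Hom S₁ R}
    (k : Hom t.R R) (hk : t.σ.comp k = σ) :
    EnOk F X Y R (f₁.comp σ) (σ S₁.top) t.c (t.k.comp k) (t.k₁.comp k) (k t.ys) t.β := by
  subst hk
  exact t.ok.map k

end pp

theorem pp_sem {S : Obj} (F X Y : Tm S) (h : Surj F X Y) :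
    ∃ (R : Obj) (f : Hom S R) (G : Tm R), Inj G (Y.map f) (X.map f) := by
  obtain ⟨S₁, f₁, hg, -⟩ := add_top S S.top fun _ => true
  refine ⟨S₁, f₁, graphTm S₁ (En F X Y f₁) (fun t => t.R) (fun t => t.σ)
    (fun t => t.c.j.tm.map t.k) (fun t => t.c.x.tm.map t.k₁), ?_, ?_, ?_⟩
  · intro R σ b hb R₁ g₁
    obtain ⟨R', g, c, k, k₁, ys, β, h1, h2⟩ := enOk_total h (f₁.comp (σ.comp g₁)) (g₁ (σ S₁.top))
      (g₁.emb.good (σ.emb.good hg)) (b.map g₁) (hb.map g₁)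
    refine ⟨R', g, c.x.tm.map k₁, ?_, ?_⟩
    · have := h1.1.1.1.map k₁
      rw [Tm.map_map, h1.2.2.2.1] at this
      exact this
    · rw [pm_graphTm]
      exact Dn.of_all fun R'' g' => ⟨⟨R', (σ.comp g₁).comp g, c, k, k₁, ys, β, h1⟩, g', rfl,
        h2.map g', TEq.refl _⟩
  · intro R σ b a a' h1 h2
    refine TEq.of_dn fun R₁ g₁ => ?_
    obtain ⟨R₂, g₂, t, k, e1, e2, e3⟩ := (pm_graphTm σ b a).1 h1 R₁ g₁
    obtain ⟨R₃, g₃, t', k', e1', e2', e3'⟩ := (pm_graphTm σ b a').1 h2 R₂ (g₁.comp g₂)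
    refine ⟨R₃, g₂.comp g₃, ?_⟩
    have o1 := t.ok' (k.comp g₃) (σ := σ.comp ((g₁.comp g₂).comp g₃)) (by
      rw [← Hom.comp_assoc, e1]; rfl)
    have o2 := t'.ok' k' e1'
    exact ((e3.map g₃).trans (enOk_func o1 o2 ((e2.map g₃).symm.trans e2'))).trans e3'.symm
  · intro R σ b b' a h1 h2
    refine TEq.of_dn fun R₁ g₁ => ?_
    obtain ⟨R₂, g₂, t, k, e1, e2, e3⟩ := (pm_graphTm σ b a).1 h1 R₁ g₁
    obtain ⟨R₃, g₃, t', k', e1', e2', e3'⟩ := (pm_graphTm σ b' a).1 h2 R₂ (g₁.comp g₂)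
    refine ⟨R₃, g₂.comp g₃, ?_⟩
    have o1 := t.ok' (k.comp g₃) (σ := σ.comp ((g₁.comp g₂).comp g₃)) (by
      rw [← Hom.comp_assoc, e1]; rfl)
    have o2 := t'.ok' k' e1'
    exact ((e2.map g₃).trans (enOk_inj h o1 o2 ((e3.map g₃).symm.trans e3'))).trans e2'.symm

theorem valid_ppAx : Valid ppAx := by
  intro S
  unfold ppAx
  rw [force_all]
  intro R₁ f₁ X
  rw [force_all]
  intro R₂ f₂ Y
  rw [force_imp]
  intro R₃ f₃ h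
  rw [force_ex] at h ⊢
  intro R₄ f₄
  obtain ⟨R₅, f₅, F, hF⟩ := h R₄ f₄
  have h1 := surj_of_force hF
  obtain ⟨R₆, f₆, G, hG⟩ := pp_sem _ _ _ h1
  exact ⟨R₆, f₅.comp f₆, G, force_of_inj hG⟩

end Crest.Agent.R296
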