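import Crest.Agent.R296.Conn

/-! # Semantic versions of the pair formulas (definitions) -/

set_option autoImplicit false

namespace Crest.Agent.R296

variable {S : Obj}

/-- `w` is forced to be `{a, b}`. -/
def IsUP (w a b : Tm S) : Prop :=
  ∀ (R : Obj) (f : Hom S R) (z : Tm R), TMem z (w.map f) ↔
    Dn R fun _ g => TEq (z.map g) (a.map (f.comp g)) ∨ TEq (z.map g) (b.map (f.comp g))

/-- `p` is forced to be the Kuratowski pair of `a` and `b`. -/
def IsOP (p a b : Tm S) : Prop :=
  ∀ (R : Obj) (f : Hom S R) (z : Tm R), TMem z (p.map f) ↔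
    Dn R fun _ g => IsUP (z.map g) (a.map (f.comp g)) (a.map (f.comp g)) ∨
      IsUP (z.map g) (a.map (f.comp g)) (b.map (f.comp g))

/-- the pair of `a` and `b` is forced to be a member of `F`. -/
def PM (F a b : Tm S) : Prop :=
  Dn S fun R g => ∃ p : Tm R, TMem p (F.map g) ∧ IsOP p (a.map g) (b.map g)

def upair (a b : Tm S) : Tm S :=
  mkTm S (ULift Bool) (fun _ => S) (fun _ => Hom.id S) fun i => cond i.down a b

def opair (a b : Tm S) : Tm S := upair (upair a a) (upair a b)

/-- the set of the pairs `(x i, y i)`. -/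
def graphTm (S : Obj) (ι : Type 1) (B : ι → Obj) (h : ∀ i, Hom S (B i)) (x y : ∀ i, Tm (B i)) :
    Tm S := mkTm S ι B h fun i => opair (x i) (y i)

/-- `F` is forced to be the graph of a map from `X` onto `Y`. -/
def Surj (F X Y : Tm S) : Prop :=
  (∀ (R : Obj) (f : Hom S R) (a : Tm R), TMem a (X.map f) →
    Dn R fun R' g => ∃ b : Tm R', TMem b (Y.map (f.comp g)) ∧ PM (F.map (f.comp g)) (a.map g) b) ∧
  (∀ (R : Obj) (f : Hom S R) (a b b' : Tm R), TMem a (X.map f) → PM (F.map f) a b →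
    PM (F.map f) a b' → TEq b b') ∧
  (∀ (R : Obj) (f : Hom S R) (b : Tm R), TMem b (Y.map f) →
    Dn R fun R' g => ∃ a : Tm R', TMem a (X.map (f.comp g)) ∧ PM (F.map (f.comp g)) a (b.map g))

/-- `G` is forced to be the graph of a one-to-one map from `Y` into `X`. -/
def Inj (G Y X : Tm S) : Prop :=
  (∀ (R : Obj) (f : Hom S R) (b : Tm R), TMem b (Y.map f) →
    Dn R fun R' g => ∃ a : Tm R', TMem a (X.map (f.comp g)) ∧ PM (G.map (f.comp g)) (b.map g) a) ∧
  (∀ (R : Obj) (f : Hom S R) (b a a' : Tm R), PM (G.map f) b a → PM (G.map f) b a' → TEq a a') ∧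
  (∀ (R : Obj) (f : Hom S R) (b b' a : Tm R), PM (G.map f) b a → PM (G.map f) b' a → TEq b b')

end Crest.Agent.R296
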