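import Mathlib

/-!
# Row 296 (ZF + PP + AC_WO + ¬AC): the forcing conditions

A *structure* is a partial order with a set of *compact* points (closed under binary glb's), every
point being the filtered meet of the compact points above it, together with
* `germ u s`  : `s` is a fundamental sequence of `u` (unique up to finitely many terms),
* `lab u t β` : `β` is the label of `u ≤ t` as seen from `t` (injective in `u`),
* `good e e'` : `e'` is a universal point over `e`,
* `clu A S`   : a *cluster*: for compact `d ≥ A` and `c ∈ S` the (filter) meet of `d` and `c` is in `S`.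
An *object* is a countable structure with a compact top; `Hom S R` are the embeddings.
-/

set_option autoImplicit false

namespace Crest.Agent.R296

abbrev Lab : Type := ℕ → Bool

def kap (β : Lab) : Lab := fun n => β (2 * n)

structure Str (α : Type) where
  le : α → α → Prop
  cpt : α → Prop
  germ : α → (ℕ → α) → Prop
  lab : α → α → Lab → Prop
  good : α → α → Prop
  clu : Set α → Set α → Prop
  le_refl : ∀ a, le a a
  le_trans : ∀ {a b c}, le a b → le b c → le a c
  le_antisymm : ∀ {a b}, le a b → le b a → a = b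
  sep : ∀ {u v}, (∀ D, cpt D → le v D → le u D) → le u v
  glb : ∀ {a b}, cpt a → cpt b → ∃ c, cpt c ∧ le c a ∧ le c b ∧ ∀ u, le u a → le u b → le u c
  germ_ex : ∀ u, ∃ s, germ u s
  germ_uniq : ∀ {u s s'}, germ u s → germ u s' → ∃ N, ∀ n, N ≤ n → s n = s' n
  germ_cpt : ∀ {u s}, germ u s → ∀ n, cpt (s n) ∧ le u (s n) ∧ le (s (n + 1)) (s n)
  germ_cof : ∀ {u s D}, germ u s → cpt D → le u D → ∃ n, le (s n) D
  lab_ex : ∀ {u t}, le u t → ∃ β, lab u t β
  lab_le : ∀ {u t β}, lab u t β → le u t
  lab_fun : ∀ {u t β β'}, lab u t β → lab u t β' → β = β'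
  lab_inj : ∀ {u u' t β}, lab u t β → lab u' t β → u = u'
  good_spec : ∀ {e e'}, good e e' → cpt e ∧ cpt e' ∧ le e e' ∧ ¬ le e' e
  clu_ne : ∀ {A S}, clu A S → A.Nonempty
  clu_le : ∀ {A S}, clu A S → ∀ a ∈ A, ∀ s ∈ S, le a s
  clu_meet : ∀ {A S}, clu A S → ∀ c ∈ S, ∀ d, cpt d → (∀ a ∈ A, le a d) →
    ∃ s ∈ S, le s d ∧ le s c ∧
      ∀ N, cpt N → le s N → ∃ M, cpt M ∧ le c M ∧ ∀ u, le u d → le u M → le u N
  clu_ng : ∀ {A S}, clu A S → ∀ c ∈ S, ∀ e e', good e e' → (∀ a ∈ A, le a e) → ¬ le e' c

structure Emb {α β : Type} (p : Str α) (q : Str β) (f : α → β) : Prop where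
  le_iff : ∀ a b, q.le (f a) (f b) ↔ p.le a b
  cpt : ∀ {a}, p.cpt a → q.cpt (f a)
  glb : ∀ {a b w}, p.cpt a → p.cpt b → q.le w (f a) → q.le w (f b) →
    ∃ c, p.cpt c ∧ p.le c a ∧ p.le c b ∧ q.le w (f c)
  germ : ∀ {u s}, p.germ u s → q.germ (f u) (f ∘ s)
  lab : ∀ {u t l}, p.lab u t l → q.lab (f u) (f t) l
  good : ∀ {e e'}, p.good e e' → q.good (f e) (f e')
  clu : ∀ {A S}, p.clu A S → q.clu (f '' A) (f '' S)

section emb
variable {α β γ : Type} {p : Str α} {q : Str β} {r : Str γ}

theorem Emb.refl (p : Str α) : Emb p p id where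
  le_iff _ _ := Iff.rfl
  cpt h := h
  glb ha hb h1 h2 := by
    obtain ⟨c, hc, h3, h4, h5⟩ := p.glb ha hb
    exact ⟨c, hc, h3, h4, h5 _ h1 h2⟩
  germ h := h
  lab h := h
  good h := h
  clu h := by simpa using h

theorem Emb.trans {f : α → β} {g : β → γ} (hf : Emb p q f) (hg : Emb q r g) :
    Emb p r (g ∘ f) where
  le_iff a b := (hg.le_iff _ _).trans (hf.le_iff a b)
  cpt h := hg.cpt (hf.cpt h)
  glb ha hb h1 h2 := by
    obtain ⟨c, hc, h3, h4, h5⟩ := hg.glb (hf.cpt ha) (hf.cpt hb) h1 h2
    obtain ⟨c', hc', h6, h7, h8⟩ := hf.glb ha hb h3 h4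
    exact ⟨c', hc', h6, h7, r.le_trans h5 ((hg.le_iff _ _).2 h8)⟩
  germ h := hg.germ (hf.germ h)
  lab h := hg.lab (hf.lab h)
  good h := hg.good (hf.good h)
  clu h := by
    have := hg.clu (hf.clu h)
    rwa [Set.image_image, Set.image_image] at this

theorem Emb.mono {f : α → β} (hf : Emb p q f) {a b : α} (h : p.le a b) : q.le (f a) (f b) :=
  (hf.le_iff a b).2 h

theorem Emb.inj {f : α → β} (hf : Emb p q f) : Function.Injective f := fun a b h =>
  p.le_antisymm ((hf.le_iff a b).1 (h ▸ q.le_refl _)) ((hf.le_iff b a).1 (h ▸ q.le_refl _))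

theorem Str.germ_anti (p : Str α) {u : α} {s : ℕ → α} (h : p.germ u s) {m n : ℕ} (hmn : m ≤ n) :
    p.le (s n) (s m) := by
  induction hmn with
  | refl => exact p.le_refl _
  | step _ ih => exact p.le_trans (p.germ_cpt h _).2.2 ih

theorem Str.ex_cpt (p : Str α) (u : α) : ∃ D, p.cpt D ∧ p.le u D := by
  obtain ⟨s, hs⟩ := p.germ_ex u
  exact ⟨s 0, (p.germ_cpt hs 0).1, (p.germ_cpt hs 0).2.1⟩

/-- compact points above `f u` are above the image of a compact point above `u`. -/
theorem Emb.cof {f : α → β} (hf : Emb p q f) {u : α} {D : β} (hD : q.cpt D) (h : q.le (f u) D) :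
    ∃ D', p.cpt D' ∧ p.le u D' ∧ q.le (f D') D := by
  obtain ⟨s, hs⟩ := p.germ_ex u
  obtain ⟨n, hn⟩ := q.germ_cof (hf.germ hs) hD h
  exact ⟨s n, (p.germ_cpt hs n).1, (p.germ_cpt hs n).2.1, hn⟩

theorem Emb.cpt_of {f : α → β} (hf : Emb p q f) {u : α} (h : q.cpt (f u)) : p.cpt u := by
  obtain ⟨D, hD, h1, h2⟩ := hf.cof h (q.le_refl _)
  rw [p.le_antisymm h1 ((hf.le_iff _ _).1 h2)]
  exact hD

/-- a glb of two compact points is preserved. -/
theorem Emb.glb' {f : α → β} (hf : Emb p q f) {a b c : α} (ha : p.cpt a) (hb : p.cpt b)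
    (hc : ∀ u, p.le u a → p.le u b → p.le u c) {w : β} (h1 : q.le w (f a)) (h2 : q.le w (f b)) :
    q.le w (f c) := by
  obtain ⟨c', _, h3, h4, h5⟩ := hf.glb ha hb h1 h2
  exact q.le_trans h5 (hf.mono (hc _ h3 h4))

/-- two embeddings that agree at `t` agree below `t`. -/
theorem Emb.share {f g : α → β} (hf : Emb p q f) (hg : Emb p q g) {t u : α} (ht : f t = g t)
    (hu : p.le u t) : f u = g u := by
  obtain ⟨l, hl⟩ := p.lab_ex hu
  have h1 := hf.lab hl
  have h2 := hg.lab hl
  rw [ht] at h1
  exact q.lab_inj h1 h2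

/-- two embeddings that agree at `u` agree at some compact point above `u`. -/
theorem Emb.share_cpt {f g : α → β} (hf : Emb p q f) (hg : Emb p q g) {u : α} (hu : f u = g u) :
    ∃ d, p.cpt d ∧ p.le u d ∧ f d = g d := by
  obtain ⟨s, hs⟩ := p.germ_ex u
  have h1 := hf.germ hs
  have h2 := hg.germ hs
  rw [hu] at h1
  obtain ⟨N, hN⟩ := q.germ_uniq h1 h2
  exact ⟨s N, (p.germ_cpt hs N).1, (p.germ_cpt hs N).2.1, hN N le_rfl⟩

/-- the conclusion of `clu_meet` ("`s` is the filter meet of `d` and `c`") is preserved. -/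
theorem Emb.isMeet {f : α → β} (hf : Emb p q f) {s d c : α} (hd : p.cpt d)
    (h : ∀ N, p.cpt N → p.le s N → ∃ M, p.cpt M ∧ p.le c M ∧ ∀ u, p.le u d → p.le u M → p.le u N) :
    ∀ N, q.cpt N → q.le (f s) N →
      ∃ M, q.cpt M ∧ q.le (f c) M ∧ ∀ u, q.le u (f d) → q.le u M → q.le u N := by
  intro N hN hsN
  obtain ⟨N', hN', h1, h2⟩ := hf.cof hN hsN
  obtain ⟨M, hM, h3, h4⟩ := h N' hN' h1
  exact ⟨f M, hf.cpt hM, hf.mono h3, fun u hu hu' => q.le_trans (hf.glb' hd hM h4 hu hu') h2⟩

/-- the set of labels used in a countable structure is countable. -/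
theorem Str.labels_countable [Countable α] (p : Str α) :
    Set.Countable {l : Lab | ∃ u t, p.lab u t l} := by
  have : {l : Lab | ∃ u t, p.lab u t l} = ⋃ u, ⋃ t, {l | p.lab u t l} := by
    ext l; simp
  rw [this]
  refine Set.countable_iUnion fun u => Set.countable_iUnion fun t => ?_
  exact Set.Subsingleton.countable fun _ h _ h' => p.lab_fun h h'

end emb

/-- fresh labels with prescribed `kap`. -/
theorem fresh_labels (C : Set Lab) (hC : C.Countable) (T : Type) [Countable T] (κ₀ : Lab) :
    ∃ φ : T → Lab, Function.Injective φ ∧ ∀ z, φ z ∉ C ∧ kap (φ z) = κ₀ := by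
  classical
  let ψ : Lab → Lab := fun γ n => if n % 2 = 0 then κ₀ (n / 2) else γ (n / 2)
  have hψ : Function.Injective ψ := by
    intro γ γ' h
    funext n
    have := congrFun h (2 * n + 1)
    simp only [ψ] at this
    have e1 : (2 * n + 1) % 2 = 1 := by omega
    have e2 : (2 * n + 1) / 2 = n := by omega
    simpa [e1, e2] using this
  have hk : ∀ γ, kap (ψ γ) = κ₀ := by
    intro γ; funext n
    simp [kap, ψ]
  have hinf : (ψ ⁻¹' C)ᶜ.Infinite := by
    intro hfin
    have h1 : (ψ ⁻¹' C).Countable := hC.preimage hψ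
    have h2 : (Set.univ : Set Lab).Countable := by
      rw [← Set.union_compl_self (ψ ⁻¹' C)]
      exact h1.union hfin.countable
    have h3 : Countable Lab := Set.countable_univ_iff.1 h2
    have h4 : Uncountable Lab := by
      refine ⟨fun hc => ?_⟩
      obtain ⟨g, hg⟩ := exists_surjective_nat Lab
      obtain ⟨n, hn⟩ := hg (fun n => !(g n n))
      have := congrFun hn n
      simp at this
    exact not_countable h3
  obtain ⟨e, he⟩ := Countable.exists_injective_nat T
  refine ⟨fun z => ψ (hinf.natEmbedding _ (e z)), ?_, fun z => ⟨?_, hk _⟩⟩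
  · intro z z' h
    have h1 := hψ h
    exact he ((hinf.natEmbedding _).injective (Subtype.ext h1))
  · exact (hinf.natEmbedding _ (e z)).2

/-- objects: countable structures with a compact top. -/
structure Obj : Type 1 where
  α : Type
  cnt : Countable α
  str : Str α
  top : α
  top_cpt : str.cpt top
  le_top : ∀ u, str.le u top

instance (S : Obj) : Countable S.α := S.cnt

structure Hom (S R : Obj) : Type where
  toFun : S.α → R.α
  emb : Emb S.str R.str toFun

instance (S R : Obj) : CoeFun (Hom S R) (fun _ => S.α → R.α) := ⟨Hom.toFun⟩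

def Hom.id (S : Obj) : Hom S S := ⟨fun x => x, Emb.refl _⟩

/-- diagrammatic composition: first `f`, then `g`. -/
def Hom.comp {S R T : Obj} (f : Hom S R) (g : Hom R T) : Hom S T :=
  ⟨fun x => g (f x), f.emb.trans g.emb⟩

@[simp] theorem Hom.id_apply {S : Obj} (x : S.α) : Hom.id S x = x := rfl
@[simp] theorem Hom.comp_apply {S R T : Obj} (f : Hom S R) (g : Hom R T) (x : S.α) :
    f.comp g x = g (f x) := rfl
@[simp] theorem Hom.id_comp {S R : Obj} (f : Hom S R) : (Hom.id S).comp f = f := rfl
@[simp] theorem Hom.comp_id {S R : Obj} (f : Hom S R) : f.comp (Hom.id R) = f := rfl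
theorem Hom.comp_assoc {S R T U : Obj} (f : Hom S R) (g : Hom R T) (h : Hom T U) :
    (f.comp g).comp h = f.comp (g.comp h) := rfl

theorem Hom.share {S R : Obj} (h h' : Hom S R) {t u : S.α} (ht : h t = h' t)
    (hu : S.str.le u t) : h u = h' u := h.emb.share h'.emb ht hu

/-- rigidity: an embedding is determined by the image of the top. -/
theorem Hom.ext_top {S R : Obj} (h h' : Hom S R) (ht : h S.top = h' S.top) : h = h' := by
  cases h with
  | mk f hf =>
    cases h' with
    | mk g hg =>
      have : f = g := funext fun u => hf.share hg ht (S.le_top u)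
      subst this
      rfl

/-- `y` is the (recorded) join of `x` and `e'`. -/
def Join (S : Obj) (y x e' : S.α) : Prop := S.str.clu {x, e'} {y}

theorem Join.map {S R : Obj} (f : Hom S R) {y x e' : S.α} (h : Join S y x e') :
    Join R (f y) (f x) (f e') := by
  have := f.emb.clu h
  rwa [Set.image_pair, Set.image_singleton] at this

theorem Join.le_left {S : Obj} {y x e' : S.α} (h : Join S y x e') : S.str.le x y :=
  S.str.clu_le h x (by simp) y (by simp)

theorem Join.lub {S : Obj} {y x e' u : S.α} (h : Join S y x e') (h1 : S.str.le x u)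
    (h2 : S.str.le e' u) : S.str.le y u := by
  refine S.str.sep fun D hD hu => ?_
  obtain ⟨s, hs, h3, -⟩ := S.str.clu_meet h y (by simp) D hD (by
    intro a ha
    rcases ha with rfl | ha
    · exact S.str.le_trans h1 hu
    · rw [Set.mem_singleton_iff.1 ha]; exact S.str.le_trans h2 hu)
  rw [Set.mem_singleton_iff.1 hs] at h3
  exact h3

theorem Join.uniq {S : Obj} {y y' x e' : S.α} (h : Join S y x e') (h' : Join S y' x e') :
    y = y' :=
  S.str.le_antisymm
    (h.lub h'.le_left (S.str.clu_le h' e' (by simp) y' (by simp)))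
    (h'.lub h.le_left (S.str.clu_le h e' (by simp) y (by simp)))

/-- the one-point object. -/
def unitObj : Obj where
  α := Unit
  cnt := inferInstance
  str :=
    { le := fun _ _ => True
      cpt := fun _ => True
      germ := fun _ _ => True
      lab := fun _ _ l => l = fun _ => true
      good := fun _ _ => False
      clu := fun _ _ => False
      le_refl := fun _ => trivial
      le_trans := fun _ _ => trivial
      le_antisymm := fun _ _ => rfl
      sep := fun _ => trivial
      glb := fun _ _ => ⟨(), trivial, trivial, trivial, fun _ _ _ => trivial⟩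
      germ_ex := fun _ => ⟨fun _ => (), trivial⟩
      germ_uniq := fun _ _ => ⟨0, fun _ _ => rfl⟩
      germ_cpt := fun _ _ => ⟨trivial, trivial, trivial⟩
      germ_cof := fun _ _ _ => ⟨0, trivial⟩
      lab_ex := fun _ => ⟨_, rfl⟩
      lab_le := fun _ => trivial
      lab_fun := fun h h' => h.trans h'.symm
      lab_inj := fun _ _ => rfl
      good_spec := fun h => h.elim
      clu_ne := fun h => h.elim
      clu_le := fun h => h.elim
      clu_meet := fun h => h.elim
      clu_ng := fun h => h.elim }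
  top := ()
  top_cpt := trivial
  le_top := fun _ => trivial

end Crest.Agent.R296
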