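import Crest.Agent.R296.Conn

/-!
# Extensionality, union, foundation, power set

PLAN.  Unfold with the `force_*` lemmas of `Conn.lean` (variables `0,1,2,3` of nested `Fin.snoc`s: prove small `rfl`/`simp`
lemmas or use `show`).  Witnesses are `mkTm` terms (`tmem_mkTm`, `tmem_mkTm_of`), the index type must live in `Type 1`.
* union of `a : Tm S`: index `(B, h : Hom S B, child data of a grandchild)`: e.g. all `(B, h, i, k₁, j, k₂)` with
  `k₁ : Hom (a.nm.B i) B` activating child `i` of `a.map h` and `k₂` activating child `j` of that child.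
* foundation: `act_induction` on `z`: if `z ∈ a` then densely some `m ∈ a` is forced disjoint from `a`
  (if `z` itself is not, some extension has `w ∈ z`, `w ∈ a`; `w` is densely an activated child of `z`).
* power set of `a : Tm S`: index `(B, h : Hom S B, Z : Set (Σ B', Hom B B' × a.nm.ι × B'.α))` such that the term
  `zT B Z := mkTm B Z (fun t => B') (fun t => hom) (fun t => ⟨a.nm.ch i, point⟩)` is forced to be a subset of `a.map h`;
  a term `w ⊆ a` at `R` equals `zT R Z` for `Z = {(B', h', i, pt) | ⟨ch i, pt⟩ is an activated child of a at B' and ∈ w}`.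
-/

set_option autoImplicit false

namespace Crest.Agent.R296

open FirstOrder FirstOrder.Language Crest.LogicCS.SetTheory

namespace ZF1

/-- the term whose children are the names `nm i` at the positions listed in `Z`. -/
def cmpTm (S : Obj) {ι : Type 1} (nm : ι → Name) (Z : Set (Σ B : Obj, Hom S B × ι × B.α)) : Tm S :=
  mkTm S Z (fun t => t.1.1) (fun t => t.1.2.1) (fun t => ⟨nm t.1.2.2.1, t.1.2.2.2⟩)

theorem tmem_cmpTm {S : Obj} {ι : Type 1} (nm : ι → Name) (P : ∀ R : Obj, Hom S R → Tm R → Prop)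
    (hP : ∀ (R R' : Obj) (f : Hom S R) (g : Hom R R') (z : Tm R), P R f z → P R' (f.comp g) (z.map g))
    {R : Obj} (f : Hom S R) (z : Tm R) :
    TMem z ((cmpTm S nm {t | P t.1 t.2.1 ⟨nm t.2.2.1, t.2.2.2⟩}).map f) ↔
      Dn R fun R' g => ∃ (i : ι) (u : R'.α), P R' (f.comp g) ⟨nm i, u⟩ ∧ TEq (z.map g) ⟨nm i, u⟩ := by
  refine (tmem_mkTm f z).trans ⟨fun h => h.imp ?_, fun h => h.imp ?_⟩
  · rintro R' g ⟨⟨⟨B, h, i, u⟩, ht⟩, k, h1, h2⟩
    exact ⟨i, k u, h1 ▸ hP B R' h k _ ht, h2⟩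
  · rintro R' g ⟨i, u, h1, h2⟩
    exact ⟨⟨⟨R', f.comp g, i, u⟩, h1⟩, Hom.id R', rfl, h2⟩

theorem exists_union {S : Obj} (a : Tm S) : ∃ U : Tm S, ∀ (R : Obj) (f : Hom S R) (z : Tm R),
    TMem z (U.map f) ↔
      Dn R fun T k => ∃ y : Tm T, TMem y (a.map (f.comp k)) ∧ TMem (z.map k) y := by
  refine ⟨_, fun R f z => (tmem_cmpTm (ι := Σ i : a.nm.ι, (a.nm.ch i).ι)
    (fun x => (a.nm.ch x.1).ch x.2) (fun R f z => ∃ y : Tm R, TMem y (a.map f) ∧ TMem z y)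
    (fun _ _ _ g _ ⟨y, h1, h2⟩ => ⟨y.map g, h1.map g, h2.map g⟩) f z).trans
      ⟨fun h => h.imp ?_, fun h T k => ?_⟩⟩
  · rintro T k ⟨i, u, ⟨y, h1, h2⟩, h3⟩
    exact ⟨y, h1, h2.congr_left h3.symm⟩
  · obtain ⟨T₁, k₁, y, h1, h2⟩ := h T k
    obtain ⟨T₂, k₂, w, hw, h3⟩ := h1.ex
    obtain ⟨T₃, k₃, v, hv, h4⟩ := ((h2.map k₂).congr_right h3).ex
    have h5 := TMem.of_act (hw.map k₃)
    have h6 := TMem.of_act hv
    obtain ⟨i, l, -, rfl⟩ := hw
    obtain ⟨j, l', -, rfl⟩ := hv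
    exact ⟨T₃, k₁.comp (k₂.comp k₃), ⟨i, j⟩, _, ⟨_, h5, h6⟩, h4⟩

/-- forced inclusion -/
def Sub {S : Obj} (z a : Tm S) : Prop :=
  ∀ (T : Obj) (k : Hom S T) (v : Tm T), TMem v (z.map k) → TMem v (a.map k)

theorem Sub.congr {S : Obj} {z z' a : Tm S} (h : Sub z a) (e : TEq z' z) : Sub z' a :=
  fun T k v hv => h T k v (hv.congr_right (e.map k))

theorem Sub.teq {S : Obj} {z a : Tm S} (h : Sub z a) :
    ∃ Z, TEq z (cmpTm S a.nm.ch Z) := by
  refine ⟨_, teq_ext fun T k v => Iff.symm ((tmem_cmpTm a.nm.ch (fun R f w => TMem w (z.map f))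
    (fun _ _ _ g _ h => h.map g) k v).trans ⟨fun h1 => ?_, fun h1 T₁ k₁ => ?_⟩)⟩
  · refine TMem.of_dn (h1.imp ?_)
    rintro T₁ k₁ ⟨i, u, h2, h3⟩
    exact h2.congr_left h3.symm
  · obtain ⟨T₂, k₂, w, hw, h2⟩ := h T k v h1 T₁ k₁
    have h3 := (h1.map (k₁.comp k₂)).congr_left h2
    obtain ⟨i, l, -, rfl⟩ := hw
    exact ⟨T₂, k₂, i, _, h3, h2⟩

theorem exists_power {S : Obj} (a : Tm S) : ∃ U : Tm S, ∀ (R : Obj) (f : Hom S R) (z : Tm R),
    TMem z (U.map f) ↔ Sub z (a.map f) := by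
  refine ⟨_, fun R f z => (tmem_cmpTm
    (ι := Σ B : Obj, Set (Σ B' : Obj, Hom B B' × a.nm.ι × B'.α))
    (fun x => (cmpTm x.1 a.nm.ch x.2).nm) (fun R f z => Sub z (a.map f))
    (fun _ _ _ g _ h T k => h T (g.comp k)) f z).trans ⟨fun h T k v hv => ?_, fun h => ?_⟩⟩
  · refine TMem.of_dn fun T₁ k₁ => ?_
    obtain ⟨T₂, k₂, i, u, h1, h2⟩ := h T₁ (k.comp k₁)
    exact ⟨T₂, k₂, h1.congr h2 T₂ (Hom.id _) _ (hv.map (k₁.comp k₂))⟩
  · refine Dn.of_all fun T k => ?_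
    have h1 : Sub (z.map k) (a.map (f.comp k)) := fun T' k' => h T' (k.comp k')
    obtain ⟨Z, hZ⟩ := h1.teq
    exact ⟨⟨T, Z⟩, T.top, h1.congr hZ.symm, hZ⟩

theorem exists_min (S : Obj) (z : Tm S) : ∀ a : Tm S, TMem z a →
    ∃ (R : Obj) (f : Hom S R) (m : Tm R), TMem m (a.map f) ∧
      ∀ (T : Obj) (k : Hom R T) (w : Tm T), TMem w (m.map k) → ¬ TMem w (a.map (f.comp k)) := by
  refine act_induction (P := fun S z => ∀ a : Tm S, TMem z a →
    ∃ (R : Obj) (f : Hom S R) (m : Tm R), TMem m (a.map f) ∧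
      ∀ (T : Obj) (k : Hom R T) (w : Tm T), TMem w (m.map k) → ¬ TMem w (a.map (f.comp k))) ?_ S z
  intro S z ih a hz
  by_cases h : ∀ (T : Obj) (k : Hom S T) (w : Tm T), TMem w (z.map k) → ¬ TMem w (a.map k)
  · exact ⟨S, Hom.id S, z, hz, h⟩
  · push Not at h
    obtain ⟨T, k, w, h1, h2⟩ := h
    obtain ⟨T₁, k₁, w', hw', h3⟩ := h1.ex
    obtain ⟨R, f, m, h4, h5⟩ := ih T₁ _ w' hw' _ ((h2.map k₁).congr_left h3)
    exact ⟨R, k.comp (k₁.comp f), m, h4, h5⟩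

end ZF1

theorem valid_extAx : Valid extAx := by
  intro S R f x R' g y R'' h H
  exact teq_ext fun T k z => force_iff.1 (H T k z) T (Hom.id T)

theorem valid_unionAx : Valid unionAx := by
  intro S R f a
  obtain ⟨U, hU⟩ := ZF1.exists_union a
  refine force_ex_of U fun R' g z => force_iff.2 fun T k => ?_
  refine (hU T (g.comp k) (z.map k)).trans (Iff.symm (force_ex.trans ?_))
  exact ⟨fun h => h.imp fun _ _ ⟨y, hy⟩ => ⟨y, force_inf.1 hy⟩,
    fun h => h.imp fun _ _ ⟨y, hy⟩ => ⟨y, force_inf.2 hy⟩⟩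

theorem valid_foundAx : Valid foundAx := by
  intro S R f a R' g hex
  refine force_ex.2 fun T k => ?_
  obtain ⟨T₁, k₁, z, hz⟩ := force_ex.1 hex T k
  obtain ⟨T₂, k₂, m, h1, h2⟩ := ZF1.exists_min T₁ z (a.map (g.comp (k.comp k₁))) hz
  refine ⟨T₂, k₁.comp k₂, m, force_inf.2 ⟨h1, fun T₃ k₃ h3 => ?_⟩⟩
  obtain ⟨T₄, k₄, w, hw⟩ := (force_ex.1 h3).here
  exact h2 T₄ (k₃.comp k₄) w (force_inf.1 hw).1 (force_inf.1 hw).2

theorem valid_powerAx : Valid powerAx := by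
  intro S R f a
  obtain ⟨U, hU⟩ := ZF1.exists_power a
  refine force_ex_of U fun R' g z => force_iff.2 fun T k => ?_
  refine (hU T (g.comp k) (z.map k)).trans ⟨fun h T₁ k₁ v T₂ k₂ hv => ?_, fun h T₁ k₁ v hv => ?_⟩
  · exact h T₂ (k₁.comp k₂) (v.map k₂) hv
  · exact h T₁ k₁ v T₁ (Hom.id _) hv

end Crest.Agent.R296
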