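import Crest.Agent.R296.Conn

/-! # Separation and replacement -/

set_option autoImplicit false

namespace Crest.Agent.R296

open FirstOrder FirstOrder.Language Crest.LogicCS.SetTheory

section snoc
variable {α : Type*} {n : ℕ}

theorem zf2_snoc_lt (e : Fin n → α) (x : α) (i : Fin (n + 1)) (h : (i : ℕ) < n) :
    (Fin.snoc e x : Fin (n + 1) → α) i = e ⟨i, h⟩ :=
  Fin.snoc_castSucc (α := fun _ => α) x e ⟨i, h⟩

theorem zf2_snoc_eq (e : Fin n → α) (x : α) (i : Fin (n + 1)) (h : (i : ℕ) = n) :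
    (Fin.snoc e x : Fin (n + 1) → α) i = x := by
  have : i = Fin.last n := Fin.ext h
  subst this
  exact Fin.snoc_last _ _

theorem zf2_sep_env (e : Fin n → α) (a b x : α) :
    ((Fin.snoc (Fin.snoc (Fin.snoc e a : Fin (n + 1) → α) b : Fin (n + 2) → α) x :
        Fin (n + 3) → α) ∘
      fun i : Fin (n + 1) => if (i : ℕ) < n then Fin.castAdd 2 i else Fin.addNat i 2) =
      Fin.snoc e x := by
  funext i
  have hi := i.2
  by_cases h : (i : ℕ) < n
  · simp only [Function.comp_apply, h, if_true]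
    rw [zf2_snoc_lt _ _ _ (by simp; omega), zf2_snoc_lt _ _ _ (by simp; omega),
      zf2_snoc_lt _ _ _ (by simpa using h), zf2_snoc_lt _ _ _ h]
    rfl
  · simp only [Function.comp_apply, h, if_false]
    rw [zf2_snoc_eq _ _ _ (by simp; omega), zf2_snoc_eq _ _ _ (by omega)]

theorem zf2_repl_env1 (e : Fin n → α) (a x y : α) :
    ((Fin.snoc (Fin.snoc (Fin.snoc e a : Fin (n + 1) → α) x : Fin (n + 2) → α) y :
        Fin (n + 3) → α) ∘
      fun i : Fin (n + 2) => if (i : ℕ) < n then Fin.castAdd 1 i else Fin.addNat i 1) =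
      Fin.snoc (Fin.snoc e x : Fin (n + 1) → α) y := by
  funext i
  have hi := i.2
  by_cases h : (i : ℕ) < n
  · simp only [Function.comp_apply, h, if_true]
    rw [zf2_snoc_lt _ _ _ (by simp), zf2_snoc_lt _ _ _ (by simp; omega),
      zf2_snoc_lt _ _ _ (by simpa using h), zf2_snoc_lt _ _ _ (by omega), zf2_snoc_lt _ _ _ h]
    rfl
  · simp only [Function.comp_apply, h, if_false]
    by_cases h' : (i : ℕ) = n
    · rw [zf2_snoc_lt _ _ _ (by simp; omega), zf2_snoc_eq _ _ _ (by simp; omega),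
        zf2_snoc_lt _ _ _ (by omega), zf2_snoc_eq _ _ _ h']
    · rw [zf2_snoc_eq _ _ _ (by simp; omega), zf2_snoc_eq _ _ _ (by omega)]

theorem zf2_repl_env2 (e : Fin n → α) (a b x y : α) :
    ((Fin.snoc (Fin.snoc (Fin.snoc (Fin.snoc e a : Fin (n + 1) → α) b : Fin (n + 2) → α) x :
        Fin (n + 3) → α) y : Fin (n + 4) → α) ∘
      fun i : Fin (n + 2) => if (i : ℕ) < n then Fin.castAdd 2 i else Fin.addNat i 2) =
      Fin.snoc (Fin.snoc e x : Fin (n + 1) → α) y := by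
  funext i
  have hi := i.2
  by_cases h : (i : ℕ) < n
  · simp only [Function.comp_apply, h, if_true]
    rw [zf2_snoc_lt _ _ _ (by simp; omega), zf2_snoc_lt _ _ _ (by simp),
      zf2_snoc_lt _ _ _ (by simp; omega),
      zf2_snoc_lt _ _ _ (by simpa using h), zf2_snoc_lt _ _ _ (by omega), zf2_snoc_lt _ _ _ h]
    rfl
  · simp only [Function.comp_apply, h, if_false]
    by_cases h' : (i : ℕ) = n
    · rw [zf2_snoc_lt _ _ _ (by simp; omega), zf2_snoc_eq _ _ _ (by simp; omega),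
        zf2_snoc_lt _ _ _ (by omega), zf2_snoc_eq _ _ _ h']
    · rw [zf2_snoc_eq _ _ _ (by simp; omega), zf2_snoc_eq _ _ _ (by omega)]

end snoc

/-- activated children at extensions. -/
structure ActIx {S : Obj} (a : Tm S) : Type 1 where
  B : Obj
  h : Hom S B
  i : a.nm.ι
  k : Hom (a.nm.B i) B
  hk : k (a.nm.a i) = h a.pt

def ActIx.tm {S : Obj} {a : Tm S} (t : ActIx a) : Tm t.B := ⟨a.nm.ch t.i, t.k (a.nm.d t.i)⟩

theorem ActIx.act {S : Obj} {a : Tm S} (t : ActIx a) : Act (a.map t.h) t.tm := ⟨t.i, t.k, t.hk, rfl⟩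

theorem sep_sem {k : ℕ} (φ : setL.BoundedFormula Empty (k + 1)) {S : Obj} (e : Fin k → Tm S)
    (a : Tm S) : ∃ b : Tm S, ∀ (R : Obj) (f : Hom S R) (x : Tm R),
      TMem x (b.map f) ↔ TMem x (a.map f) ∧ Force φ R (Fin.snoc (emap e f) x) := by
  refine ⟨mkTm S {t : ActIx a // Force φ t.B (Fin.snoc (emap e t.h) t.tm)} (fun t => t.1.B)
    (fun t => t.1.h) fun t => t.1.tm, fun R f x => ?_⟩
  rw [tmem_mkTm]
  constructor
  · intro h
    constructor
    · refine TMem.of_dn (h.imp ?_)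
      rintro R' g ⟨t, k', h1, h2⟩
      have := t.1.act.map k'
      rw [Tm.map_map, h1] at this
      exact TMem.of_act_teq this h2
    · refine Force.of_dn (h.imp ?_)
      rintro R' g ⟨t, k', h1, h2⟩
      have := t.2.map k'
      rw [emap_snoc, emap_emap, h1] at this
      rw [emap_snoc]
      exact this.congr_snoc h2.symm
  · rintro ⟨h1, h2⟩
    refine Dn.imp h1 ?_
    rintro R' g ⟨w, ⟨i, k', h3, rfl⟩, h4⟩
    refine ⟨⟨⟨R', f.comp g, i, k', h3⟩, ?_⟩, Hom.id _, rfl, h4⟩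
    have := h2.map g
    rw [emap_snoc] at this
    exact this.congr_snoc h4

theorem valid_sepAx (k : ℕ) (φ : setL.BoundedFormula Empty (k + 1)) : Valid (sepAx k φ) := by
  refine valid_alls fun S e => ?_
  rw [force_all]
  intro R f a
  obtain ⟨b, hb⟩ := sep_sem φ (emap e f) a
  refine force_ex_of b ?_
  rw [force_all]
  intro R₁ f₁ x
  rw [force_iff]
  intro R₂ f₂
  rw [force_inf, force_vmem, force_vmem, force_liftAt (Nat.le_succ k)]
  simp only [emap_snoc]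
  rw [zf2_sep_env, zf2_snoc_eq _ _ ⟨k + 2, _⟩ rfl, zf2_snoc_lt _ _ ⟨k + 1, _⟩ (by simp),
    zf2_snoc_eq _ _ ⟨k + 1, _⟩ rfl, zf2_snoc_lt _ _ ⟨k, _⟩ (by simp),
    zf2_snoc_lt _ _ ⟨k, _⟩ (by simp), zf2_snoc_eq _ _ ⟨k, _⟩ rfl]
  exact hb R₂ (f₁.comp f₂) (x.map f₂)

theorem repl_sem {k : ℕ} (φ : setL.BoundedFormula Empty (k + 2)) {S : Obj} (e : Fin k → Tm S)
    (a : Tm S) (h : ∀ (R : Obj) (f : Hom S R) (x : Tm R), TMem x (a.map f) →
      Dn R fun R' g => ∃ y : Tm R',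
        Force φ R' (Fin.snoc (Fin.snoc (emap e (f.comp g)) (x.map g) : Fin (k + 1) → Tm R') y)) :
    ∃ b : Tm S, ∀ (R : Obj) (f : Hom S R) (x : Tm R), TMem x (a.map f) →
      Dn R fun R' g => ∃ y : Tm R', TMem y (b.map (f.comp g)) ∧
        Force φ R' (Fin.snoc (Fin.snoc (emap e (f.comp g)) (x.map g) : Fin (k + 1) → Tm R') y) := by
  refine ⟨mkTm S {t : ActIx a // ∃ y : Tm t.B,
      Force φ t.B (Fin.snoc (Fin.snoc (emap e t.h) t.tm : Fin (k + 1) → Tm t.B) y)}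
    (fun t => t.1.B) (fun t => t.1.h) fun t => t.2.choose, fun R f x hx R₁ g₁ => ?_⟩
  obtain ⟨R₂, g₂, w, hw, h1⟩ := hx R₁ g₁
  obtain ⟨R₃, g₃, y, hy⟩ := (h R₂ (f.comp (g₁.comp g₂)) w (TMem.of_act hw)).here
  obtain ⟨i, k', h2, rfl⟩ := hw
  let t : {t : ActIx a // ∃ y : Tm t.B,
      Force φ t.B (Fin.snoc (Fin.snoc (emap e t.h) t.tm : Fin (k + 1) → Tm t.B) y)} :=
    ⟨⟨R₃, (f.comp (g₁.comp g₂)).comp g₃, i, k'.comp g₃, congrArg g₃ h2⟩, y, hy⟩
  refine ⟨R₃, g₂.comp g₃, t.2.choose,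
    TMem.of_act ((act_mkTm _ _).2 ⟨t, Hom.id _, rfl, rfl⟩), ?_⟩
  refine t.2.choose_spec.congr fun j => ?_
  refine Fin.lastCases ?_ (fun j => ?_) j
  · simp only [Fin.snoc_last]; exact TEq.refl _
  · refine Fin.lastCases ?_ (fun j => ?_) j
    · simp only [Fin.snoc_castSucc, Fin.snoc_last]; exact (h1.map g₃).symm
    · simp only [Fin.snoc_castSucc]; exact TEq.refl _

theorem valid_replAx (k : ℕ) (φ : setL.BoundedFormula Empty (k + 2)) : Valid (replAx k φ) := by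
  refine valid_alls fun S e => ?_
  rw [force_all]
  intro R f a
  rw [force_imp]
  intro R₁ f₁ h
  rw [emap_snoc] at h ⊢
  obtain ⟨b, hb⟩ := repl_sem φ (emap (emap e f) f₁) (a.map f₁) (by
    intro R₂ f₂ x hx
    have h1 := force_imp.1 (force_all.1 h R₂ f₂ x) R₂ (Hom.id _) (by
      rw [force_vmem, emap_id, emap_snoc, zf2_snoc_eq _ _ ⟨k + 1, _⟩ rfl,
        zf2_snoc_lt _ _ ⟨k, _⟩ (by simp), zf2_snoc_eq _ _ ⟨k, _⟩ rfl]
      exact hx)
    rw [force_ex] at h1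
    refine h1.imp ?_
    rintro R₃ g ⟨y, hy⟩
    refine ⟨y, ?_⟩
    have h2 := (force_inf.1 hy).1
    rw [force_liftAt (by omega)] at h2
    simp only [emap_snoc, emap_id] at h2
    rw [zf2_repl_env1] at h2
    exact h2)
  refine force_ex_of b ?_
  rw [force_all]
  intro R₂ f₂ x
  rw [force_imp]
  intro R₃ f₃ hx
  rw [force_vmem] at hx
  simp only [emap_snoc] at hx
  rw [zf2_snoc_eq _ _ ⟨k + 2, _⟩ rfl, zf2_snoc_lt _ _ ⟨k, _⟩ (by simp),
    zf2_snoc_lt _ _ ⟨k, _⟩ (by simp), zf2_snoc_eq _ _ ⟨k, _⟩ rfl] at hx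
  rw [force_ex]
  refine (hb R₃ (f₂.comp f₃) (x.map f₃) hx).imp ?_
  rintro R₄ g ⟨y, h1, h2⟩
  refine ⟨y, ?_⟩
  rw [force_inf, force_vmem, force_liftAt (by omega)]
  simp only [emap_snoc]
  rw [zf2_repl_env2, zf2_snoc_eq _ _ ⟨k + 3, _⟩ rfl, zf2_snoc_lt _ _ ⟨k + 1, _⟩ (by simp),
    zf2_snoc_lt _ _ ⟨k + 1, _⟩ (by simp), zf2_snoc_eq _ _ ⟨k + 1, _⟩ rfl]
  exact ⟨h1, h2⟩

end Crest.Agent.R296
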